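import Vale.Agent.P032.S5.H80.Anti

/-!
# P032: solid rays from antipodal arcs and the separation rule

`Irr.ray_rest326`: if `S(z)` has an exact arc with palette `P` at `g` and an exact arc with palette
`Q` at the antipode of `g`, and `T z` is contained in `P ∪ Q ∪ {p, q}` with an exact `pq`-arc, then
the two rays perpendicular to `g - z` are solid, one in `U p`, the other one in `U q`.
`Irr.sep326`: a solid ray of `a` and a solid ray of `b` are strictly on different sides of the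
line perpendicular to the direction of an exact `ab`-arc, and then near `z` all of `U a` and `U b` is
on these sides.
-/

open Set Filter Topology Metric

noncomputable section

namespace Vale.Agent.P032.Six

variable {k : ℕ} {U : Fin k → Set ℂ} {T : ℂ → Set (Fin k)}

theorem cis_add_pi326 (t : ℝ) : cis (t + Real.pi) = -cis t := by
  unfold cis
  push_cast
  rw [add_mul, Complex.exp_add, Complex.exp_pi_mul_I]
  ring

/-- the ray `u` perpendicular to a direction of an arc has no colour of the arc -/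
theorem Irr.ray_no326 (h : Irr U T) {z g u : ℂ} {P : Set (Fin k)} (hg : Arc T z g P) {σ : ℝ}
    (hσ : σ = 1 ∨ σ = -1) (hu : u = σ * (Complex.I * (g - z))) :
    ∀ᶠ r : ℝ in 𝓝[>] 0, ∀ i ∈ P, i ∉ Pal U (z + r * u) := by
  obtain ⟨t0, ht0⟩ := exists_cis (u := g - z) (by rw [← dist_eq_norm]; exact hg.1)
  have hgt : g = z + cis t0 := by rw [← ht0]; ring
  rw [hgt] at hg
  obtain ⟨η, hη, hJ⟩ := hg.exists_eta
  rw [ht0] at hu
  rw [eventually_all]
  intro i
  by_cases hi : i ∈ P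
  · have hc := h.mx.ray_avoid hη (i := i) (fun t ht => h.sub _ (by rw [hJ t ht]; exact hi)) hσ
    filter_upwards [hc] with r h1 _
    rw [hu]; exact h1
  · exact Eventually.of_forall fun r h1 => absurd h1 hi

/-- along the ray the palette is in `T z` -/
theorem ray_nhd326 (z u : ℂ) {p : ℂ → Prop} (hp : ∀ᶠ x in 𝓝 z, p x) :
    ∀ᶠ r : ℝ in 𝓝[>] 0, p (z + r * u) := by
  have hcont : Tendsto (fun r : ℝ => z + r * u) (𝓝[>] 0) (𝓝 z) := by
    have : Continuous fun r : ℝ => z + r * u := by fun_prop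
    have h2 := this.tendsto 0
    simp only [Complex.ofReal_zero, zero_mul, add_zero] at h2
    exact h2.mono_left nhdsWithin_le_nhds
  exact hcont.eventually hp

/-- antipodal arcs `P` at `g`, `Q` at `2 z - g`: one ray perpendicular to `g - z` -/
theorem Irr.ray_one326 (h : Irr U T) {z g u : ℂ} {P Q : Set (Fin k)} {p q : Fin k}
    (hg : Arc T z g P) (hg' : Arc T z (2 * z - g) Q) (hT : T z ⊆ {p, q} ∪ (P ∪ Q))
    (hpq : ∃ y, Arc T z y {p, q}) (hne : p ≠ q) {σ : ℝ} (hσ : σ = 1 ∨ σ = -1)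
    (hu : u = σ * (Complex.I * (g - z))) : Ray (U p) z u ∨ Ray (U q) z u := by
  obtain ⟨y, hy⟩ := hpq
  have hyT : T y = {p, q} := hy.mem
  have hnl := h.no_layer (z := z) (q := y) hy.1
  have e1 := h.ray_no326 hg hσ hu
  have e2 := h.ray_no326 (u := u) hg' (σ := -σ) (by rcases hσ with rfl | rfl <;> simp) (by
    rw [hu]; push_cast; ring)
  refine h.ray_solid ?_
  filter_upwards [e1, e2, ray_nhd326 z u (h.nhd z), ray_nhd326 z u hnl] with r h1 h2 h3 h4
  have h5 : T (z + r * u) ⊆ {p, q} := by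
    intro i hi
    rcases hT (h3 hi) with h6 | h6 | h6
    · exact h6
    · exact absurd (h.sub _ hi) (h1 i h6)
    · exact absurd (h.sub _ hi) (h2 i h6)
  refine ⟨h5, fun h6 => ?_⟩
  have h7 := h4 (by rw [hyT, h6])
  rw [h6, Set.ncard_pair hne] at h7
  omega

/-- **Solid rays from antipodal arcs.** -/
theorem Irr.ray_rest326 (h : Irr U T) {z g : ℂ} {P Q : Set (Fin k)} {p q : Fin k}
    (hg : Arc T z g P) (hg' : Arc T z (2 * z - g) Q) (hT : T z ⊆ {p, q} ∪ (P ∪ Q))
    (hpq : ∃ y, Arc T z y {p, q}) (hne : p ≠ q) :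
    (Ray (U p) z (Complex.I * (g - z)) ∧ Ray (U q) z (-(Complex.I * (g - z)))) ∨
      (Ray (U q) z (Complex.I * (g - z)) ∧ Ray (U p) z (-(Complex.I * (g - z)))) := by
  have h1 := h.ray_one326 hg hg' hT hpq hne (σ := 1) (Or.inl rfl) rfl
  have h2 := h.ray_one326 hg hg' hT hpq hne (σ := -1) (Or.inr rfl) rfl
  rw [Complex.ofReal_one, one_mul] at h1
  have e : ((-1 : ℝ) : ℂ) * (Complex.I * (g - z)) = -(Complex.I * (g - z)) := by push_cast; ring
  rw [e] at h2
  obtain ⟨y0, hy0⟩ := hpq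
  obtain ⟨y, hy, hyg, hyg2⟩ := hy0.exists_off_line (y := g)
  have hyT : T y = {p, q} := hy.mem
  have hip : ip (Complex.I * (g - z)) (y - z) ≠ 0 := by
    rw [ip_I]
    exact cr_ne_of hg.1 hy.1 (Ne.symm hyg) (by rw [add_comm]; exact hyg2)
  have hzy : dist z y = 1 := by rw [dist_comm]; exact hy.1
  have hno : ∀ i ∈ ({p, q} : Set (Fin k)), Ray (U i) z (Complex.I * (g - z)) →
      Ray (U i) z (-(Complex.I * (g - z))) → False := fun i hi r1 r2 =>
    h.mx.not_both_rays r1 r2 hzy (h.sub y (by rw [hyT]; exact hi)) hip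
  rcases h1 with h1 | h1 <;> rcases h2 with h2 | h2
  · exact (hno p (by simp) h1 h2).elim
  · exact Or.inl ⟨h1, h2⟩
  · exact Or.inr ⟨h1, h2⟩
  · exact (hno q (by simp) h1 h2).elim

/-- a ray with colours in `{m} ∪ R`, where `m` does not meet `R` near `z`, is solid in `m` or has
colours in `R` -/
theorem Irr.ray_split326 (h : Irr U T) {z u : ℂ} {m : Fin k} {R : Set (Fin k)} (hm : m ∉ R)
    (h1 : ∀ᶠ r : ℝ in 𝓝[>] 0, T (z + r * u) ⊆ insert m R ∧
      ∀ i ∈ R, ¬ (m ∈ T (z + r * u) ∧ i ∈ T (z + r * u))) :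
    Ray (U m) z u ∨ ∀ᶠ r : ℝ in 𝓝[>] 0, T (z + r * u) ⊆ R := by
  obtain ⟨δ, hδ, hd⟩ := mem_nhdsGT_iff_exists_Ioo_subset.1 h1
  have hcont : Continuous fun r : ℝ => z + r * u := by fun_prop
  have hcl : ∀ i, IsClosed {r : ℝ | i ∈ T (z + r * u)} := fun i => (h.closed i).preimage hcont
  have hclR : IsClosed {r : ℝ | ∃ i ∈ R, i ∈ T (z + r * u)} := by
    have : {r : ℝ | ∃ i ∈ R, i ∈ T (z + r * u)} = ⋃ i ∈ R, {r : ℝ | i ∈ T (z + r * u)} := by
      ext r; simp
    rw [this]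
    exact (Set.toFinite R).isClosed_biUnion fun i _ => hcl i
  have hpre : IsPreconnected (Ioo (0 : ℝ) δ) := isPreconnected_Ioo
  have hsub : Ioo (0 : ℝ) δ ⊆ {r : ℝ | m ∈ T (z + r * u)} ∪ {r : ℝ | ∃ i ∈ R, i ∈ T (z + r * u)} := by
    intro r hr
    obtain ⟨i, hi⟩ := h.ne (z + r * u)
    rcases (hd hr).1 hi with rfl | hib
    · exact Or.inl hi
    · exact Or.inr ⟨i, hib, hi⟩
  have hdis : ∀ r ∈ Ioo (0 : ℝ) δ, m ∈ T (z + r * u) → (∃ i ∈ R, i ∈ T (z + r * u)) → False := by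
    rintro r hr ha ⟨i, hiR, hi⟩
    exact (hd hr).2 i hiR ⟨ha, hi⟩
  by_cases hA : ∃ r ∈ Ioo (0 : ℝ) δ, m ∈ T (z + r * u)
  · left
    have hno : ∀ r ∈ Ioo (0 : ℝ) δ, ¬ ∃ i ∈ R, i ∈ T (z + r * u) := by
      by_contra hcon
      push Not at hcon
      obtain ⟨r', hr', i, hi, hi'⟩ := hcon
      obtain ⟨r, hr, ha⟩ := hA
      obtain ⟨s, hs, hsa, hsb⟩ := isPreconnected_closed_iff.1 hpre _ _ (hcl m) hclR hsub
        ⟨r, hr, ha⟩ ⟨r', hr', i, hi, hi'⟩
      exact hdis s hs hsa hsb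
    refine mem_nhdsGT_iff_exists_Ioo_subset.2 ⟨δ, hδ, fun r hr => ?_⟩
    refine h.mem_of_single fun i hi => ?_
    rcases (hd hr).1 hi with rfl | hib
    · rfl
    · exact absurd ⟨i, hib, hi⟩ (hno r hr)
  · right
    push Not at hA
    refine mem_nhdsGT_iff_exists_Ioo_subset.2 ⟨δ, hδ, fun r hr i hi => ?_⟩
    rcases (hd hr).1 hi with rfl | hib
    · exact absurd hi (hA r hr)
    · exact hib

/-- a solid ray of a colour of an exact arc is not perpendicular to the arc -/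
theorem Irr.ip_ne326 (h : Irr U T) {z g u : ℂ} {P : Set (Fin k)} {a : Fin k}
    (hg : Arc T z g P) (ha : a ∈ P) (hu0 : u ≠ 0) (hu : Ray (U a) z u) : ip u (g - z) ≠ 0 := by
  intro h0
  have hn : ‖g - z‖ = 1 := by rw [← dist_eq_norm]; exact hg.1
  obtain ⟨w, hw⟩ : ∃ w, w = g - z := ⟨_, rfl⟩
  rw [← hw] at h0 hn
  have hw2 := ip_sq hn
  -- `u = c * (I * w)`
  obtain ⟨c, hc⟩ : ∃ c : ℝ, c = w.re * u.im - w.im * u.re := ⟨_, rfl⟩
  have hcu : u = c * (Complex.I * w) := by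
    unfold ip at h0
    apply Complex.ext
    · simp only [Complex.mul_re, Complex.ofReal_re, Complex.ofReal_im, Complex.I_re, Complex.I_im,
        Complex.mul_im, hc]
      linear_combination (-u.re) * hw2 + w.re * h0
    · simp only [Complex.mul_re, Complex.ofReal_re, Complex.ofReal_im, Complex.I_re, Complex.I_im,
        Complex.mul_im, hc]
      linear_combination (-u.im) * hw2 + w.im * h0
  have hc0 : c ≠ 0 := by
    rintro rfl
    exact hu0 (by rw [hcu]; simp)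
  -- the sign
  obtain ⟨σ, hσ, hσc⟩ : ∃ σ : ℝ, (σ = 1 ∨ σ = -1) ∧ c = |c| * σ := by
    rcases lt_or_gt_of_ne hc0 with h1 | h1
    · exact ⟨-1, Or.inr rfl, by rw [abs_of_neg h1]; ring⟩
    · exact ⟨1, Or.inl rfl, by rw [abs_of_pos h1]; ring⟩
  have hcpos : 0 < |c| := abs_pos.2 hc0
  have e1 := h.ray_no326 (u := σ * (Complex.I * (g - z))) hg hσ rfl
  have e2 : ∀ᶠ r : ℝ in 𝓝[>] 0, a ∉ Pal U (z + ((|c| * r : ℝ) : ℂ) * (σ * (Complex.I * (g - z)))) := by
    have h1 : Tendsto (fun r : ℝ => |c| * r) (𝓝[>] 0) (𝓝[>] 0) := by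
      refine tendsto_nhdsWithin_iff.2 ⟨?_, ?_⟩
      · have h2 : Continuous fun r : ℝ => |c| * r := by fun_prop
        have h3 := h2.tendsto 0
        rw [mul_zero] at h3
        exact h3.mono_left nhdsWithin_le_nhds
      · filter_upwards [self_mem_nhdsWithin] with r hr
        exact mul_pos hcpos hr
    filter_upwards [h1.eventually e1] with r h2
    exact h2 a ha
  obtain ⟨r, h1, h2⟩ := (e2.and hu).exists
  refine h1 (subset_closure ?_)
  have e3 : z + ((|c| * r : ℝ) : ℂ) * (σ * (Complex.I * (g - z))) = z + r * u := by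
    rw [hcu, hw]
    have : (c : ℂ) = ((|c| * σ : ℝ) : ℂ) := by rw [← hσc]
    rw [this]
    push_cast
    ring
  rw [e3]
  exact h2

/-- near a point `g` of an exact `ab`-arc there are points inside and outside `S(z)` -/
theorem exists_side326 {z g : ℂ} (hg : dist g z = 1) {p : ℂ → Prop} (hp : ∀ᶠ x in 𝓝 g, p x) :
    (∃ x, p x ∧ 1 < dist x z) ∧ ∃ x, p x ∧ dist x z < 1 := by
  have hn : ‖g - z‖ = 1 := by rw [← dist_eq_norm]; exact hg
  have hc : ∀ s : ℝ, Tendsto (fun r : ℝ => g + ((s * r : ℝ) : ℂ) * (g - z)) (𝓝[>] 0) (𝓝 g) := by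
    intro s
    have : Continuous fun r : ℝ => g + ((s * r : ℝ) : ℂ) * (g - z) := by fun_prop
    have h2 := this.tendsto 0
    simp only [mul_zero, Complex.ofReal_zero, zero_mul, add_zero] at h2
    exact h2.mono_left nhdsWithin_le_nhds
  have hd : ∀ s r : ℝ, dist (g + ((s * r : ℝ) : ℂ) * (g - z)) z = |1 + s * r| := by
    intro s r
    have e : g + ((s * r : ℝ) : ℂ) * (g - z) - z = ((1 + s * r : ℝ) : ℂ) * (g - z) := by
      push_cast; ring
    rw [dist_eq_norm, e, norm_mul, hn, mul_one, Complex.norm_real, Real.norm_eq_abs]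
  have hsmall : ∀ᶠ r : ℝ in 𝓝[>] 0, 0 < r ∧ r < 1 := by
    filter_upwards [self_mem_nhdsWithin,
      mem_nhdsWithin_of_mem_nhds (Iio_mem_nhds (show (0 : ℝ) < 1 by norm_num))] with r h1 h2
    exact ⟨h1, h2⟩
  constructor
  · obtain ⟨r, h1, h2⟩ := (((hc 1).eventually hp).and hsmall).exists
    refine ⟨_, h1, ?_⟩
    rw [hd, abs_of_pos (by linarith [h2.1])]
    linarith [h2.1]
  · obtain ⟨r, h1, h2⟩ := (((hc (-1)).eventually hp).and hsmall).exists
    refine ⟨_, h1, ?_⟩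
    rw [hd, abs_of_pos (by linarith [h2.2])]
    linarith [h2.1]

/-- **Separation rule.** A solid ray `u` of `a` and a solid ray `v` of `b` are strictly on different
sides of the line perpendicular to the direction of an exact `ab`-arc; near `z` the colour `a` is
absent on the side of `v` and `b` is absent on the side of `u`. -/
theorem Irr.sep326 (h : Irr U T) {z g u v : ℂ} {a b : Fin k} (hg : Arc T z g {a, b})
    (hu0 : u ≠ 0) (hv0 : v ≠ 0) (hu : Ray (U a) z u) (hv : Ray (U b) z v) :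
    (0 < ip u (g - z) ∧ ip v (g - z) < 0 ∧ Sd U z g a b ∧ Sd U g z a b) ∨
      (ip u (g - z) < 0 ∧ 0 < ip v (g - z) ∧ Sd U z g b a ∧ Sd U g z b a) := by
  have h1 := h.ip_ne326 hg (by simp) hu0 hu
  have h2 := h.ip_ne326 hg (by simp) hv0 hv
  have hgT := hg.mem
  have hnear := h.nhd g
  rw [hgT] at hnear
  rcases lt_or_gt_of_ne h1 with h1 | h1 <;> rcases lt_or_gt_of_ne h2 with h2 | h2
  · exfalso
    obtain ⟨-, x, ⟨hx1, hx2, hx3⟩, hx4⟩ := exists_side326 hg.1
      (hnear.and ((h.mx.near hu hg.1 h1).and (h.mx.near hv hg.1 h2)))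
    obtain ⟨i, hi⟩ := h.ne x
    rcases hx1 hi with rfl | h5
    · exact hx2 hx4 (h.sub _ hi)
    · rw [mem_singleton_iff] at h5
      subst h5
      exact hx3 hx4 (h.sub _ hi)
  · right
    have hs : Sd U z g b a := by
      filter_upwards [h.mx.near hu hg.1 h1, h.mx.far hv hg.1 h2] with x h3 h4
      exact ⟨h4, h3⟩
    refine ⟨h1, h2, hs, h.sd_center (a := b) (b := a) (by rwa [pair_comm]) hs⟩
  · left
    have hs : Sd U z g a b := by
      filter_upwards [h.mx.far hu hg.1 h1, h.mx.near hv hg.1 h2] with x h3 h4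
      exact ⟨h3, h4⟩
    exact ⟨h1, h2, hs, h.sd_center hg hs⟩
  · exfalso
    obtain ⟨⟨x, ⟨hx1, hx2, hx3⟩, hx4⟩, -⟩ := exists_side326 hg.1
      (hnear.and ((h.mx.far hu hg.1 h1).and (h.mx.far hv hg.1 h2)))
    obtain ⟨i, hi⟩ := h.ne x
    rcases hx1 hi with rfl | h5
    · exact hx2 hx4 (h.sub _ hi)
    · rw [mem_singleton_iff] at h5
      subst h5
      exact hx3 hx4 (h.sub _ hi)

end Vale.Agent.P032.Six
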