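import Vale.Agent.P032.S5.H80.Ray

/-!
# P032: five rays in cyclic order

`Fan r`: for every `j` some line through the origin separates `r (j-1), r j` strictly from
`r (j+1), r (j+2)` (indices mod 5).  Then the rays are in cyclic order, with consecutive angles less
than a half turn, and for every direction the signs of the rays form one of the 20 cyclic intervals.
-/

open Set Filter Topology Metric

noncomputable section

namespace Vale.Agent.P032.Six

theorem f41_326 : ∀ j : Fin 5, j + 4 + 1 = j := by decide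
theorem f42_326 : ∀ j : Fin 5, j + 4 + 2 = j + 1 := by decide
theorem f44_326 : ∀ j : Fin 5, j + 4 + 4 = j + 3 := by decide
theorem f11_326 : ∀ j : Fin 5, j + 1 + 1 = j + 2 := by decide
theorem f21_326 : ∀ j : Fin 5, j + 2 + 1 = j + 3 := by decide
theorem f22_326 : ∀ j : Fin 5, j + 2 + 2 = j + 4 := by decide
theorem f31_326 : ∀ j : Fin 5, j + 3 + 1 = j + 4 := by decide
theorem f32_326 : ∀ j : Fin 5, j + 3 + 2 = j := by decide
theorem f43_326 : ∀ j : Fin 5, j + 4 + 3 = j + 2 := by decide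
theorem f12_326 : ∀ j : Fin 5, j + 1 + 2 = j + 3 := by decide
theorem f13_326 : ∀ j : Fin 5, j + 1 + 3 = j + 4 := by decide
theorem f14_326 : ∀ j : Fin 5, j + 1 + 4 = j := by decide
theorem f23_326 : ∀ j : Fin 5, j + 2 + 3 = j := by decide
theorem f24_326 : ∀ j : Fin 5, j + 2 + 4 = j + 1 := by decide
theorem f33_326 : ∀ j : Fin 5, j + 3 + 3 = j + 1 := by decide
theorem f34_326 : ∀ j : Fin 5, j + 3 + 4 = j + 2 := by decide

/-- five rays, `r (j-1), r j` and `r (j+1), r (j+2)` separated by a line for every `j` -/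
def Fan (r : Fin 5 → ℂ) : Prop :=
  ∀ j, ∃ e, 0 < ip (r (j + 4)) e ∧ 0 < ip (r j) e ∧ ip (r (j + 1)) e < 0 ∧ ip (r (j + 2)) e < 0

/-- three vectors of the plane are dependent -/
theorem dep326 (a b c e : ℂ) : cr b c * ip a e + cr c a * ip b e + cr a b * ip c e = 0 := by
  unfold cr ip
  ring

theorem cr_self326 (a : ℂ) : cr a a = 0 := by unfold cr; ring

theorem cr_swap326 (a b : ℂ) : cr b a = -cr a b := by unfold cr; ring

theorem ip_neg_right326 (a e : ℂ) : ip a (-e) = -ip a e := by unfold ip; simp; ring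

/-- two vectors with cross product zero: signs -/
theorem sign_of_cr_zero326 {a b e f : ℂ} (h : cr a b = 0) (h1 : 0 < ip a e) (h2 : 0 < ip b e)
    (h3 : 0 < ip a f) (h4 : ip b f < 0) : False := by
  -- `a * ip b e = b * ip a e`
  have key : ip a f * ip b e = ip b f * ip a e := by
    have e1 : ip a f * ip b e - ip b f * ip a e = -(cr a b * cr e f) := by
      unfold ip cr; ring
    rw [h, zero_mul, neg_zero] at e1
    linarith
  have h5 : 0 < ip a f * ip b e := mul_pos h3 h2
  have h6 : ip b f * ip a e < 0 := mul_neg_of_neg_of_pos h4 h1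
  linarith

/-- one step: the three consecutive rays `a, b, c` turn in the same direction -/
theorem turn_step326 {a b c e f : ℂ} (h1 : 0 < ip a e) (h2 : 0 < ip b e) (h3 : ip c e < 0)
    (h4 : 0 < ip a f) (h5 : ip b f < 0) (h6 : ip c f < 0) :
    (0 < cr a b ∧ 0 < cr b c) ∨ (cr a b < 0 ∧ cr b c < 0) := by
  have d1 := dep326 a b c e
  have d2 := dep326 a b c f
  rcases lt_trichotomy (cr a b) 0 with h | h | h
  · right
    refine ⟨h, ?_⟩
    by_contra hcon
    push Not at hcon
    have p1 : 0 < cr a b * ip c e := mul_pos_of_neg_of_neg h h3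
    have p2 : 0 ≤ cr b c * ip a e := mul_nonneg hcon h1.le
    have p3 : cr c a * ip b e < 0 := by linarith
    have p4 : cr c a < 0 := by
      by_contra h7
      push Not at h7
      have := mul_nonneg h7 h2.le
      linarith
    have p5 : 0 < cr a b * ip c f := mul_pos_of_neg_of_neg h h6
    have p6 : 0 ≤ cr b c * ip a f := mul_nonneg hcon h4.le
    have p7 : 0 < cr c a * ip b f := mul_pos_of_neg_of_neg p4 h5
    linarith
  · exfalso
    exact sign_of_cr_zero326 h h1 h2 h4 h5
  · left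
    refine ⟨h, ?_⟩
    by_contra hcon
    push Not at hcon
    have p1 : cr a b * ip c e < 0 := mul_neg_of_pos_of_neg h h3
    have p2 : cr b c * ip a e ≤ 0 := mul_nonpos_of_nonpos_of_nonneg hcon h1.le
    have p3 : 0 < cr c a * ip b e := by linarith
    have p4 : 0 < cr c a := by
      by_contra h7
      push Not at h7
      have := mul_nonpos_of_nonpos_of_nonneg h7 h2.le
      linarith
    have p5 : cr a b * ip c f < 0 := mul_neg_of_pos_of_neg h h6
    have p6 : cr b c * ip a f ≤ 0 := mul_nonpos_of_nonpos_of_nonneg hcon h4.le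
    have p7 : cr c a * ip b f < 0 := mul_neg_of_pos_of_neg p4 h5
    linarith

/-- mirror image -/
theorem ip_conj326 (a e : ℂ) : ip (starRingEnd ℂ a) (starRingEnd ℂ e) = ip a e := by
  unfold ip; simp

theorem cr_conj326 (a e : ℂ) : cr (starRingEnd ℂ a) (starRingEnd ℂ e) = -cr a e := by
  unfold cr; simp; ring

theorem Fan.conj {r : Fin 5 → ℂ} (h : Fan r) : Fan fun j => starRingEnd ℂ (r j) := by
  intro j
  obtain ⟨e, h1, h2, h3, h4⟩ := h j
  exact ⟨starRingEnd ℂ e, by rwa [ip_conj326], by rwa [ip_conj326], by rwa [ip_conj326],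
    by rwa [ip_conj326]⟩

/-- **the five rays turn in one direction** -/
theorem Fan.turn {r : Fin 5 → ℂ} (h : Fan r) :
    (∀ j, 0 < cr (r j) (r (j + 1))) ∨ ∀ j, cr (r j) (r (j + 1)) < 0 := by
  -- step from `j + 4` to `j`
  have step : ∀ j, (0 < cr (r (j + 4)) (r j) ∧ 0 < cr (r j) (r (j + 1))) ∨
      (cr (r (j + 4)) (r j) < 0 ∧ cr (r j) (r (j + 1)) < 0) := by
    intro j
    obtain ⟨e, h1, h2, h3, -⟩ := h j
    obtain ⟨f, -, h5, h6, h7⟩ := h (j + 4)
    have e1 : j + 4 + 1 = j := f41_326 j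
    have e2 : j + 4 + 2 = j + 1 := f42_326 j
    rw [e1] at h6
    rw [e2] at h7
    exact turn_step326 h1 h2 h3 h5 h6 h7
  have e40 : (4 : Fin 5) + 4 = 3 := by decide
  have s0 := step 0
  have s1 := step 1
  have s2 := step 2
  have s3 := step 3
  have s4 := step 4
  have q04 : (0 : Fin 5) + 4 = 4 := by decide
  have q01 : (0 : Fin 5) + 1 = 1 := by decide
  have q14 : (1 : Fin 5) + 4 = 0 := by decide
  have q11 : (1 : Fin 5) + 1 = 2 := by decide
  have q24 : (2 : Fin 5) + 4 = 1 := by decide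
  have q21 : (2 : Fin 5) + 1 = 3 := by decide
  have q34 : (3 : Fin 5) + 4 = 2 := by decide
  have q31 : (3 : Fin 5) + 1 = 4 := by decide
  have q44 : (4 : Fin 5) + 4 = 3 := by decide
  have q41 : (4 : Fin 5) + 1 = 0 := by decide
  rw [q04, q01] at s0
  rw [q14, q11] at s1
  rw [q24, q21] at s2
  rw [q34, q31] at s3
  rw [q44, q41] at s4
  rcases s0 with ⟨a0, b0⟩ | ⟨a0, b0⟩
  · left
    have b1 : 0 < cr (r 1) (r 2) := by
      rcases s1 with ⟨-, h2⟩ | ⟨h1, -⟩
      · exact h2
      · linarith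
    have b2 : 0 < cr (r 2) (r 3) := by
      rcases s2 with ⟨-, h2⟩ | ⟨h1, -⟩
      · exact h2
      · linarith
    have b3 : 0 < cr (r 3) (r 4) := by
      rcases s3 with ⟨-, h2⟩ | ⟨h1, -⟩
      · exact h2
      · linarith
    intro j
    fin_cases j
    · exact b0
    · exact b1
    · exact b2
    · exact b3
    · exact a0
  · right
    have b1 : cr (r 1) (r 2) < 0 := by
      rcases s1 with ⟨h1, -⟩ | ⟨-, h2⟩
      · linarith
      · exact h2
    have b2 : cr (r 2) (r 3) < 0 := by
      rcases s2 with ⟨h1, -⟩ | ⟨-, h2⟩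
      · linarith
      · exact h2
    have b3 : cr (r 3) (r 4) < 0 := by
      rcases s3 with ⟨h1, -⟩ | ⟨-, h2⟩
      · linarith
      · exact h2
    intro j
    fin_cases j
    · exact b0
    · exact b1
    · exact b2
    · exact b3
    · exact a0

/-- `r i, r (i+2)` not turning positively: then `r (i+2), r (i+4)` do -/
theorem Fan.diag {r : Fin 5 → ℂ} (h : Fan r) (hp : ∀ j, 0 < cr (r j) (r (j + 1))) (i : Fin 5)
    (hi : cr (r i) (r (i + 2)) ≤ 0) : 0 < cr (r (i + 2)) (r (i + 4)) := by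
  -- the four rays `r (i+4), r i | r (i+1), r (i+2)` of the separation at `i`
  obtain ⟨e, h1, h2, h3, h4⟩ := h i
  have d := dep326 (r (i + 4)) (r i) (r (i + 2)) e
  have e1 : i + 4 + 1 = i := f41_326 i
  have p1 := hp (i + 4)
  rw [e1] at p1
  -- cr (r i) (r (i+2)) * ip (r (i+4)) + cr (r (i+2)) (r (i+4)) * ip (r i) + cr (r (i+4)) (r i) * ip (r (i+2)) = 0
  have q1 : cr (r i) (r (i + 2)) * ip (r (i + 4)) e ≤ 0 :=
    mul_nonpos_of_nonpos_of_nonneg hi h1.le
  have q2 : cr (r (i + 4)) (r i) * ip (r (i + 2)) e < 0 := mul_neg_of_pos_of_neg p1 h4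
  have q3 : 0 < cr (r (i + 2)) (r (i + 4)) * ip (r i) e := by linarith
  by_contra hcon
  push Not at hcon
  have := mul_nonpos_of_nonpos_of_nonneg hcon h2.le
  linarith

/-- alternating signs at three consecutive rays -/
theorem alt_neg326 {a b c e : ℂ} (h1 : 0 < cr a b) (h2 : 0 < cr b c)
    (h : (0 < ip a e ∧ ip b e < 0 ∧ 0 < ip c e) ∨ (ip a e < 0 ∧ 0 < ip b e ∧ ip c e < 0)) :
    cr a c < 0 := by
  have d := dep326 a b c e
  have hs : cr c a = -cr a c := cr_swap326 a c
  rcases h with ⟨h3, h4, h5⟩ | ⟨h3, h4, h5⟩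
  · by_contra hcon
    push Not at hcon
    have q1 : 0 < cr b c * ip a e := mul_pos h2 h3
    have q2 : 0 < cr a b * ip c e := mul_pos h1 h5
    have q3 : 0 ≤ cr c a * ip b e := mul_nonneg_of_nonpos_of_nonpos (by linarith) h4.le
    linarith
  · by_contra hcon
    push Not at hcon
    have q1 : cr b c * ip a e < 0 := mul_neg_of_pos_of_neg h2 h3
    have q2 : cr a b * ip c e < 0 := mul_neg_of_pos_of_neg h1 h5
    have q3 : cr c a * ip b e ≤ 0 := mul_nonpos_of_nonpos_of_nonneg (by linarith) h4.le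
    linarith

/-- **no double alternation**: not `r j, r (j+2)` on one side and `r (j+1), r (j+3)` on the other
side; only the two alternating triples `(j-1, j, j+1)` and `(j+1, j+2, j+3)` are used -/
theorem Fan.no_alt_pos {r : Fin 5 → ℂ} (h : Fan r) (hp : ∀ j, 0 < cr (r j) (r (j + 1))) (j : Fin 5)
    (e : ℂ)
    (h1 : (0 < ip (r (j + 4)) e ∧ ip (r j) e < 0 ∧ 0 < ip (r (j + 1)) e) ∨
      (ip (r (j + 4)) e < 0 ∧ 0 < ip (r j) e ∧ ip (r (j + 1)) e < 0))
    (h2 : (0 < ip (r (j + 1)) e ∧ ip (r (j + 2)) e < 0 ∧ 0 < ip (r (j + 3)) e) ∨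
      (ip (r (j + 1)) e < 0 ∧ 0 < ip (r (j + 2)) e ∧ ip (r (j + 3)) e < 0)) : False := by
  have e1 : j + 4 + 1 = j := f41_326 j
  have e2 : j + 4 + 2 = j + 1 := f42_326 j
  have e3 : j + 4 + 4 = j + 3 := f44_326 j
  have e4 : j + 1 + 1 = j + 2 := f11_326 j
  have e5 : j + 2 + 1 = j + 3 := f21_326 j
  have p1 := hp (j + 4)
  rw [e1] at p1
  have p3 := hp (j + 1)
  rw [e4] at p3
  have p4 := hp (j + 2)
  rw [e5] at p4
  have a1 : cr (r (j + 4)) (r (j + 1)) < 0 := alt_neg326 p1 (hp j) h1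
  have a2 : cr (r (j + 1)) (r (j + 3)) < 0 := alt_neg326 p3 p4 h2
  have a3 := h.diag hp (j + 4) (by rw [e2]; exact a1.le)
  rw [e2, e3] at a3
  linarith

/-- the rays are not in a closed half plane -/
theorem Fan.not_half_pos {r : Fin 5 → ℂ} (hp : ∀ j, 0 < cr (r j) (r (j + 1))) (e : ℂ)
    (h1 : ∀ j, 0 < ip (r j) e) : False := by
  have key : ∀ a b c : ℂ, 0 < ip a e → 0 < ip b e → 0 < ip c e → 0 < cr a b → 0 < cr b c →
      0 < cr a c := by
    intro a b c h2 h3 h4 h5 h6
    have d := dep326 a b c e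
    have hs : cr c a = -cr a c := cr_swap326 a c
    by_contra hcon
    push Not at hcon
    have q1 : 0 < cr b c * ip a e := mul_pos h6 h2
    have q2 : 0 < cr a b * ip c e := mul_pos h5 h4
    have q3 : 0 ≤ cr c a * ip b e := mul_nonneg (by linarith) h3.le
    linarith
  have a1 := key _ _ _ (h1 0) (h1 1) (h1 2) (hp 0) (hp 1)
  have a2 := key _ _ _ (h1 0) (h1 2) (h1 3) a1 (hp 2)
  have a3 := key _ _ _ (h1 0) (h1 3) (h1 4) a2 (hp 3)
  have a4 := hp 4
  have e1 : (4 : Fin 5) + 1 = 0 := by decide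
  rw [e1, cr_swap326] at a4
  linarith

/-- **cyclic order, both orientations**: two alternating triples with a common end are impossible -/
theorem Fan.no_alt {r : Fin 5 → ℂ} (h : Fan r) (j : Fin 5) (e : ℂ)
    (h1 : (0 < ip (r (j + 4)) e ∧ ip (r j) e < 0 ∧ 0 < ip (r (j + 1)) e) ∨
      (ip (r (j + 4)) e < 0 ∧ 0 < ip (r j) e ∧ ip (r (j + 1)) e < 0))
    (h2 : (0 < ip (r (j + 1)) e ∧ ip (r (j + 2)) e < 0 ∧ 0 < ip (r (j + 3)) e) ∨
      (ip (r (j + 1)) e < 0 ∧ 0 < ip (r (j + 2)) e ∧ ip (r (j + 3)) e < 0)) : False := by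
  rcases h.turn with hp | hn
  · exact h.no_alt_pos hp j e h1 h2
  · refine h.conj.no_alt_pos (fun j => ?_) j (starRingEnd ℂ e) ?_ ?_
    · rw [cr_conj326]
      have := hn j
      linarith
    · simpa only [ip_conj326] using h1
    · simpa only [ip_conj326] using h2

/-- the rays are not on one side of a line -/
theorem Fan.not_half {r : Fin 5 → ℂ} (h : Fan r) (e : ℂ) (h1 : ∀ j, 0 < ip (r j) e) : False := by
  rcases h.turn with hp | hn
  · exact Fan.not_half_pos hp e h1
  · refine Fan.not_half_pos (r := fun j => starRingEnd ℂ (r j)) (fun j => ?_) (starRingEnd ℂ e)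
      fun j => ?_
    · rw [cr_conj326]
      have := hn j
      linarith
    · rw [ip_conj326]; exact h1 j

/-- the sign vector of a direction, as a function on `Fin 5` -/
def sgv (r : Fin 5 → ℂ) (e : ℂ) (j : Fin 5) : Bool := decide (0 < ip (r j) e)

/-- the 20 cyclic intervals of `Fin 5` of length 1 to 4 -/
def cycInt (s : Fin 5 → Bool) : Bool :=
  decide (∃ a : Fin 5, ∃ n : Fin 4, ∀ i : Fin 5, s (a + i) = decide (i.val ≤ n.val))

/-- a sign vector without two alternating triples with a common end, and not constant, is one of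
the 20 cyclic intervals -/
theorem cycInt_of326 : ∀ s : Fin 5 → Bool, (∃ i, s i = true) → (∃ i, s i = false) →
    (∀ j : Fin 5, ¬ ((s (j + 4) = !s j ∧ s (j + 1) = !s j) ∧
      (s (j + 1) = !s (j + 2) ∧ s (j + 3) = !s (j + 2)))) → cycInt s = true := by
  unfold cycInt
  decide

/-- **the sign vector of a direction is a cyclic interval** -/
theorem Fan.cyc {r : Fin 5 → ℂ} (h : Fan r) {e : ℂ} (he : ∀ j, ip (r j) e ≠ 0) :
    cycInt (sgv r e) = true := by
  have hpos : ∀ j, sgv r e j = true → 0 < ip (r j) e := fun j hj => by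
    unfold sgv at hj; exact of_decide_eq_true hj
  have hneg : ∀ j, sgv r e j = false → ip (r j) e < 0 := fun j hj => by
    unfold sgv at hj
    have := of_decide_eq_false hj
    exact lt_of_le_of_ne (not_lt.1 this) (he j)
  refine cycInt_of326 _ ?_ ?_ fun j hj => ?_
  · by_contra hcon
    push Not at hcon
    refine h.not_half (-e) fun j => ?_
    rw [ip_neg_right326]
    have := hneg j (by simpa using hcon j)
    linarith
  · by_contra hcon
    push Not at hcon
    exact h.not_half e fun j => hpos j (by simpa using hcon j)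
  · obtain ⟨⟨h1, h2⟩, h3, h4⟩ := hj
    refine h.no_alt j e ?_ ?_
    · cases hs : sgv r e j
      · rw [hs] at h1 h2
        exact Or.inl ⟨hpos _ h1, hneg _ hs, hpos _ h2⟩
      · rw [hs] at h1 h2
        exact Or.inr ⟨hneg _ h1, hpos _ hs, hneg _ h2⟩
    · cases hs : sgv r e (j + 2)
      · rw [hs] at h3 h4
        exact Or.inl ⟨hpos _ h3, hneg _ hs, hpos _ h4⟩
      · rw [hs] at h3 h4
        exact Or.inr ⟨hneg _ h3, hpos _ hs, hneg _ h4⟩

end Vale.Agent.P032.Six
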