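import Vale.Agent.P032.H326.Rays5
import Vale.Agent.P032.H326.Fan5
import Vale.Agent.P032.S5.H555.Chord

/-!
# P032: windows at a five-coloured point all of whose five diagonals are exact (wild frame)

`P5 T z c`: `T z = {c 0, ..., c 4}` and every `{c j, c (j+2)}` is the palette of a point of `S(z)`.
* `P5.ray`: every colour has a solid ray at `z`.
* `P5.strict`: every exact `{c j, c (j+2)}` direction separates the two colours strictly near `z`.
* `P5.near`: near `z` (except `z`) every palette is contained in some `{c j, c (j+1)}`.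
* `P5.contact`: `c j` and `c (j+1)` meet near `z`.
* `P5.exists_win`: five unit vectors `r j` (accumulation directions of points with `c j, c (j+1)`)
  such that every exact `{c j, c (j+2)}` direction separates `r (j-1), r j` from `r (j+1), r (j+2)`.
-/

open Set Filter Topology Metric

noncomputable section

namespace Vale.Agent.P032.Six

variable {k : ℕ} {U : Fin k → Set ℂ} {T : ℂ → Set (Fin k)}

/-- `T z = range c` and all five diagonals are exact on `S(z)` -/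
structure P5 (T : ℂ → Set (Fin k)) (z : ℂ) (c : Fin 5 → Fin k) : Prop where
  inj : Function.Injective c
  rng : T z = range c
  ex : ∀ j, ∃ q, dist q z = 1 ∧ T q = {c j, c (j + 2)}

namespace Irr

/-- a point of `S(z)` with a pair of colours of `z` is interior to an exact arc -/
theorem arc_of326 (h : Irr U T) {z q : ℂ} {a b : Fin k} (hq : dist q z = 1) (hT : T q = {a, b})
    (ha : a ∈ T z) (hb : b ∈ T z) : Arc T z q {a, b} := by
  refine ⟨hq, ?_⟩
  filter_upwards [mem_nhdsWithin_of_mem_nhds (h.nhd q), self_mem_nhdsWithin] with q' h1 h2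
  rw [hT] at h1
  exact h.pair_of_sub h2 (h.sub z ha) (h.sub z hb) h1

/-- a colour of a point with at least four colours meets other colours not only at points with one
fixed other colour `d` -/
theorem not_sole326 (h : Irr U T)
    (hmin : ∀ z, 4 ≤ (T z).ncard → ∀ s, s ⊆ T z → s ≠ T z →
      ¬ ∀ᶠ w in 𝓝 z, ∃ i ∈ s, w ∈ U i ∨ (w ∈ XX U ∧ i ∈ Pal U w)) {z p : ℂ} {a d : Fin k}
    (h4 : 4 ≤ (T z).ncard) (ha : a ∈ T z) (hd : d ∈ T z) (had : a ≠ d) (hp : dist p z = 1)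
    (hJ : ∀ᶠ q in 𝓝[sphere z 1] p, a ∈ Pal U q)
    (hs : ∀ᶠ x in 𝓝 z, ∀ b ∈ T x, a ∈ T x → b = a ∨ d ∈ T x) : False := by
  refine hmin z h4 (T z \ {a}) sdiff_subset (fun h5 => ?_) ?_
  · have h6 : a ∈ T z \ {a} := by rw [h5]; exact ha
    exact h6.2 rfl
  filter_upwards [h.nhd z, h.sole (h.sub z hd) hs hp hJ] with w h1 h2
  by_cases hcase : ∃ i ∈ T w, i ≠ a
  · obtain ⟨i, hi, hia⟩ := hcase
    exact ⟨i, ⟨h1 hi, hia⟩, h.suf_mem hi⟩
  · push Not at hcase
    obtain ⟨i, hi⟩ := h.ne w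
    have h3 : T w = {a} := by
      refine Subset.antisymm (fun m hm => hcase m hm) ?_
      rintro m rfl
      exact hcase i hi ▸ hi
    exact ⟨d, ⟨hd, had.symm⟩, Or.inl (h2 h3)⟩

/-- `|w - g|^2` for `|g - z| = 1` -/
theorem sq_ip326 {w g z : ℂ} (hg : dist g z = 1) :
    dist w g ^ 2 = dist w z ^ 2 - 2 * ip (w - z) (g - z) + 1 := by
  have h1 : (g - z).re ^ 2 + (g - z).im ^ 2 = 1 := ip_sq (by rw [← dist_eq_norm]; exact hg)
  rw [sq_dist, sq_dist]
  unfold ip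
  simp only [Complex.sub_re, Complex.sub_im] at h1 ⊢
  nlinarith

/-- **strict separation**: `a` and `b` have solid rays at `z`, `{a, b}` exact at `g`: near `z` the
points with `a` and the points with `b` are strictly on different sides of the line orthogonal to
`g - z` -/
theorem strict326 (h : Irr U T) {z g u v : ℂ} {a b : Fin k} (hg : Arc T z g {a, b}) (ha : a ∈ T z)
    (hb : b ∈ T z) (hu0 : u ≠ 0) (hv0 : v ≠ 0) (hu : Ray (U a) z u) (hv : Ray (U b) z v) :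
    ∃ s : ℝ, (s = 1 ∨ s = -1) ∧ ∃ ε > 0, ∀ᶠ w in 𝓝 z,
      (a ∈ T w → ε * dist w z ≤ s * ip (w - z) (g - z)) ∧
        (b ∈ T w → ε * dist w z ≤ -(s * ip (w - z) (g - z))) := by
  have hgT := hg.mem
  have hcr1 := h.cross hg.1 hgT.le
  have hcr2 := h.cross hg.1 (a := b) (b := a) (by rw [hgT, Set.pair_comm])
  obtain ⟨ε, ⟨he1, he2⟩, hε0⟩ := ((hcr1.and hcr2).and eventually_mem_nhdsWithin).exists
  have hε0 : 0 < ε := hε0
  -- the two cases are mirror images
  have key : ∀ {a b : Fin k}, a ∈ T z → b ∈ T z →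
      (∀ w w', dist w z < ε → dist w' z < ε → a ∈ T w → b ∈ T w' → w ≠ w' →
        ε * dist w w' ≤ |ip (w' - w) (g - z)|) →
      (∀ w w', dist w z < ε → dist w' z < ε → b ∈ T w → a ∈ T w' → w ≠ w' →
        ε * dist w w' ≤ |ip (w' - w) (g - z)|) → Sd U g z a b →
      ∀ᶠ w in 𝓝 z, (a ∈ T w → ε * dist w z ≤ ip (w - z) (g - z)) ∧
        (b ∈ T w → ε * dist w z ≤ -ip (w - z) (g - z)) := by
    intro a b ha hb he1 he2 hs
    filter_upwards [hs, ball_mem_nhds z hε0] with w hw hwε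
    have hwε : dist w z < ε := hwε
    have hzz : dist z z < ε := by rw [dist_self]; exact hε0
    have hsq := sq_ip326 (w := w) hg.1
    have hd0 : 0 ≤ dist w z := dist_nonneg
    have hdg : 0 ≤ dist w g := dist_nonneg
    have e1 : ip (z - w) (g - z) = -ip (w - z) (g - z) := by unfold ip; simp; ring
    constructor
    · intro haw
      have h1 : dist w g ≤ 1 := by
        by_contra hcon
        exact hw.1 (not_le.1 hcon) (h.sub w haw)
      have h2 : 0 ≤ ip (w - z) (g - z) := by nlinarith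
      by_cases hwz : w = z
      · rw [hwz, dist_self, mul_zero]
        rw [hwz] at h2
        exact h2
      · have h3 := he1 w z hwε hzz haw hb hwz
        rw [e1, abs_neg, abs_of_nonneg h2] at h3
        exact h3
    · intro hbw
      have h1 : 1 ≤ dist w g := by
        by_contra hcon
        exact hw.2 (not_le.1 hcon) (h.sub w hbw)
      by_cases hwz : w = z
      · rw [hwz]
        simp [ip]
      · have h3 := he2 w z hwε hzz hbw ha hwz
        rw [e1, abs_neg] at h3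
        have h4 : 2 * ip (w - z) (g - z) ≤ dist w z ^ 2 := by nlinarith
        have hd : 0 < dist w z := dist_pos.2 hwz
        rcases le_or_gt (ip (w - z) (g - z)) 0 with h5 | h5
        · rw [abs_of_nonpos h5] at h3
          exact h3
        · exfalso
          rw [abs_of_pos h5] at h3
          nlinarith
  rcases h.sep326 hg hu0 hv0 hu hv with ⟨-, -, -, hs⟩ | ⟨-, -, -, hs⟩
  · refine ⟨1, Or.inl rfl, ε, hε0, ?_⟩
    filter_upwards [key ha hb he1 he2 hs] with w hw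
    simpa only [one_mul] using hw
  · refine ⟨-1, Or.inr rfl, ε, hε0, ?_⟩
    filter_upwards [key hb ha he2 he1 hs] with w hw
    refine ⟨fun h1 => ?_, fun h1 => ?_⟩
    · have := hw.2 h1
      linarith
    · have := hw.1 h1
      linarith

end Irr

/-- an accumulation direction at `z` of the points with property `p` -/
theorem exists_dir326 {z : ℂ} {p : ℂ → Prop} (hp : ∃ᶠ w in 𝓝 z, w ≠ z ∧ p w) :
    ∃ r : ℂ, ‖r‖ = 1 ∧ ∀ (q : ℂ) (s ε : ℝ),
      (∀ᶠ w in 𝓝 z, p w → ε * dist w z ≤ s * ip (w - z) q) → ε ≤ s * ip r q := by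
  obtain ⟨f, hf⟩ : ∃ f : ℂ → ℂ, f = fun w => ((‖w - z‖⁻¹ : ℝ) : ℂ) * (w - z) := ⟨_, rfl⟩
  have hne : (𝓝 z ⊓ 𝓟 {w | w ≠ z ∧ p w}).NeBot := by
    rw [← frequently_mem_iff_neBot]
    exact hp
  have hfs : ∀ᶠ w in 𝓝 z ⊓ 𝓟 {w | w ≠ z ∧ p w}, f w ∈ sphere (0 : ℂ) 1 := by
    have : ∀ᶠ w in 𝓝 z ⊓ 𝓟 {w | w ≠ z ∧ p w}, w ≠ z ∧ p w :=
      mem_inf_of_right (mem_principal_self _)
    filter_upwards [this] with w hw
    have h1 : 0 < ‖w - z‖ := norm_pos_iff.2 (sub_ne_zero.2 hw.1)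
    rw [mem_sphere, dist_zero_right, hf, norm_mul, Complex.norm_real, norm_inv, norm_norm]
    exact inv_mul_cancel₀ h1.ne'
  obtain ⟨r, hr, hrc⟩ := (isCompact_sphere (0 : ℂ) 1).exists_mapClusterPt_of_frequently
    hfs.frequently
  refine ⟨r, by simpa using hr, fun q s ε hq => ?_⟩
  have hcl : IsClosed {x : ℂ | ε ≤ s * ip x q} := by
    have : Continuous fun x : ℂ => s * ip x q := by
      unfold ip
      fun_prop
    exact isClosed_le continuous_const this
  have hev : ∀ᶠ w in 𝓝 z ⊓ 𝓟 {w | w ≠ z ∧ p w}, f w ∈ {x : ℂ | ε ≤ s * ip x q} := by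
    have h1 : ∀ᶠ w in 𝓝 z ⊓ 𝓟 {w | w ≠ z ∧ p w}, w ≠ z ∧ p w :=
      mem_inf_of_right (mem_principal_self _)
    filter_upwards [h1, mem_inf_of_left hq] with w h2 h3
    have h4 := h3 h2.2
    have h5 : 0 < ‖w - z‖ := norm_pos_iff.2 (sub_ne_zero.2 h2.1)
    rw [dist_eq_norm] at h4
    have h6 : ip (f w) q = ‖w - z‖⁻¹ * ip (w - z) q := by
      rw [hf]
      unfold ip
      simp only [Complex.mul_re, Complex.ofReal_re, Complex.ofReal_im, Complex.mul_im, zero_mul,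
        sub_zero, add_zero]
      ring
    show ε ≤ s * ip (f w) q
    rw [h6]
    have h7 := mul_le_mul_of_nonneg_left h4 (inv_nonneg.2 h5.le)
    have h8 : ‖w - z‖⁻¹ * (ε * ‖w - z‖) = ε := by
      field_simp
    rw [h8] at h7
    linarith [h7, show ‖w - z‖⁻¹ * (s * ip (w - z) q) = s * (‖w - z‖⁻¹ * ip (w - z) q) by ring]
  have h9 : r ∈ closure {x : ℂ | ε ≤ s * ip x q} := by
    rw [mem_closure_iff_clusterPt]
    exact hrc.clusterPt.mono (le_principal_iff.2 hev)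
  rw [hcl.closure_eq] at h9
  exact h9

/-- an independent set of the pentagon -/
theorem indep5_326 : ∀ s : Fin 5 → Bool, (∀ i, ¬ (s i = true ∧ s (i + 2) = true)) →
    ∃ j, ∀ i, s i = true → i = j ∨ i = j + 1 := by decide

theorem five326 : ∀ j i : Fin 5, i = j + 4 ∨ i = j + 1 ∨ i = j ∨ i = j + 2 ∨ i = j + 3 := by
  decide

theorem ne1_326 : ∀ j : Fin 5, j + 1 ≠ j := by decide
theorem ne2_326 : ∀ j : Fin 5, j + 2 ≠ j := by decide
theorem ne3_326 : ∀ j : Fin 5, j + 3 ≠ j := by decide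
theorem ne4_326 : ∀ j : Fin 5, j + 4 ≠ j := by decide
theorem ne12_326 : ∀ j : Fin 5, j + 1 ≠ j + 2 := by decide
theorem ne13_326 : ∀ j : Fin 5, j + 1 ≠ j + 3 := by decide
theorem ne14_326 : ∀ j : Fin 5, j + 1 ≠ j + 4 := by decide
theorem ne23_326 : ∀ j : Fin 5, j + 2 ≠ j + 3 := by decide
theorem ne24_326 : ∀ j : Fin 5, j + 2 ≠ j + 4 := by decide
theorem ne34_326 : ∀ j : Fin 5, j + 3 ≠ j + 4 := by decide

namespace P5

variable {z : ℂ} {c : Fin 5 → Fin k}

theorem mem (P : P5 T z c) (j : Fin 5) : c j ∈ T z := by rw [P.rng]; exact mem_range_self j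

theorem card (P : P5 T z c) : (T z).ncard = 5 := by
  rw [P.rng, ← Set.image_univ, Set.ncard_image_of_injective _ P.inj]
  simp

/-- **solid rays** of every colour -/
theorem ray (P : P5 T z c) (h : Irr U T)
    (hmin : ∀ z, 4 ≤ (T z).ncard → ∀ s, s ⊆ T z → s ≠ T z →
      ¬ ∀ᶠ w in 𝓝 z, ∃ i ∈ s, w ∈ U i ∨ (w ∈ XX U ∧ i ∈ Pal U w)) (j : Fin 5) :
    ∃ u : ℂ, u ≠ 0 ∧ Ray (U (c j)) z u := by
  obtain ⟨q, hq, hT⟩ := P.ex (j + 4)
  rw [f42_326] at hT
  have hqz : q - z ≠ 0 := by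
    intro h1
    rw [dist_eq_norm, h1, norm_zero] at hq
    exact zero_ne_one hq
  have hI : Complex.I * (q - z) ≠ 0 := mul_ne_zero Complex.I_ne_zero hqz
  have hray : ∀ m : ℂ, (∀ᶠ t : ℝ in 𝓝[>] 0, T (z + t * m) ⊆ {c j}) → Ray (U (c j)) z m :=
    fun m hm => hm.mono fun t ht => h.mem_of_single ht
  rcases h.nappes555 hmin (a := c (j + 4)) (b := c (j + 1)) (X := {c j})
      (Y := {c (j + 2), c (j + 3)}) (by rw [P.card]; norm_num)
      (fun h1 => ne14_326 j (P.inj h1).symm) (by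
        rw [P.rng]
        ext x
        constructor
        · rintro ⟨i, rfl⟩
          rcases five326 j i with rfl | rfl | rfl | rfl | rfl <;> simp
        · rintro ((rfl | rfl) | (rfl | (rfl | rfl))) <;> exact mem_range_self _)
      (fun h1 => ne4_326 j (P.inj h1)) (fun h1 => ne1_326 j (P.inj h1))
      (by
        rintro (h1 | h1)
        · exact ne24_326 j (P.inj h1).symm
        · exact ne34_326 j (P.inj h1).symm)
      (by
        rintro (h1 | h1)
        · exact ne12_326 j (P.inj h1)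
        · exact ne13_326 j (P.inj h1))
      (singleton_nonempty _) ⟨c (j + 2), Or.inl rfl⟩
      (by
        rw [Set.disjoint_left]
        rintro x hx (h1 | h1)
        · exact ne2_326 j (P.inj (h1.symm.trans hx))
        · exact ne3_326 j (P.inj (h1.symm.trans hx)))
      (by rw [Set.ncard_singleton]; norm_num)
      (by
        rintro x hx y (hy | hy)
        · obtain ⟨q', hq', hT'⟩ := P.ex j
          exact ⟨q', hq', by rw [hT', mem_singleton_iff.1 hx, hy]⟩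
        · obtain ⟨q', hq', hT'⟩ := P.ex (j + 3)
          rw [f32_326] at hT'
          have hy' : y = c (j + 3) := hy
          exact ⟨q', hq', by rw [hT', mem_singleton_iff.1 hx, hy', Set.pair_comm]⟩)
      hq hT with h1 | h1
  · exact ⟨_, hI, hray _ (h1.mono fun t ht => ht.1)⟩
  · exact ⟨_, neg_ne_zero.2 hI, hray _ (h1.mono fun t ht => ht.2)⟩

/-- **strict separation** at every exact diagonal -/
theorem strict (P : P5 T z c) (h : Irr U T)
    (hmin : ∀ z, 4 ≤ (T z).ncard → ∀ s, s ⊆ T z → s ≠ T z →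
      ¬ ∀ᶠ w in 𝓝 z, ∃ i ∈ s, w ∈ U i ∨ (w ∈ XX U ∧ i ∈ Pal U w)) {q : ℂ} {j : Fin 5}
    (hq : dist q z = 1) (hT : T q = {c j, c (j + 2)}) :
    ∃ s : ℝ, (s = 1 ∨ s = -1) ∧ ∃ ε > 0, ∀ᶠ w in 𝓝 z,
      (c j ∈ T w → ε * dist w z ≤ s * ip (w - z) (q - z)) ∧
        (c (j + 2) ∈ T w → ε * dist w z ≤ -(s * ip (w - z) (q - z))) := by
  obtain ⟨u, hu0, hu⟩ := P.ray h hmin j
  obtain ⟨v, hv0, hv⟩ := P.ray h hmin (j + 2)
  exact h.strict326 (h.arc_of326 hq hT (P.mem _) (P.mem _)) (P.mem _) (P.mem _) hu0 hv0 hu hv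

/-- **isolation**: no other point near `z` has both colours of a diagonal -/
theorem iso (P : P5 T z c) (h : Irr U T)
    (hmin : ∀ z, 4 ≤ (T z).ncard → ∀ s, s ⊆ T z → s ≠ T z →
      ¬ ∀ᶠ w in 𝓝 z, ∃ i ∈ s, w ∈ U i ∨ (w ∈ XX U ∧ i ∈ Pal U w)) :
    ∀ᶠ w in 𝓝 z, ∀ j, c j ∈ T w → c (j + 2) ∈ T w → w = z := by
  rw [eventually_all]
  intro j
  obtain ⟨q, hq, hT⟩ := P.ex j
  obtain ⟨s, -, ε, hε, hw⟩ := P.strict h hmin hq hT
  filter_upwards [hw] with w hw h1 h2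
  have h3 := hw.1 h1
  have h4 := hw.2 h2
  have h5 : dist w z ≤ 0 := by
    by_contra hcon
    push Not at hcon
    have := mul_pos hε hcon
    linarith
  exact dist_le_zero.1 h5

/-- near `z` the palettes are inside two neighbouring colours -/
theorem near (P : P5 T z c) (h : Irr U T)
    (hmin : ∀ z, 4 ≤ (T z).ncard → ∀ s, s ⊆ T z → s ≠ T z →
      ¬ ∀ᶠ w in 𝓝 z, ∃ i ∈ s, w ∈ U i ∨ (w ∈ XX U ∧ i ∈ Pal U w)) :
    ∀ᶠ w in 𝓝 z, w ≠ z → ∃ j, T w ⊆ {c j, c (j + 1)} := by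
  classical
  filter_upwards [P.iso h hmin, h.nhd z] with w h1 h2 hwz
  obtain ⟨j, hj⟩ := indep5_326 (fun i => decide (c i ∈ T w)) (fun i hi => hwz (h1 i
    (of_decide_eq_true hi.1) (of_decide_eq_true hi.2)))
  refine ⟨j, fun x hx => ?_⟩
  obtain ⟨i, rfl⟩ : x ∈ range c := P.rng ▸ h2 hx
  rcases hj i (decide_eq_true hx) with rfl | rfl
  · exact Or.inl rfl
  · exact Or.inr rfl

/-- `z` is isolated among the points with at least three colours -/
theorem iso3 (P : P5 T z c) (h : Irr U T)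
    (hmin : ∀ z, 4 ≤ (T z).ncard → ∀ s, s ⊆ T z → s ≠ T z →
      ¬ ∀ᶠ w in 𝓝 z, ∃ i ∈ s, w ∈ U i ∨ (w ∈ XX U ∧ i ∈ Pal U w)) :
    ∀ᶠ w in 𝓝 z, w ≠ z → (T w).ncard ≤ 2 := by
  filter_upwards [P.near h hmin] with w hw hwz
  obtain ⟨j, hj⟩ := hw hwz
  exact (Set.ncard_le_ncard hj (Set.toFinite _)).trans
    ((Set.ncard_insert_le _ _).trans (by rw [Set.ncard_singleton]))

/-- **contacts** -/
theorem contact (P : P5 T z c) (h : Irr U T)
    (hmin : ∀ z, 4 ≤ (T z).ncard → ∀ s, s ⊆ T z → s ≠ T z →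
      ¬ ∀ᶠ w in 𝓝 z, ∃ i ∈ s, w ∈ U i ∨ (w ∈ XX U ∧ i ∈ Pal U w)) (j : Fin 5) :
    ∃ᶠ w in 𝓝 z, w ≠ z ∧ c j ∈ T w ∧ c (j + 1) ∈ T w := by
  intro hcon
  obtain ⟨q, hq, hT⟩ := P.ex j
  have harc := h.arc_of326 hq hT (P.mem _) (P.mem _)
  refine h.not_sole326 hmin (z := z) (p := q) (a := c j) (d := c (j + 4))
    (by rw [P.card]; norm_num) (P.mem _) (P.mem _) (fun h1 => ne4_326 j (P.inj h1).symm) hq
    (harc.2.mono fun x hx => h.sub x (by rw [hx]; exact Or.inl rfl)) ?_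
  filter_upwards [hcon, P.iso h hmin, h.nhd z] with w h1 h2 h3 b hb hj
  by_contra h4
  push Not at h4
  obtain ⟨h4, h5⟩ := h4
  have hwz : w ≠ z := by
    rintro rfl
    exact h5 (P.mem _)
  obtain ⟨i, rfl⟩ : b ∈ range c := P.rng ▸ h3 hb
  rcases five326 j i with rfl | rfl | rfl | rfl | rfl
  · exact h5 hb
  · exact h1 ⟨hwz, hj, hb⟩
  · exact h4 rfl
  · exact hwz (h2 j hj hb)
  · refine hwz (h2 (j + 3) hb ?_)
    rw [f32_326]
    exact hj

end P5

/-- **windows**: unit vectors `r j`, accumulation directions at `z` of the points with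
`c j, c (j + 1)`, separated by every exact diagonal -/
structure Win (T : ℂ → Set (Fin k)) (z : ℂ) (c : Fin 5 → Fin k) (r : Fin 5 → ℂ) : Prop where
  nrm : ∀ j, ‖r j‖ = 1
  acc : ∀ j (q : ℂ) (s ε : ℝ),
    (∀ᶠ w in 𝓝 z, c j ∈ T w ∧ c (j + 1) ∈ T w → ε * dist w z ≤ s * ip (w - z) q) →
      ε ≤ s * ip (r j) q
  sep : ∀ j q, dist q z = 1 → T q = {c j, c (j + 2)} → ∃ s : ℝ, (s = 1 ∨ s = -1) ∧
    0 < s * ip (r (j + 4)) (q - z) ∧ 0 < s * ip (r j) (q - z) ∧
      s * ip (r (j + 1)) (q - z) < 0 ∧ s * ip (r (j + 2)) (q - z) < 0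

/-- **windows exist** -/
theorem P5.exists_win {z : ℂ} {c : Fin 5 → Fin k} (P : P5 T z c) (h : Irr U T)
    (hmin : ∀ z, 4 ≤ (T z).ncard → ∀ s, s ⊆ T z → s ≠ T z →
      ¬ ∀ᶠ w in 𝓝 z, ∃ i ∈ s, w ∈ U i ∨ (w ∈ XX U ∧ i ∈ Pal U w)) :
    ∃ r, Win T z c r := by
  choose r hr1 hr2 using fun j => exists_dir326 (P.contact h hmin j)
  refine ⟨r, hr1, hr2, fun j q hq hT => ?_⟩
  obtain ⟨s, hs, ε, hε, hw⟩ := P.strict h hmin hq hT
  have key1 : ∀ i, (∀ w, c i ∈ T w ∧ c (i + 1) ∈ T w → c j ∈ T w) → 0 < s * ip (r i) (q - z) := by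
    intro i hi
    refine lt_of_lt_of_le hε (hr2 i _ s ε ?_)
    filter_upwards [hw] with w h1 h2
    exact h1.1 (hi w h2)
  have key2 : ∀ i, (∀ w, c i ∈ T w ∧ c (i + 1) ∈ T w → c (j + 2) ∈ T w) →
      s * ip (r i) (q - z) < 0 := by
    intro i hi
    have h1 : ε ≤ -s * ip (r i) (q - z) := by
      refine hr2 i _ (-s) ε ?_
      filter_upwards [hw] with w h1 h2
      have := h1.2 (hi w h2)
      linarith
    linarith
  refine ⟨s, hs, key1 _ fun w hw => ?_, key1 _ fun w hw => hw.1, key2 _ fun w hw => ?_,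
    key2 _ fun w hw => hw.1⟩
  · have := hw.2
    rwa [f41_326] at this
  · have := hw.2
    rwa [f11_326] at this

theorem ip_smul_sign326 {s : ℝ} (a e : ℂ) : ip a ((s : ℂ) * e) = s * ip a e := by
  unfold ip
  simp
  ring

namespace Win

variable {z : ℂ} {c : Fin 5 → Fin k} {r : Fin 5 → ℂ}

/-- the rays of a window are in cyclic order -/
theorem fan (W : Win T z c r) (P : P5 T z c) : Fan r := by
  intro j
  obtain ⟨q, hq, hT⟩ := P.ex j
  obtain ⟨s, -, h1, h2, h3, h4⟩ := W.sep j q hq hT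
  exact ⟨(s : ℂ) * (q - z), by rwa [ip_smul_sign326], by rwa [ip_smul_sign326],
    by rwa [ip_smul_sign326], by rwa [ip_smul_sign326]⟩

/-- limit form of the separation: for limits of exact diagonals -/
theorem sep_closed (W : Win T z c r) (j : Fin 5) {p : ℂ}
    (hp : p ∈ closure {q | dist q z = 1 ∧ T q = {c j, c (j + 2)}}) : ∃ s : ℝ, (s = 1 ∨ s = -1) ∧
    0 ≤ s * ip (r (j + 4)) (p - z) ∧ 0 ≤ s * ip (r j) (p - z) ∧
      s * ip (r (j + 1)) (p - z) ≤ 0 ∧ s * ip (r (j + 2)) (p - z) ≤ 0 := by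
  have hcont : ∀ (s : ℝ) i, Continuous fun p : ℂ => s * ip (r i) (p - z) := by
    intro s i
    unfold ip
    fun_prop
  have hcl : ∀ s : ℝ, IsClosed {p : ℂ | 0 ≤ s * ip (r (j + 4)) (p - z) ∧
      0 ≤ s * ip (r j) (p - z) ∧ s * ip (r (j + 1)) (p - z) ≤ 0 ∧
        s * ip (r (j + 2)) (p - z) ≤ 0} := fun s =>
    (isClosed_le continuous_const (hcont s _)).inter ((isClosed_le continuous_const
      (hcont s _)).inter ((isClosed_le (hcont s _) continuous_const).inter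
        (isClosed_le (hcont s _) continuous_const)))
  have hcl2 := (hcl 1).union (hcl (-1))
  have hsub : {q | dist q z = 1 ∧ T q = {c j, c (j + 2)}} ⊆ {p : ℂ | 0 ≤ 1 * ip (r (j + 4)) (p - z) ∧
      0 ≤ 1 * ip (r j) (p - z) ∧ 1 * ip (r (j + 1)) (p - z) ≤ 0 ∧
        1 * ip (r (j + 2)) (p - z) ≤ 0} ∪ {p : ℂ | 0 ≤ -1 * ip (r (j + 4)) (p - z) ∧
      0 ≤ -1 * ip (r j) (p - z) ∧ -1 * ip (r (j + 1)) (p - z) ≤ 0 ∧
        -1 * ip (r (j + 2)) (p - z) ≤ 0} := by
    rintro q ⟨hq, hT⟩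
    obtain ⟨s, rfl | rfl, h1, h2, h3, h4⟩ := W.sep j q hq hT
    · exact Or.inl ⟨h1.le, h2.le, h3.le, h4.le⟩
    · exact Or.inr ⟨h1.le, h2.le, h3.le, h4.le⟩
  rcases closure_minimal hsub hcl2 hp with h1 | h1
  · exact ⟨1, Or.inl rfl, h1⟩
  · exact ⟨-1, Or.inr rfl, h1⟩

/-- the sign vector of every generic direction is a cyclic interval of length 1 to 4 -/
theorem cyc (W : Win T z c r) (P : P5 T z c) {e : ℂ} (he : ∀ j, ip (r j) e ≠ 0) :
    cycInt (sgv r e) = true := (W.fan P).cyc he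

end Win

end Vale.Agent.P032.Six
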