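import Vale.Agent.P032.H93.Names
import Vale.Agent.P032.H93.Four
import Vale.Agent.P032.H338.Letters
import Vale.Agent.P032.H326.Window

/-!
# P032: circles of centres with five colours in the frame `FrN`

`P5.no_adj`  : two neighbouring colours are never the palette of a point of `S(z)`.
`K5`, `lt5`  : the sixteen letters of a 5-centre: diagonals `0..4`, the free colour `5`, the triples
`{j,j+1,j+3}` (`6..10`) and `{j,j+1,j+2}` (`11..15`); `dg` : a diagonal inside; `K6` : its colours.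
`Circ`       : one circle of a family; `circ5`, `circ4`, `Circ.map`; `FrN.of_circ`.
`ev5`        : one circle, the rules for any two limit columns in the six letters `Fin 6`.
-/

open Set Filter Topology Metric

noncomputable section

namespace Vale.Agent.P032.Six

variable {k : ℕ} {U : Fin k → Set ℂ} {T : ℂ → Set (Fin k)}

/-- neighbouring colours of a 5-centre are no palette -/
theorem P5.no_adj {z : ℂ} {c : Fin 5 → Fin k} (P : P5 T z c) (h : Irr U T)
    (hmin : ∀ z, 4 ≤ (T z).ncard → ∀ s, s ⊆ T z → s ≠ T z →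
      ¬ ∀ᶠ w in 𝓝 z, ∃ i ∈ s, w ∈ U i ∨ (w ∈ XX U ∧ i ∈ Pal U w)) {q : ℂ}
    (hq : dist q z = 1) (j : Fin 5) : T q ≠ {c j, c (j + 1)} := by
  intro hT
  obtain ⟨u, hu0, hu⟩ := P.ray h hmin j
  obtain ⟨v, hv0, hv⟩ := P.ray h hmin (j + 1)
  obtain ⟨s, -, ε, hε, hw⟩ := h.strict326 (h.arc_of326 hq hT (P.mem _) (P.mem _)) (P.mem _)
    (P.mem _) hu0 hv0 hu hv
  obtain ⟨w, ⟨hwz, h1, h2⟩, h3⟩ := ((P.contact h hmin j).and_eventually hw).exists
  have h4 := h3.1 h1
  have h5 := h3.2 h2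
  have h6 : 0 < dist w z := dist_pos.2 hwz
  have h7 := mul_pos hε h6
  linarith

end Vale.Agent.P032.Six

namespace Vale.Agent.P032.H326

open Vale.Agent.P032.Six Vale.Agent.P032.Sweep Vale.Agent.P032.S5.H767 Vale.Agent.P032.S5.H122
  Vale.Agent.P032.H187 Vale.Agent.P032.H93

variable {U : Fin 6 → Set ℂ} {T : ℂ → Set (Fin 6)}

/-- the colours of the sixteen letters -/
def K5 : Fin 16 → Finset (Fin 6) :=
  ![{0, 2}, {1, 3}, {2, 4}, {0, 3}, {1, 4}, {5}, {0, 1, 3}, {1, 2, 4}, {0, 2, 3}, {1, 3, 4},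
    {0, 2, 4}, {0, 1, 2}, {1, 2, 3}, {2, 3, 4}, {0, 3, 4}, {0, 1, 4}]

/-- a diagonal inside -/
def dg : Fin 16 → Fin 6 := ![0, 1, 2, 3, 4, 5, 1, 2, 3, 4, 0, 0, 1, 2, 3, 4]

/-- the colours of the six letters -/
def K6 : Fin 6 → Finset (Fin 6) := ![{0, 2}, {1, 3}, {2, 4}, {0, 3}, {1, 4}, {5}]

theorem K6_dg : ∀ l, K6 (dg l) ⊆ K5 l := by decide

theorem K5_five : ∀ l, 5 ∈ K5 l → l = 5 := by decide

theorem K5_sub : ∀ l, l ≠ 5 → K5 l ⊆ {0, 1, 2, 3, 4} ∧ 2 ≤ (K5 l).card := by decide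

theorem K5_all : ∀ S : Finset (Fin 6), 5 ∉ S → 2 ≤ S.card → S.card ≤ 3 →
    (∃ l, S = K5 l) ∨ ∃ j : Fin 5, S = {j.castSucc, (j + 1).castSucc} := by decide +kernel

open Classical in
/-- the letter of a palette -/
def lt5 (N : Fin 6 → Fin 6) (P : Set (Fin 6)) : Fin 16 :=
  if N 5 ∈ P then 5 else if h : ∃ l, P = N '' (K5 l : Set (Fin 6)) then h.choose else 0

/-- one circle of a family, in names -/
structure Circ {Λ : Type} (T : ℂ → Set (Fin 6)) (z : ℂ) (N : Fin 6 → Fin 6)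
    (K : Λ → Finset (Fin 6)) (C : Finset (Fin 6)) (lt : Set (Fin 6) → Λ) : Prop where
  four : 4 ≤ (T z).ncard
  isLt : ∀ l, IsLt T z (N '' (K l : Set (Fin 6)))
  sub : ∀ s, s ∈ Lc T z → N '' (K (lt (T (pt z s))) : Set (Fin 6)) ⊆ T (pt z s)
  ex : ∀ s, s ∈ Lc T z → N '' (K (lt (T (pt z s))) : Set (Fin 6)) ⊆ T z →
    T (pt z s) = N '' (K (lt (T (pt z s))) : Set (Fin 6))
  ctr : C = nm N (T z)

/-- **a family of circles** -/
theorem frN_of_circ {κ Λ : Type} (h : Irr U T) {z : κ → ℂ} {N : Fin 6 → Fin 6}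
    {D : κ → κ → Prop} {K : κ → Λ → Finset (Fin 6)} {C : κ → Finset (Fin 6)}
    {lt : κ → Set (Fin 6) → Λ} (hN : Function.Injective N)
    (hC : ∀ k, Circ T (z k) N (K k) (C k) (lt k))
    (hD : ∀ k k', D k k' → dist (z k) (z k') = 1) : FrN U T z N D K C lt where
  inj := hN
  fr :=
    { irr := h
      xx := fun k => xx_of_four h (hC k).four
      four := fun k => (hC k).four
      isLt := fun k l => (hC k).isLt l
      sub := fun k s hs => (hC k).sub s hs
      ex := fun k s hs => (hC k).ex s hs }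
  ctr := fun k => (hC k).ctr
  dist := hD

/-- other names of the letters -/
theorem Circ.map {Λ Λ' : Type} {z : ℂ} {N : Fin 6 → Fin 6} {K : Λ → Finset (Fin 6)}
    {C : Finset (Fin 6)} {lt : Set (Fin 6) → Λ} (c : Circ T z N K C lt) (e : Λ' → Λ)
    (i : Λ → Λ') (hei : ∀ l, e (i l) = l) :
    Circ T z N (fun l => K (e l)) C fun P => i (lt P) where
  four := c.four
  isLt := fun l => c.isLt (e l)
  sub := fun s hs => by
    show N '' (K (e (i (lt (T (pt z s))))) : Set (Fin 6)) ⊆ _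
    rw [hei]; exact c.sub s hs
  ex := fun s hs h1 => by
    have h1 : N '' (K (e (i (lt (T (pt z s))))) : Set (Fin 6)) ⊆ T z := h1
    show _ = N '' (K (e (i (lt (T (pt z s))))) : Set (Fin 6))
    rw [hei] at h1 ⊢
    exact c.ex s hs h1
  ctr := c.ctr

section five

variable {z : ℂ} {N : Fin 6 → Fin 6}

theorem mem_names (P : P5 T z fun i : Fin 5 => N i.castSucc) {i : Fin 6} (hi : i ≠ 5) :
    N i ∈ T z := by
  rw [P.rng]
  revert hi
  fin_cases i
  · exact fun _ => ⟨0, rfl⟩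
  · exact fun _ => ⟨1, rfl⟩
  · exact fun _ => ⟨2, rfl⟩
  · exact fun _ => ⟨3, rfl⟩
  · exact fun _ => ⟨4, rfl⟩
  · exact fun h => absurd rfl h

theorem names_sub (P : P5 T z fun i : Fin 5 => N i.castSucc) {i : Fin 6} (hi : i ∈ T z) :
    ∃ j : Fin 6, j ≠ 5 ∧ i = N j := by
  rw [P.rng] at hi
  obtain ⟨j, rfl⟩ := hi
  refine ⟨j.castSucc, ?_, rfl⟩
  revert j; decide

/-- the palette of an angle of `Lc` without the free colour -/
theorem pal5 (h : Irr U T)
    (hmin : ∀ z, 4 ≤ (T z).ncard → ∀ s, s ⊆ T z → s ≠ T z →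
      ¬ ∀ᶠ w in 𝓝 z, ∃ i ∈ s, w ∈ U i ∨ (w ∈ XX U ∧ i ∈ Pal U w))
    (hN : Function.Injective N) (P : P5 T z fun i : Fin 5 => N i.castSucc) {s : ℝ}
    (hs : s ∈ Lc T z) (h5 : N 5 ∉ T (pt z s)) :
    ∃ l, T (pt z s) = N '' (K5 l : Set (Fin 6)) := by
  have hsurj : Function.Surjective N := Finite.injective_iff_surjective.1 hN
  have hsub : T (pt z s) ⊆ T z := by
    intro i hi
    obtain ⟨j, rfl⟩ := hsurj i
    exact mem_names P (fun hj => h5 (hj ▸ hi))
  rcases H338.letter_arc h (dist_pt z s) (Lc_circle hs) with ⟨i, hi, hi'⟩ | ⟨-, h2, h3, -⟩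
  · exact absurd (hsub hi) hi'
  · have h6 : (5 : Fin 6) ∉ nm N (T (pt z s)) := fun h7 => h5 (mem_nm.1 h7)
    rcases K5_all (nm N (T (pt z s))) h6 (by rw [card_nm hN]; exact h2)
      (by rw [card_nm hN]; exact h3) with ⟨l, hl⟩ | ⟨j, hj⟩
    · exact ⟨l, by rw [← hl, image_nm hN]⟩
    · exfalso
      refine P.no_adj h hmin (dist_pt z s) j ?_
      rw [← image_nm hN (T (pt z s)), hj]
      simp [Set.image_insert_eq]

/-- **the circle of a 5-centre** -/
theorem circ5 (h : Irr U T)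
    (hmin : ∀ z, 4 ≤ (T z).ncard → ∀ s, s ⊆ T z → s ≠ T z →
      ¬ ∀ᶠ w in 𝓝 z, ∃ i ∈ s, w ∈ U i ∨ (w ∈ XX U ∧ i ∈ Pal U w))
    (hN : Function.Injective N) (P : P5 T z fun i : Fin 5 => N i.castSucc) (hf : N 5 ∉ T z) :
    Circ T z N K5 {0, 1, 2, 3, 4} (lt5 N) where
  four := by rw [P.card]; norm_num
  isLt := by
    intro l
    by_cases hl : l = 5
    · left
      refine ⟨N 5, hf, ?_⟩
      rw [hl]
      show N '' (({5} : Finset (Fin 6)) : Set (Fin 6)) = {N 5}
      simp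
    · right
      obtain ⟨h1, h2⟩ := K5_sub l hl
      refine ⟨?_, ?_⟩
      · rintro _ ⟨i, hi, rfl⟩
        refine mem_names P fun h3 => ?_
        have h4 := h1 (Finset.mem_coe.1 hi)
        rw [h3] at h4
        revert h4; decide
      · rw [Set.ncard_image_of_injective _ hN, Set.ncard_coe_finset]
        exact h2
  sub := by
    intro s hs
    unfold lt5
    split_ifs with h1 h2
    · show N '' (({5} : Finset (Fin 6)) : Set (Fin 6)) ⊆ _
      simpa using h1
    · exact h2.choose_spec.ge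
    · exact absurd (pal5 h hmin hN P hs h1) h2
  ex := by
    intro s hs
    unfold lt5
    split_ifs with h1 h2
    · intro h3
      exfalso
      refine hf (h3 ⟨5, ?_, rfl⟩)
      show (5 : Fin 6) ∈ (({5} : Finset (Fin 6)) : Set (Fin 6))
      simp
    · exact fun _ => h2.choose_spec
    · exact absurd (pal5 h hmin hN P hs h1) h2
  ctr := by
    ext i
    rw [mem_nm]
    constructor
    · intro hi
      refine mem_names P fun h3 => ?_
      rw [h3] at hi
      revert hi; decide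
    · intro hi
      have h3 : i ≠ 5 := fun h3 => hf (h3 ▸ hi)
      revert h3
      revert i
      intro i _ h3
      revert h3
      fin_cases i <;> simp

end five

/-! ### Centres with four colours -/

/-- the colours of the four letters of a centre with four colours, names `ν` -/
def K4 (ν : Fin 6 → Fin 6) : Fin 4 → Finset (Fin 6) :=
  ![{ν 4}, {ν 5}, {ν 0, ν 1}, {ν 2, ν 3}]

theorem K4_col {N ν : Fin 6 → Fin 6} (l : Fin 4) :
    N '' (K4 ν l : Set (Fin 6)) =
      col (N (ν 0)) (N (ν 1)) (N (ν 2)) (N (ν 3)) (N (ν 4)) (N (ν 5)) l := by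
  fin_cases l
  · show N '' (({ν 4} : Finset (Fin 6)) : Set (Fin 6)) = {N (ν 4)}
    simp
  · show N '' (({ν 5} : Finset (Fin 6)) : Set (Fin 6)) = {N (ν 5)}
    simp
  · show N '' (({ν 0, ν 1} : Finset (Fin 6)) : Set (Fin 6)) = {N (ν 0), N (ν 1)}
    simp [Set.image_insert_eq]
  · show N '' (({ν 2, ν 3} : Finset (Fin 6)) : Set (Fin 6)) = {N (ν 2), N (ν 3)}
    simp [Set.image_insert_eq]

/-- **the circle of a centre with four colours** -/
theorem circ4 {z : ℂ} {N ν : Fin 6 → Fin 6} (hN : Function.Injective N)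
    (hC : Ctr U T z (N (ν 0)) (N (ν 1)) (N (ν 2)) (N (ν 3)) (N (ν 4)) (N (ν 5))) :
    Circ T z N (K4 ν) {ν 0, ν 1, ν 2, ν 3}
      (ltF (N (ν 0)) (N (ν 1)) (N (ν 4)) (N (ν 5))) where
  four := four_of_ctr hC
  isLt := fun l => by rw [K4_col]; exact isLt_col hC l
  sub := fun s hs => by rw [K4_col]; exact (ltF_sub hC hs).1
  ex := fun s hs => by rw [K4_col]; exact (ltF_sub hC hs).2
  ctr := by
    rw [hC.pal]
    ext i
    rw [mem_nm]
    simp only [Finset.mem_insert, Finset.mem_singleton, Set.mem_insert_iff,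
      Set.mem_singleton_iff]
    constructor
    · rintro (rfl | rfl | rfl | rfl) <;> simp
    · rintro (h1 | h1 | h1 | h1)
      · exact Or.inl (hN h1)
      · exact Or.inr (Or.inl (hN h1))
      · exact Or.inr (Or.inr (Or.inl (hN h1)))
      · exact Or.inr (Or.inr (Or.inr (hN h1)))

/-! ### One circle of a 5-centre, six letters -/

/-- the names of the palettes of the six slots -/
def Qn (T : ℂ → Set (Fin 6)) (z : ℂ) (N : Fin 6 → Fin 6) (u : ℝ) (j : Fin 6) : Finset (Fin 6) :=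
  nm N (T (pt z (u + (j.val : ℝ))))

/-- legal columns of six letters -/
def Leg6 (h : Fin 6 → Fin 6) : Prop :=
  (∀ j, Disjoint (K6 (h j)) (K6 (h (j + 1)))) ∧
  ∀ j, 2 ≤ (({0, 1, 2, 3, 4} : Finset (Fin 6)) \ (K6 (h j) ∪ K6 (h (j + 3)))).card

instance (h : Fin 6 → Fin 6) : Decidable (Leg6 h) := by unfold Leg6; infer_instance

/-- the rules for two columns at one time, `Q j` = names of the palette of the slot `j` -/
structure Ev5 (Q : Fin 6 → Finset (Fin 6)) (h h' : Fin 6 → Fin 6) : Prop where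
  leg : Leg6 h
  leg' : Leg6 h'
  pal : ∀ j, K6 (h j) ∪ K6 (h' j) ⊆ Q j
  /-- no swap of neighbouring slots of order at most three -/
  swap : ∀ j, (Q j).card ≤ 3 → (Q (j + 1)).card ≤ 3 →
    Disjoint (K6 (h j)) (K6 (h' (j + 1))) ∨ Disjoint (K6 (h' j)) (K6 (h (j + 1)))
  /-- no inclusion of neighbouring palettes of order at most three -/
  nsub : ∀ j, (Q j).card ≤ 3 → (Q (j + 1)).card ≤ 3 →
    ¬ Q j ⊆ Q (j + 1) ∧ ¬ Q (j + 1) ⊆ Q j
  /-- third colour -/
  third : ∀ j, (Q j).card ≤ 3 → (Q (j + 1)).card ≤ 3 → 2 ≤ (Q j ∩ Q (j + 1)).card →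
    Disjoint (Q j \ Q (j + 1)) (Q (j + 5)) ∧ Disjoint (Q (j + 1) \ Q j) (Q (j + 2))

/-- the six letters of a column of the sixteen letters -/
def low (g : Unit × Fin 6 → Fin 16) : Fin 6 → Fin 6 := fun j => dg (g ((), j))

theorem leg6_low {g : Unit × Fin 6 → Fin 16}
    (hg : LgN (fun _ _ : Unit => False) (fun _ => K5) (fun _ => {0, 1, 2, 3, 4}) g) :
    Leg6 (low g) := by
  refine ⟨fun j => ?_, fun j => ?_⟩
  · exact Finset.disjoint_of_subset_left (K6_dg _) (Finset.disjoint_of_subset_right (K6_dg _)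
      (hg.1 ((), j) ((), j + 1) (Or.inl ⟨rfl, Or.inl rfl⟩)))
  · exact (hg.2 () j).trans (Finset.card_le_card (Finset.sdiff_subset_sdiff
      (Finset.Subset.refl _) (Finset.union_subset_union (K6_dg _) (K6_dg _))))

/-- the sweep structure of the circle of a 5-centre -/
abbrev X6 (T : ℂ → Set (Fin 6)) (z : ℂ) (N : Fin 6 → Fin 6) : Unit × Fin 6 → Fin 16 → Set ℝ :=
  Xl T (fun _ : Unit => z) 0 fun _ => lt5 N

section one

variable {z : ℂ} {N : Fin 6 → Fin 6}

theorem frn5 (h : Irr U T)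
    (hmin : ∀ z, 4 ≤ (T z).ncard → ∀ s, s ⊆ T z → s ≠ T z →
      ¬ ∀ᶠ w in 𝓝 z, ∃ i ∈ s, w ∈ U i ∨ (w ∈ XX U ∧ i ∈ Pal U w))
    (hN : Function.Injective N) (P : P5 T z fun i : Fin 5 => N i.castSucc) (hf : N 5 ∉ T z) :
    FrN U T (fun _ : Unit => z) N (fun _ _ => False) (fun _ => K5) (fun _ => {0, 1, 2, 3, 4})
      fun _ => lt5 N :=
  frN_of_circ h hN (fun _ => circ5 h hmin hN P hf) fun _ _ hd => hd.elim

theorem pos_one (u : ℝ) (j : Fin 6) :
    pos (fun _ : Unit => z) 0 u ((), j) = pt z (u + (j.val : ℝ)) := by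
  show pt z (0 + u + (j.val : ℝ)) = _
  rw [zero_add]

theorem PN_one (u : ℝ) (j : Fin 6) :
    PN T (fun _ : Unit => z) N 0 u ((), j) = Qn T z N u j := by
  unfold PN Qn
  rw [pos_one]

/-- three consecutive slots: the outer two are not on a line with the middle one -/
theorem off_one (u : ℝ) (j : Fin 6) :
    pt z (u + ((j + 5 : Fin 6).val : ℝ)) ≠ pt z (u + ((j + 1 : Fin 6).val : ℝ)) ∧
    pt z (u + ((j + 5 : Fin 6).val : ℝ)) + pt z (u + ((j + 1 : Fin 6).val : ℝ)) ≠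
      2 * pt z (u + (j.val : ℝ)) := by
  have e1 : pt z (u + ((j + 1 : Fin 6).val : ℝ)) = pt z (u + (j.val : ℝ) + 1) := by
    have := pt_succ z 0 u j
    rwa [zero_add] at this
  have e5 : pt z (u + (j.val : ℝ)) = pt z (u + ((j + 5 : Fin 6).val : ℝ) + 1) := by
    have h1 := pt_succ z 0 u (j + 5)
    rw [zero_add] at h1
    have key : ∀ i : Fin 6, i + 5 + 1 = i := by decide
    rw [key j] at h1
    exact h1
  generalize hx : u + ((j + 5 : Fin 6).val : ℝ) = x at *
  have e6 : pt z (u + (j.val : ℝ) + 1) = pt z (x + 2) := by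
    have h1 : pt z (u + (j.val : ℝ) + 1) - z = (pt z (u + (j.val : ℝ)) - z) * cis (Real.pi / 3) := by
      unfold pt
      rw [show (u + (j.val : ℝ) + 1) * (Real.pi / 3) = (u + (j.val : ℝ)) * (Real.pi / 3) +
        Real.pi / 3 by ring]
      rw [Six.cis_add]; ring
    have h2 : pt z (x + 2) - z = (pt z (x + 1) - z) * cis (Real.pi / 3) := by
      unfold pt
      rw [show (x + 2) * (Real.pi / 3) = (x + 1) * (Real.pi / 3) + Real.pi / 3 by ring]
      rw [Six.cis_add]; ring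
    rw [e5, ← h2] at h1
    exact sub_left_inj.1 h1
  rw [e1, e6, e5]
  have d1 : dist (pt z x) (pt z (x + 1)) = 1 := dist_pt_one z x
  have dz : dist (pt z x) z = 1 := dist_pt z x
  have dz2 : dist (pt z (x + 2)) z = 1 := dist_pt z _
  have d2 : dist (pt z (x + 1)) (pt z (x + 2)) = 1 := by
    have := dist_pt_one z (x + 1)
    rwa [show x + 1 + 1 = x + 2 by ring] at this
  have dd : dist (pt z (x + 1)) z = 1 := dist_pt z _
  -- `pt (x) + pt (x+2) = z + pt (x+1)`
  have key : pt z x + pt z (x + 2) = z + pt z (x + 1) := by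
    have h3 : cis (x * (Real.pi / 3)) + cis ((x + 2) * (Real.pi / 3)) =
        cis ((x + 1) * (Real.pi / 3)) := by
      rw [show (x + 2) * (Real.pi / 3) = (x + 1) * (Real.pi / 3) + Real.pi / 3 by ring,
        show x * (Real.pi / 3) = (x + 1) * (Real.pi / 3) + -(Real.pi / 3) by ring, Six.cis_add,
        Six.cis_add]
      have h4 : cis (-(Real.pi / 3)) + cis (Real.pi / 3) = 1 := by
        apply Complex.ext
        · simp only [Complex.add_re, cis_re, Real.cos_neg, Real.cos_pi_div_three, Complex.one_re]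
          norm_num
        · simp only [Complex.add_im, cis_im, Real.sin_neg, Complex.one_im]
          ring
      rw [← mul_add, h4, mul_one]
    unfold pt
    linear_combination h3
  refine ⟨fun h1 => ?_, fun h1 => ?_⟩
  · -- then `2 pt x = z + pt (x+1)`
    rw [← h1] at key
    have h2 : dist (pt z x) z = 1 / 2 := by
      have h3 : pt z x - z = (pt z (x + 1) - z) / 2 := by linear_combination key / 2
      rw [dist_eq_norm, h3, norm_div, ← dist_eq_norm, dd]
      norm_num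
    rw [dz] at h2
    norm_num at h2
  · rw [key] at h1
    have h2 : pt z (x + 1) = z := by linear_combination -h1
    rw [h2, dist_self] at dd
    exact zero_ne_one dd

/-- **The rules for any two limit columns of a 5-centre.** -/
theorem ev5 (h : Irr U T)
    (hmin : ∀ z, 4 ≤ (T z).ncard → ∀ s, s ⊆ T z → s ≠ T z →
      ¬ ∀ᶠ w in 𝓝 z, ∃ i ∈ s, w ∈ U i ∨ (w ∈ XX U ∧ i ∈ Pal U w))
    (hN : Function.Injective N) (P : P5 T z fun i : Fin 5 => N i.castSucc) (hf : N 5 ∉ T z)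
    {u : ℝ} {g g' : Unit × Fin 6 → Fin 16} (hg : g ∈ LC (X6 T z N) u ∪ RC (X6 T z N) u)
    (hg' : g' ∈ LC (X6 T z N) u ∪ RC (X6 T z N) u) : Ev5 (Qn T z N u) (low g) (low g') := by
  have F := frn5 h hmin hN P hf
  have E := F.ev hg hg'
  have hA : ∀ j : Fin 6, AdjD (fun _ _ : Unit => False) ((), j) ((), j + 1) := fun j =>
    Or.inl ⟨rfl, Or.inl rfl⟩
  have hB : ∀ j : Fin 6, AdjD (fun _ _ : Unit => False) ((), j + 1) ((), j) := fun j =>
    Or.inl ⟨rfl, Or.inr rfl⟩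
  have e51 : ∀ j : Fin 6, j + 5 + 1 = j := by decide
  have e15 : ∀ j : Fin 6, j + 1 + 5 = j := by decide
  have e11 : ∀ j : Fin 6, j + 1 + 1 = j + 2 := by decide
  refine ⟨leg6_low E.leg, leg6_low E.leg', fun j => ?_, fun j h1 h2 => ?_, fun j h1 h2 => ?_,
    fun j h1 h2 h3 => ?_⟩
  · have h1 := E.pal ((), j)
    rw [PN_one] at h1
    exact (Finset.union_subset_union (K6_dg _) (K6_dg _)).trans h1
  · rw [← PN_one] at h1 h2
    exact (E.swap _ _ (hA j) h1 h2).imp
      (fun h3 => Finset.disjoint_of_subset_left (K6_dg _)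
        (Finset.disjoint_of_subset_right (K6_dg _) h3))
      (fun h3 => Finset.disjoint_of_subset_left (K6_dg _)
        (Finset.disjoint_of_subset_right (K6_dg _) h3))
  · rw [← PN_one] at h1 h2
    have h3 := E.nsub _ _ (hA j) h1 h2
    have h4 := E.nsub _ _ (hB j) h2 h1
    rw [PN_one, PN_one] at h3 h4
    exact ⟨h3, h4⟩
  · obtain ⟨o1, o2⟩ := off_one (z := z) u j
    obtain ⟨o3, o4⟩ := off_one (z := z) u (j + 1)
    rw [e11, e15] at o3 o4
    rw [← PN_one] at h1 h2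
    have h3' : 2 ≤ (PN T (fun _ : Unit => z) N 0 u ((), j) ∩
        PN T (fun _ : Unit => z) N 0 u ((), j + 1)).card := by
      rw [PN_one, PN_one]; exact h3
    have h3'' : 2 ≤ (PN T (fun _ : Unit => z) N 0 u ((), j + 1) ∩
        PN T (fun _ : Unit => z) N 0 u ((), j)).card := by
      rw [Finset.inter_comm]; exact h3'
    have k1 := F.third hg hg' (s := ((), j)) (t := ((), j + 1)) (r := ((), j + 5)) (hA j)
      (Or.inl ⟨rfl, Or.inr (e51 j).symm⟩) h1 h2 h3' (by rw [pos_one, pos_one]; exact o1)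
      (by rw [pos_one, pos_one, pos_one]; exact o2)
    have k2 := F.third hg hg' (s := ((), j + 1)) (t := ((), j)) (r := ((), j + 2)) (hB j)
      (Or.inl ⟨rfl, Or.inl (e11 j).symm⟩) h2 h1 h3'' (by rw [pos_one, pos_one]; exact o3.symm)
      (by rw [pos_one, pos_one, pos_one, add_comm]; exact o4)
    rw [PN_one, PN_one, PN_one] at k1 k2
    exact ⟨k1, k2⟩

/-- maps of composed relations -/
theorem Cmp_map {A B : Type} {ι ι' : Type} {f : (ι → A) → ι' → B}
    {R : (ι' → B) → (ι' → B) → Prop} {E : ℝ → (ι' → B) → (ι' → B) → Prop} :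
    ∀ (l : List ℝ) (g g' : ι → A),
      Cmp (fun a b => R (f a) (f b)) (fun s a b => E s (f a) (f b)) l g g' → Cmp R E l (f g) (f g')
  | [], _, _, hh => hh
  | _ :: l, _, _, hh => by
    obtain ⟨a, b, h1, h2, h3⟩ := hh
    exact ⟨f a, f b, h1, h2, Cmp_map l b _ h3⟩

/-- **One turn of a 5-centre with a finite set of special times.** -/
theorem p5_turn (h : Irr U T)
    (hmin : ∀ z, 4 ≤ (T z).ncard → ∀ s, s ⊆ T z → s ≠ T z →
      ¬ ∀ᶠ w in 𝓝 z, ∃ i ∈ s, w ∈ U i ∨ (w ∈ XX U ∧ i ∈ Pal U w))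
    (hN : Function.Injective N) (P : P5 T z fun i : Fin 5 => N i.castSucc) (hf : N 5 ∉ T z)
    {R : (Fin 6 → Fin 6) → (Fin 6 → Fin 6) → Prop}
    (tr : ∀ a b c, R a b → R b c → R a c) {E : ℝ → (Fin 6 → Fin 6) → (Fin 6 → Fin 6) → Prop}
    (a : ℝ) (S : Finset ℝ) (hI : ∀ s ∈ S, s ∈ Ioo a (a + 1))
    (hE : ∀ s ∈ S, ∀ g ∈ LC (X6 T z N) s, ∀ g' ∈ RC (X6 T z N) s, E s (low g) (low g'))
    (loc : ∀ u ∈ Ioo a (a + 1), u ∉ S → ∀ c c', Ev5 (Qn T z N u) c c' → R c c') :
    ∃ c c', Leg6 c ∧ Leg6 c' ∧ Ev5 (Qn T z N a) c c' ∧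
      Cmp R E (S.sort (· ≤ ·)) c' fun j => c (j + 1) := by
  have F := frn5 h hmin hN P hf
  have w := F.sw 0
  have turn := w.turn_finset (σ := rt Unit) (fun s l u => Xl_per s l u)
    (R := fun g g' => R (low g) (low g')) (fun _ _ _ h1 h2 => tr _ _ _ h1 h2)
    (E := fun s g g' => E s (low g) (low g')) a S hI hE
    (fun u hu hu' g hg g' hg' => loc u hu hu' _ _ (ev5 h hmin hN P hf hg hg'))
  obtain ⟨g, hg⟩ := w.LC_ne a
  obtain ⟨g', hg'⟩ := w.RC_ne a
  refine ⟨low g, low g', leg6_low (w.leg_of_LC hg), leg6_low (w.leg_of_RC hg'),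
    ev5 h hmin hN P hf (Or.inl hg) (Or.inr hg'), ?_⟩
  exact Cmp_map _ _ _ (turn g hg g' hg')

/-- **No class function**: a class which no event changes and which the turn changes. -/
theorem p5_false (h : Irr U T)
    (hmin : ∀ z, 4 ≤ (T z).ncard → ∀ s, s ⊆ T z → s ≠ T z →
      ¬ ∀ᶠ w in 𝓝 z, ∃ i ∈ s, w ∈ U i ∨ (w ∈ XX U ∧ i ∈ Pal U w))
    (hN : Function.Injective N) (P : P5 T z fun i : Fin 5 => N i.castSucc) (hf : N 5 ∉ T z)
    {A : Type} (cl : (Fin 6 → Fin 6) → A)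
    (loc : ∀ u c c', Ev5 (Qn T z N u) c c' → cl c = cl c')
    (hne : ∀ c, Leg6 c → cl (fun j => c (j + 1)) ≠ cl c) : False := by
  obtain ⟨c, c', h1, -, h3, h4⟩ := p5_turn h hmin hN P hf (R := fun a b => cl a = cl b)
    (fun _ _ _ h1 h2 => h1.trans h2) (E := fun _ _ _ => True) 0 ∅ (by simp) (by simp)
    (fun u _ _ c c' hc => loc u c c' hc)
  rw [Finset.sort_empty] at h4
  exact hne c h1 (h4.symm.trans (loc 0 c c' h3).symm)

end one

end Vale.Agent.P032.H326
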