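import Vale.Agent.P032.H326.Window

/-!
# P032: no exact arc with three consecutive colours at a 5-centre

`P5.no_consec`: at a 5-centre `z` with the colours `c 0, .., c 4` and the five exact diagonals the
circle `S(z)` has no exact arc with the palette `{c j, c (j+1), c (j+2)}`.
-/

open Set Filter Topology Metric

noncomputable section

namespace Vale.Agent.P032.Six

variable {k : ℕ} {U : Fin k → Set ℂ} {T : ℂ → Set (Fin k)}

/-- `x` is an accumulation direction of the colour `i` at `z` (dual form) -/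
def Acc326 (T : ℂ → Set (Fin k)) (z : ℂ) (i : Fin k) (x : ℂ) : Prop :=
  ∀ (q : ℂ) (s ε : ℝ), (∀ᶠ w in 𝓝 z, i ∈ T w → ε * dist w z ≤ s * ip (w - z) q) →
    ε * ‖x‖ ≤ s * ip x q

theorem ip_smul_left326 (r : ℝ) (x q : ℂ) : ip ((r : ℂ) * x) q = r * ip x q := by
  unfold ip
  simp
  ring

theorem acc_of_frequently326 {z : ℂ} {i : Fin k} {x : ℂ}
    (hx : ∃ᶠ r : ℝ in 𝓝[>] 0, i ∈ T (z + r * x)) : Acc326 T z i x := by
  intro q s ε hq
  have h1 := ray_nhd326 z x hq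
  obtain ⟨r, h2, h3, h4⟩ := (hx.and_eventually (h1.and self_mem_nhdsWithin)).exists
  have h5 := h3 h2
  have h4 : 0 < r := h4
  rw [dist_eq_norm, show z + (r : ℂ) * x - z = (r : ℂ) * x by ring, norm_mul, Complex.norm_real,
    Real.norm_eq_abs, abs_of_pos h4, ip_smul_left326] at h5
  have h7 : 0 ≤ r * (s * ip x q - ε * ‖x‖) := by nlinarith
  have h8 := nonneg_of_mul_nonneg_right h7 h4
  linarith

/-- a ray with the palette `{i}` -/
theorem Irr.acc_ray326 (h : Irr U T) {z : ℂ} {i : Fin k} {x : ℂ}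
    (hx : ∀ᶠ r : ℝ in 𝓝[>] 0, T (z + r * x) ⊆ {i}) : Acc326 T z i x := by
  refine acc_of_frequently326 (Eventually.frequently ?_)
  filter_upwards [hx] with r hr
  obtain ⟨l, hl⟩ := h.ne (z + r * x)
  have := hr hl
  rw [mem_singleton_iff] at this
  rwa [this] at hl

/-- a vector on the line of `m` -/
theorem par326 {e m w : ℂ} (hm : ip m e = 0) (he : e ≠ 0) (hm0 : m ≠ 0) (hwe : ip w e = 0) :
    ∃ γ : ℝ, ∀ x : ℂ, γ * ip m x = ip w x := by
  have hpar : cr m w = 0 := by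
    have h1 : m.re * e.re + m.im * e.im = 0 := by unfold ip at hm; linarith
    have h2 : w.re * e.re + w.im * e.im = 0 := by unfold ip at hwe; linarith
    have h3 : cr m w * e.re = 0 := by
      unfold cr
      linear_combination w.im * h1 - m.im * h2
    have h4 : cr m w * e.im = 0 := by
      unfold cr
      linear_combination (-w.re) * h1 + m.re * h2
    rcases mul_eq_zero.1 h3 with h5 | h5
    · exact h5
    · rcases mul_eq_zero.1 h4 with h6 | h6
      · exact h6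
      · exact absurd (Complex.ext h5 h6) he
  have hmm : 0 < ip m m := by
    unfold ip
    by_contra hcon
    have h5 : m.re = 0 := by nlinarith [mul_self_nonneg m.re, mul_self_nonneg m.im]
    have h6 : m.im = 0 := by nlinarith [mul_self_nonneg m.re, mul_self_nonneg m.im]
    exact hm0 (Complex.ext h5 h6)
  refine ⟨ip m w / ip m m, fun x => ?_⟩
  have h7 : ip m w * ip m x = ip m m * ip w x := by
    unfold ip cr at *
    linear_combination (x.re * m.im - m.re * x.im) * hpar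
  rw [div_mul_eq_mul_div, h7]
  field_simp

/-- two vectors which the line of `M` cannot separate -/
theorem same326 {e M u v f f' : ℂ} (hM : ip M e = 0) (he : e ≠ 0) (hM0 : M ≠ 0)
    (h1 : 0 < ip M f) (h2 : ip u f ≤ 0) (h3 : ip v f < 0) (h4 : ip M f' < 0) (h5 : ip u f' ≤ 0)
    (h6 : ip v f' < 0) (h7 : ip u f + ip u f' < 0) (hu : 0 ≤ ip u e) (hv : ip v e ≤ 0) :
    False := by
  rcases hu.eq_or_lt with h8 | h8
  · obtain ⟨γ, hγ⟩ := par326 hM he hM0 h8.symm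
    have a1 := hγ f
    have a2 := hγ f'
    rcases lt_trichotomy γ 0 with h9 | h9 | h9
    · have := mul_pos_of_neg_of_neg h9 h4
      linarith
    · rw [h9, zero_mul] at a1 a2
      linarith
    · have := mul_pos h9 h1
      linarith
  · have key : ∀ x : ℂ, ip (((-ip v e : ℝ) : ℂ) * u + ((ip u e : ℝ) : ℂ) * v) x =
        (-ip v e) * ip u x + ip u e * ip v x := by
      intro x
      unfold ip
      simp
      ring
    obtain ⟨γ, hγ⟩ := par326 (w := ((-ip v e : ℝ) : ℂ) * u + ((ip u e : ℝ) : ℂ) * v) hM he hM0 (by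
      rw [key]; ring)
    have a1 := hγ f
    have a2 := hγ f'
    rw [key] at a1 a2
    have b1 : (-ip v e) * ip u f ≤ 0 := mul_nonpos_of_nonneg_of_nonpos (by linarith) h2
    have b2 : (-ip v e) * ip u f' ≤ 0 := mul_nonpos_of_nonneg_of_nonpos (by linarith) h5
    have b3 : ip u e * ip v f < 0 := mul_neg_of_pos_of_neg h8 h3
    have b4 : ip u e * ip v f' < 0 := mul_neg_of_pos_of_neg h8 h6
    rcases le_total γ 0 with h9 | h9
    · have := mul_nonneg_of_nonpos_of_nonpos h9 h4.le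
      linarith
    · have := mul_nonneg h9 h1.le
      linarith

/-- the same, both sides -/
theorem same_side326 {e M u v f f' : ℂ} (hM : ip M e = 0) (he : e ≠ 0) (hM0 : M ≠ 0)
    (h1 : 0 < ip M f) (h2 : ip u f ≤ 0) (h3 : ip v f < 0) (h4 : ip M f' < 0) (h5 : ip u f' ≤ 0)
    (h6 : ip v f' < 0) (h7 : ip u f + ip u f' < 0) :
    (0 < ip u e ∧ 0 < ip v e) ∨ (ip u e < 0 ∧ ip v e < 0) := by
  have a1 : ¬ (0 ≤ ip u e ∧ ip v e ≤ 0) := fun h8 =>
    same326 hM he hM0 h1 h2 h3 h4 h5 h6 h7 h8.1 h8.2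
  have a2 : ¬ (ip u e ≤ 0 ∧ 0 ≤ ip v e) := fun h8 =>
    same326 (e := -e) (by rw [ip_neg_right326, hM, neg_zero]) (neg_ne_zero.2 he) hM0 h1 h2 h3 h4 h5
      h6 h7 (by rw [ip_neg_right326]; linarith [h8.1]) (by rw [ip_neg_right326]; linarith [h8.2])
  rcases lt_or_ge 0 (ip u e) with h8 | h8
  · left
    refine ⟨h8, ?_⟩
    by_contra h9
    exact a1 ⟨h8.le, not_lt.1 h9⟩
  · right
    have h9 : ip v e < 0 := by
      by_contra h9
      exact a2 ⟨h8, not_lt.1 h9⟩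
    refine ⟨?_, h9⟩
    by_contra h10
    exact a1 ⟨not_lt.1 h10, h9.le⟩

/-- three rays of the colours of an arc on one side -/
theorem Irr.no_three326 (h : Irr U T) {z g u v w : ℂ} {a b d : Fin k} (hg : Arc T z g {a, b, d})
    (hu : Ray (U a) z u) (hv : Ray (U b) z v) (hw : Ray (U d) z w)
    (hs : (0 < ip u (g - z) ∧ 0 < ip v (g - z) ∧ 0 < ip w (g - z)) ∨
      (ip u (g - z) < 0 ∧ ip v (g - z) < 0 ∧ ip w (g - z) < 0)) : False := by
  have hgT := hg.mem
  have hnear := h.nhd g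
  rw [hgT] at hnear
  rcases hs with ⟨h1, h2, h3⟩ | ⟨h1, h2, h3⟩
  · obtain ⟨⟨x, ⟨hx1, hx2, hx3, hx5⟩, hx4⟩, -⟩ := exists_side326 hg.1
      (hnear.and ((h.mx.far hu hg.1 h1).and ((h.mx.far hv hg.1 h2).and (h.mx.far hw hg.1 h3))))
    obtain ⟨i, hi⟩ := h.ne x
    rcases hx1 hi with rfl | rfl | h5
    · exact hx2 hx4 (h.sub _ hi)
    · exact hx3 hx4 (h.sub _ hi)
    · rw [mem_singleton_iff] at h5
      subst h5
      exact hx5 hx4 (h.sub _ hi)
  · obtain ⟨-, x, ⟨hx1, hx2, hx3, hx5⟩, hx4⟩ := exists_side326 hg.1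
      (hnear.and ((h.mx.near hu hg.1 h1).and ((h.mx.near hv hg.1 h2).and (h.mx.near hw hg.1 h3))))
    obtain ⟨i, hi⟩ := h.ne x
    rcases hx1 hi with rfl | rfl | h5
    · exact hx2 hx4 (h.sub _ hi)
    · exact hx3 hx4 (h.sub _ hi)
    · rw [mem_singleton_iff] at h5
      subst h5
      exact hx5 hx4 (h.sub _ hi)

namespace P5

variable {z : ℂ} {c : Fin 5 → Fin k}

/-- the solid ray of `c j` perpendicular to an exact diagonal `{c (j+4), c (j+1)}` -/
theorem ray_perp (P : P5 T z c) (h : Irr U T)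
    (hmin : ∀ z, 4 ≤ (T z).ncard → ∀ s, s ⊆ T z → s ≠ T z →
      ¬ ∀ᶠ w in 𝓝 z, ∃ i ∈ s, w ∈ U i ∨ (w ∈ XX U ∧ i ∈ Pal U w)) (j : Fin 5) {q : ℂ}
    (hq : dist q z = 1) (hT : T q = {c (j + 4), c (j + 1)}) :
    ∃ u : ℂ, u ≠ 0 ∧ (∀ᶠ t : ℝ in 𝓝[>] 0, T (z + t * u) ⊆ {c j}) ∧ ip u (q - z) = 0 := by
  have hqz : q - z ≠ 0 := by
    intro h1
    rw [dist_eq_norm, h1, norm_zero] at hq
    exact zero_ne_one hq
  have hI : Complex.I * (q - z) ≠ 0 := mul_ne_zero Complex.I_ne_zero hqz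
  have hip : ip (Complex.I * (q - z)) (q - z) = 0 := by unfold ip; simp; ring
  have hip' : ip (-(Complex.I * (q - z))) (q - z) = 0 := by unfold ip; simp; ring
  rcases h.nappes555 hmin (a := c (j + 4)) (b := c (j + 1)) (X := {c j})
      (Y := {c (j + 2), c (j + 3)}) (by rw [P.card]; norm_num)
      (fun h1 => ne14_326 j (P.inj h1).symm) (by
        rw [P.rng]
        ext x
        constructor
        · rintro ⟨i, rfl⟩
          rcases five326 j i with rfl | rfl | rfl | rfl | rfl <;> simp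
        · rintro ((rfl | rfl) | (rfl | (rfl | rfl))) <;> exact mem_range_self _)
      (fun h1 => ne4_326 j (P.inj h1)) (fun h1 => ne1_326 j (P.inj h1))
      (by
        rintro (h1 | h1)
        · exact ne24_326 j (P.inj h1).symm
        · exact ne34_326 j (P.inj h1).symm)
      (by
        rintro (h1 | h1)
        · exact ne12_326 j (P.inj h1)
        · exact ne13_326 j (P.inj h1))
      (singleton_nonempty _) ⟨c (j + 2), Or.inl rfl⟩
      (by
        rw [Set.disjoint_left]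
        rintro x hx (h1 | h1)
        · exact ne2_326 j (P.inj (h1.symm.trans hx))
        · exact ne3_326 j (P.inj (h1.symm.trans hx)))
      (by rw [Set.ncard_singleton]; norm_num)
      (by
        rintro x hx y (hy | hy)
        · obtain ⟨q', hq', hT'⟩ := P.ex j
          exact ⟨q', hq', by rw [hT', mem_singleton_iff.1 hx, hy]⟩
        · obtain ⟨q', hq', hT'⟩ := P.ex (j + 3)
          rw [f32_326] at hT'
          have hy' : y = c (j + 3) := hy
          exact ⟨q', hq', by rw [hT', mem_singleton_iff.1 hx, hy', Set.pair_comm]⟩)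
      hq hT with h1 | h1
  · exact ⟨_, hI, h1.mono fun t ht => ht.1, hip⟩
  · exact ⟨_, neg_ne_zero.2 hI, h1.mono fun t ht => ht.2, hip'⟩

/-- the separating vectors of the five diagonals -/
theorem exists_dual326 (P : P5 T z c) (h : Irr U T)
    (hmin : ∀ z, 4 ≤ (T z).ncard → ∀ s, s ⊆ T z → s ≠ T z →
      ¬ ∀ᶠ w in 𝓝 z, ∃ i ∈ s, w ∈ U i ∨ (w ∈ XX U ∧ i ∈ Pal U w)) (j : Fin 5) :
    ∃ e : ℂ, (∀ x, x ≠ 0 → Acc326 T z (c j) x → 0 < ip x e) ∧
      (∀ x, x ≠ 0 → Acc326 T z (c (j + 2)) x → ip x e < 0) ∧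
        ∃ u : ℂ, u ≠ 0 ∧ (∀ᶠ t : ℝ in 𝓝[>] 0, T (z + t * u) ⊆ {c (j + 1)}) ∧ ip u e = 0 := by
  obtain ⟨q, hq, hT⟩ := P.ex j
  obtain ⟨s, hs, ε, hε, hw⟩ := P.strict h hmin hq hT
  obtain ⟨u, hu0, hu, hup⟩ := P.ray_perp h hmin (j + 1) (q := q) hq (by
    rw [hT, f14_326, f11_326])
  have hns : ∀ x : ℂ, ip x ((s : ℂ) * (q - z)) = s * ip x (q - z) := fun x => ip_smul_sign326 _ _
  refine ⟨(s : ℂ) * (q - z), fun x hx ha => ?_, fun x hx ha => ?_, u, hu0, hu, ?_⟩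
  · rw [hns]
    have h1 := ha (q - z) s ε (hw.mono fun w h1 => h1.1)
    have h2 := mul_pos hε (norm_pos_iff.2 hx)
    linarith
  · rw [hns]
    have h1 := ha (q - z) (-s) ε (hw.mono fun w h1 h2 => by
      have := h1.2 h2
      linarith)
    have h2 := mul_pos hε (norm_pos_iff.2 hx)
    linarith
  · rw [hns, hup, mul_zero]

/-- **no exact arc with three consecutive colours** -/
theorem no_consec (P : P5 T z c) (h : Irr U T)
    (hmin : ∀ z, 4 ≤ (T z).ncard → ∀ s, s ⊆ T z → s ≠ T z →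
      ¬ ∀ᶠ w in 𝓝 z, ∃ i ∈ s, w ∈ U i ∨ (w ∈ XX U ∧ i ∈ Pal U w)) (j : Fin 5) {g : ℂ}
    (hg : Arc T z g {c j, c (j + 1), c (j + 2)}) : False := by
  have hgn : ‖g - z‖ = 1 := by rw [← dist_eq_norm]; exact hg.1
  have hg0 : g - z ≠ 0 := by
    intro h1
    rw [h1, norm_zero] at hgn
    exact zero_ne_one hgn
  set m : ℂ := Complex.I * (g - z) with hm
  have hm0 : m ≠ 0 := mul_ne_zero Complex.I_ne_zero hg0
  have hme : ip m (g - z) = 0 := by rw [hm]; unfold ip; simp; ring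
  obtain ⟨e0, p0, n0, -⟩ := P.exists_dual326 h hmin j
  obtain ⟨e1, p1, n1, u2, hu20, hu2, o1⟩ := P.exists_dual326 h hmin (j + 1)
  obtain ⟨e2, p2, n2, -⟩ := P.exists_dual326 h hmin (j + 2)
  obtain ⟨e3, p3, n3, -⟩ := P.exists_dual326 h hmin (j + 3)
  obtain ⟨e4, p4, n4, u0, hu00, hu0, o4⟩ := P.exists_dual326 h hmin (j + 4)
  rw [f12_326] at n1
  rw [f11_326] at hu2
  rw [f22_326] at n2
  rw [f32_326] at n3
  rw [f42_326] at n4
  rw [f41_326] at hu0
  obtain ⟨u1, hu10, hu1⟩ : ∃ u : ℂ, u ≠ 0 ∧ ∀ᶠ t : ℝ in 𝓝[>] 0, T (z + t * u) ⊆ {c (j + 1)} := by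
    obtain ⟨-, -, -, u, h1, h2, -⟩ := P.exists_dual326 h hmin j
    exact ⟨u, h1, h2⟩
  -- the colours on the two perpendicular rays
  have hside : ∀ σ : ℝ, (σ = 1 ∨ σ = -1) →
      Acc326 T z (c (j + 3)) ((σ : ℂ) * m) ∨ Acc326 T z (c (j + 4)) ((σ : ℂ) * m) := by
    intro σ hσ
    have h1 := h.ray_no326 hg hσ rfl
    have h2 := ray_nhd326 z ((σ : ℂ) * m) (h.nhd z)
    have h3 : ∀ᶠ r : ℝ in 𝓝[>] 0, c (j + 3) ∈ T (z + r * ((σ : ℂ) * m)) ∨
        c (j + 4) ∈ T (z + r * ((σ : ℂ) * m)) := by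
      filter_upwards [h1, h2] with r h3 h4
      obtain ⟨i, hi⟩ := h.ne (z + r * ((σ : ℂ) * m))
      obtain ⟨l, rfl⟩ : i ∈ range c := P.rng ▸ h4 hi
      rcases five326 j l with rfl | rfl | rfl | rfl | rfl
      · exact Or.inr hi
      · exact absurd (h.sub _ hi) (h3 _ (by simp))
      · exact absurd (h.sub _ hi) (h3 _ (by simp))
      · exact absurd (h.sub _ hi) (h3 _ (by simp))
      · exact Or.inl hi
    rcases Filter.frequently_or_distrib.1 h3.frequently with h4 | h4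
    · exact Or.inl (acc_of_frequently326 h4)
    · exact Or.inr (acc_of_frequently326 h4)
  have hneg : ∀ x : ℂ, ip (((-1 : ℝ) : ℂ) * m) x = -ip m x := fun x => by
    rw [ip_smul_left326]; ring
  have hone : ∀ x : ℂ, ip (((1 : ℝ) : ℂ) * m) x = ip m x := fun x => by
    rw [ip_smul_left326]; ring
  have hn1 : (((1 : ℝ) : ℂ) * m) ≠ 0 := mul_ne_zero (by norm_num) hm0
  have hn2 : (((-1 : ℝ) : ℂ) * m) ≠ 0 := mul_ne_zero (by norm_num) hm0
  -- a vector `M` on the line with `j + 3` on it and `j + 4` on `-M`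
  obtain ⟨M, hM0, hMe, q1, q2, q3, q4⟩ : ∃ M : ℂ, M ≠ 0 ∧ ip M (g - z) = 0 ∧ 0 < ip M e3 ∧
      ip M e1 < 0 ∧ ip M e4 < 0 ∧ 0 < ip M e2 := by
    rcases hside 1 (Or.inl rfl) with h1 | h1 <;> rcases hside (-1) (Or.inr rfl) with h2 | h2
    · have a1 := p3 _ hn1 h1
      have a2 := p3 _ hn2 h2
      rw [hone] at a1
      rw [hneg] at a2
      linarith
    · have a1 := p3 _ hn1 h1
      have a2 := n1 _ hn1 h1
      have a3 := p4 _ hn2 h2
      have a4 := n2 _ hn2 h2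
      rw [hone] at a1 a2
      rw [hneg] at a3 a4
      exact ⟨m, hm0, hme, a1, a2, by linarith, by linarith⟩
    · have a1 := p3 _ hn2 h2
      have a2 := n1 _ hn2 h2
      have a3 := p4 _ hn1 h1
      have a4 := n2 _ hn1 h1
      rw [hone] at a3 a4
      refine ⟨_, hn2, ?_, a1, a2, ?_, ?_⟩
      · rw [hneg, hme, neg_zero]
      · rw [hneg]; linarith
      · rw [hneg]; linarith
    · have a1 := p4 _ hn1 h1
      have a2 := p4 _ hn2 h2
      rw [hone] at a1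
      rw [hneg] at a2
      linarith
  -- contact directions
  obtain ⟨r, W⟩ := P.exists_win h hmin
  have hr0 : ∀ i, r i ≠ 0 := fun i h1 => by
    have := W.nrm i
    rw [h1, norm_zero] at this
    exact zero_ne_one this
  have hra : ∀ i, Acc326 T z (c i) (r i) := fun i q s ε hq => by
    rw [W.nrm, mul_one]
    exact W.acc i q s ε (hq.mono fun w h1 h2 => h1 h2.1)
  have hrb : ∀ i, Acc326 T z (c (i + 1)) (r i) := fun i q s ε hq => by
    rw [W.nrm, mul_one]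
    exact W.acc i q s ε (hq.mono fun w h1 h2 => h1 h2.2)
  have hrb1 := hrb (j + 1)
  rw [f11_326] at hrb1
  have neg : ∀ a b : ℂ, ip a (-b) = -ip a b := ip_neg_right326
  -- the solid rays are on the side of `r j`
  have s1 : (0 < ip u1 (g - z) ∧ 0 < ip (r j) (g - z)) ∨ (ip u1 (g - z) < 0 ∧ ip (r j) (g - z) < 0) := by
    have a1 := p1 _ hu10 (h.acc_ray326 hu1)
    have a2 := p1 _ (hr0 j) (hrb j)
    have a3 := n4 _ hu10 (h.acc_ray326 hu1)
    have a4 := n4 _ (hr0 j) (hrb j)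
    refine same_side326 (f := -e1) (f' := e4) hMe hg0 hM0 ?_ ?_ ?_ q3 a3.le a4 ?_ <;>
      rw [neg] <;> linarith
  have s3 : (0 < ip (r (j + 1)) (g - z) ∧ 0 < ip (r j) (g - z)) ∨
      (ip (r (j + 1)) (g - z) < 0 ∧ ip (r j) (g - z) < 0) := by
    have a1 := p1 _ (hr0 _) (hra (j + 1))
    have a2 := p1 _ (hr0 j) (hrb j)
    have a3 := n4 _ (hr0 _) (hra (j + 1))
    have a4 := n4 _ (hr0 j) (hrb j)
    refine same_side326 (f := -e1) (f' := e4) hMe hg0 hM0 ?_ ?_ ?_ q3 a3.le a4 ?_ <;>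
      rw [neg] <;> linarith
  have s0 : (0 < ip u0 (g - z) ∧ 0 < ip (r j) (g - z)) ∨ (ip u0 (g - z) < 0 ∧ ip (r j) (g - z) < 0) := by
    have a1 := n3 _ hu00 (h.acc_ray326 hu0)
    have a2 := n3 _ (hr0 j) (hra j)
    have a4 := n4 _ (hr0 j) (hrb j)
    refine same_side326 (f := e3) (f' := e4) hMe hg0 hM0 q1 a1.le a2 q3 o4.le a4 ?_
    rw [o4]; linarith
  have s2 : (0 < ip u2 (g - z) ∧ 0 < ip (r (j + 1)) (g - z)) ∨
      (ip u2 (g - z) < 0 ∧ ip (r (j + 1)) (g - z) < 0) := by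
    have a1 := p1 _ (hr0 _) (hra (j + 1))
    have a2 := p2 _ hu20 (h.acc_ray326 hu2)
    have a3 := p2 _ (hr0 _) hrb1
    refine same_side326 (f := -e1) (f' := -e2) hMe hg0 hM0 ?_ ?_ ?_ ?_ ?_ ?_ ?_ <;>
      simp only [neg] <;> linarith
  have hray : ∀ {i : Fin k} {u : ℂ}, (∀ᶠ t : ℝ in 𝓝[>] 0, T (z + t * u) ⊆ {i}) → Ray (U i) z u :=
    fun hm => hm.mono fun t ht => h.mem_of_single ht
  refine h.no_three326 hg (hray hu0) (hray hu1) (hray hu2) ?_
  rcases s0 with ⟨b1, b2⟩ | ⟨b1, b2⟩ <;> rcases s1 with ⟨b3, b4⟩ | ⟨b3, b4⟩ <;>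
    rcases s3 with ⟨b5, b6⟩ | ⟨b5, b6⟩ <;> rcases s2 with ⟨b7, b8⟩ | ⟨b7, b8⟩ <;>
      first | exact Or.inl ⟨b1, b3, b7⟩ | exact Or.inr ⟨b1, b3, b7⟩ | (exfalso; linarith)

end P5

end Vale.Agent.P032.Six
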