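import Vale.Agent.P032.H326.Dsweep
import Vale.Agent.P032.H326.Col5

/-!
# P032: the border rays of a 5-centre and the letters of several circles

Angles in units of 60 degrees; `ρ i` the angle of the border ray `r i`.
`mL ρ v`, `mR ρ v` : the position of a ray before and after the angle `v` (floor of `v - ρ + 3/2`);
`sg m`  : the sign of a ray with position `m` (three signs plus, three signs minus);
`WL m P` : the window rule for an exact palette with the names `P`;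
`RayC`  : one circle of a family is the circle of a 5-centre with rays `ρ` (any frame: H93 `FrN`,
H423 `FrN3`); `RayC.wl_LC`, `RayC.wl_RC` : window rules of limit columns; `RayC.turn_sw` : one turn;
`Trk`   : the same over `FrN`; `Trk.wev`, `Trk.wev'` : all rules; `Trk.turn` : one turn.
-/

open Set Filter Topology Metric

noncomputable section

namespace Vale.Agent.P032.H326

open Vale.Agent.P032.Six Vale.Agent.P032.Sweep Vale.Agent.P032.S5.H767 Vale.Agent.P032.S5.H122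
  Vale.Agent.P032.H187 Vale.Agent.P032.H93

/-! ### Positions -/

/-- the position of the ray `ρ` before the angle `v` -/
def mL (ρ v : ℝ) : ℤ := ⌈v - ρ + 3 / 2⌉ - 1

/-- the position of the ray `ρ` after the angle `v` -/
def mR (ρ v : ℝ) : ℤ := ⌊v - ρ + 3 / 2⌋

/-- the sign of a ray: `true` if the angle to the direction is less than 90 degrees -/
def sg (m : ℤ) : Bool := decide (m % 6 < 3)

theorem ip_cis326 (x y : ℝ) : ip (cis x) (cis y) = Real.cos (x - y) := by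
  unfold ip
  rw [cis_re, cis_im, cis_re, cis_im, Real.cos_sub]

theorem cos_pos_iff326 (x : ℝ) : (0 < Real.cos ((x - 3 / 2) * (Real.pi / 3)) →
      ∃ n : ℤ, 6 * (n : ℝ) < x ∧ x < 6 * (n : ℝ) + 3) ∧
    (Real.cos ((x - 3 / 2) * (Real.pi / 3)) < 0 →
      ∃ n : ℤ, 6 * (n : ℝ) + 3 < x ∧ x < 6 * (n : ℝ) + 6) := by
  have hpi := Real.pi_pos
  set n : ℤ := ⌊x / 6⌋ with hn
  have h1 : (n : ℝ) ≤ x / 6 := Int.floor_le _
  have h2 : x / 6 < (n : ℝ) + 1 := Int.lt_floor_add_one _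
  have e : Real.cos ((x - 3 / 2) * (Real.pi / 3)) =
      Real.cos ((x - 6 * (n : ℝ) - 3 / 2) * (Real.pi / 3)) := by
    rw [show (x - 3 / 2) * (Real.pi / 3) = (x - 6 * (n : ℝ) - 3 / 2) * (Real.pi / 3) +
      (n : ℝ) * (2 * Real.pi) by ring]
    exact Real.cos_add_int_mul_two_pi _ _
  rw [e]
  set y : ℝ := x - 6 * (n : ℝ) with hy
  have hy0 : 0 ≤ y := by rw [hy]; linarith
  have hy6 : y < 6 := by rw [hy]; linarith
  constructor
  · intro hc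
    refine ⟨n, ?_, ?_⟩
    · by_contra hcon
      have : y = 0 := by linarith
      rw [this, show ((0 : ℝ) - 3 / 2) * (Real.pi / 3) = -(Real.pi / 2) by ring, Real.cos_neg,
        Real.cos_pi_div_two] at hc
      exact lt_irrefl _ hc
    · by_contra hcon
      have h3 : 3 ≤ y := by rw [hy]; linarith
      have h4 : Real.cos ((y - 3 / 2) * (Real.pi / 3)) ≤ 0 :=
        Real.cos_nonpos_of_pi_div_two_le_of_le (by nlinarith) (by nlinarith)
      linarith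
  · intro hc
    refine ⟨n, ?_, by linarith⟩
    by_contra hcon
    have h3 : y ≤ 3 := by rw [hy]; linarith
    have h4 : 0 ≤ Real.cos ((y - 3 / 2) * (Real.pi / 3)) :=
      Real.cos_nonneg_of_mem_Icc ⟨by nlinarith, by nlinarith⟩
    linarith

theorem sg_cos326 {x : ℝ} : (0 < Real.cos ((x - 3 / 2) * (Real.pi / 3)) →
      sg ⌊x⌋ = true ∧ sg (⌈x⌉ - 1) = true) ∧
    (Real.cos ((x - 3 / 2) * (Real.pi / 3)) < 0 → sg ⌊x⌋ = false ∧ sg (⌈x⌉ - 1) = false) := by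
  have f1 : (⌊x⌋ : ℝ) ≤ x := Int.floor_le x
  have f2 : x < (⌊x⌋ : ℝ) + 1 := Int.lt_floor_add_one x
  have f3 : x ≤ (⌈x⌉ : ℝ) := Int.le_ceil x
  have f4 : (⌈x⌉ : ℝ) < x + 1 := Int.ceil_lt_add_one x
  constructor
  · intro hc
    obtain ⟨n, h1, h2⟩ := (cos_pos_iff326 x).1 hc
    have g1 : 6 * n ≤ ⌊x⌋ := by
      have : ((6 * n : ℤ) : ℝ) < (⌊x⌋ : ℝ) + 1 := by push_cast; linarith
      have : (6 * n : ℤ) < ⌊x⌋ + 1 := by exact_mod_cast this
      omega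
    have g2 : ⌊x⌋ < 6 * n + 3 := by
      have : (⌊x⌋ : ℝ) < ((6 * n + 3 : ℤ) : ℝ) := by push_cast; linarith
      exact_mod_cast this
    have g3 : 6 * n < ⌈x⌉ := by
      have : ((6 * n : ℤ) : ℝ) < (⌈x⌉ : ℝ) := by push_cast; linarith
      exact_mod_cast this
    have g4 : ⌈x⌉ ≤ 6 * n + 3 := by
      have : (⌈x⌉ : ℝ) < ((6 * n + 3 : ℤ) : ℝ) + 1 := by push_cast; linarith
      have : ⌈x⌉ < 6 * n + 3 + 1 := by exact_mod_cast this
      omega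
    unfold sg
    refine ⟨decide_eq_true ?_, decide_eq_true ?_⟩ <;> omega
  · intro hc
    obtain ⟨n, h1, h2⟩ := (cos_pos_iff326 x).2 hc
    have g1 : 6 * n + 3 ≤ ⌊x⌋ := by
      have : ((6 * n + 3 : ℤ) : ℝ) < (⌊x⌋ : ℝ) + 1 := by push_cast; linarith
      have : (6 * n + 3 : ℤ) < ⌊x⌋ + 1 := by exact_mod_cast this
      omega
    have g2 : ⌊x⌋ < 6 * n + 6 := by
      have : (⌊x⌋ : ℝ) < ((6 * n + 6 : ℤ) : ℝ) := by push_cast; linarith
      exact_mod_cast this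
    have g3 : 6 * n + 3 < ⌈x⌉ := by
      have : ((6 * n + 3 : ℤ) : ℝ) < (⌈x⌉ : ℝ) := by push_cast; linarith
      exact_mod_cast this
    have g4 : ⌈x⌉ ≤ 6 * n + 6 := by
      have : (⌈x⌉ : ℝ) < ((6 * n + 6 : ℤ) : ℝ) + 1 := by push_cast; linarith
      have : ⌈x⌉ < 6 * n + 6 + 1 := by exact_mod_cast this
      omega
    unfold sg
    refine ⟨decide_eq_false ?_, decide_eq_false ?_⟩ <;> omega

theorem ip_pt326 (z : ℂ) (ρ w : ℝ) : ip (cis (ρ * (Real.pi / 3))) (pt z w - z) =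
    Real.cos ((w - ρ + 3 / 2 - 3 / 2) * (Real.pi / 3)) := by
  have : pt z w - z = cis (w * (Real.pi / 3)) := by unfold pt; ring
  rw [this, ip_cis326, ← Real.cos_neg]
  congr 1; ring

/-- the sign of the position is the sign of the product -/
theorem sg_mR {z : ℂ} {ρ w : ℝ} (h : ip (cis (ρ * (Real.pi / 3))) (pt z w - z) ≠ 0) :
    sg (mR ρ w) = decide (0 < ip (cis (ρ * (Real.pi / 3))) (pt z w - z)) := by
  rcases lt_or_gt_of_ne h with h1 | h1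
  · rw [decide_eq_false (not_lt.2 h1.le)]
    rw [ip_pt326] at h1
    exact (sg_cos326.2 h1).1
  · rw [decide_eq_true h1]
    rw [ip_pt326] at h1
    exact (sg_cos326.1 h1).1

theorem mR_add (ρ v : ℝ) (j : ℕ) : mR ρ (v + (j : ℝ)) = mR ρ v + j := by
  unfold mR
  rw [show v + (j : ℝ) - ρ + 3 / 2 = v - ρ + 3 / 2 + (j : ℝ) by ring]
  exact Int.floor_add_natCast _ _

theorem mL_add (ρ v : ℝ) (j : ℕ) : mL ρ (v + (j : ℝ)) = mL ρ v + j := by
  unfold mL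
  rw [show v + (j : ℝ) - ρ + 3 / 2 = v - ρ + 3 / 2 + (j : ℝ) by ring, Int.ceil_add_natCast]
  ring

theorem mL_le (ρ v : ℝ) : mL ρ v ≤ mR ρ v ∧ mR ρ v ≤ mL ρ v + 1 := by
  unfold mL mR
  have f1 : (⌊v - ρ + 3 / 2⌋ : ℝ) ≤ v - ρ + 3 / 2 := Int.floor_le _
  have f2 : v - ρ + 3 / 2 < (⌊v - ρ + 3 / 2⌋ : ℝ) + 1 := Int.lt_floor_add_one _
  have f3 : v - ρ + 3 / 2 ≤ (⌈v - ρ + 3 / 2⌉ : ℝ) := Int.le_ceil _
  have f4 : (⌈v - ρ + 3 / 2⌉ : ℝ) < v - ρ + 3 / 2 + 1 := Int.ceil_lt_add_one _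
  constructor
  · have : (⌈v - ρ + 3 / 2⌉ : ℝ) < ((⌊v - ρ + 3 / 2⌋ + 2 : ℤ) : ℝ) := by push_cast; linarith
    have : ⌈v - ρ + 3 / 2⌉ < ⌊v - ρ + 3 / 2⌋ + 2 := by exact_mod_cast this
    omega
  · have : (⌊v - ρ + 3 / 2⌋ : ℝ) ≤ (⌈v - ρ + 3 / 2⌉ : ℝ) := by linarith
    have : ⌊v - ρ + 3 / 2⌋ ≤ ⌈v - ρ + 3 / 2⌉ := by exact_mod_cast this
    omega

/-- near an angle on the left -/
theorem m_left (ρ u : ℝ) : ∀ᶠ v in 𝓝[<] u, mL ρ v = mL ρ u ∧ mR ρ v = mL ρ u := by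
  have f3 : u - ρ + 3 / 2 ≤ (⌈u - ρ + 3 / 2⌉ : ℝ) := Int.le_ceil _
  have f4 : (⌈u - ρ + 3 / 2⌉ : ℝ) < u - ρ + 3 / 2 + 1 := Int.ceil_lt_add_one _
  have h1 : (⌈u - ρ + 3 / 2⌉ : ℝ) - 1 + ρ - 3 / 2 < u := by linarith
  filter_upwards [Ioo_mem_nhdsLT h1] with v hv
  have hc : ⌈v - ρ + 3 / 2⌉ = ⌈u - ρ + 3 / 2⌉ := by
    rw [Int.ceil_eq_iff]
    have := hv.1
    have := hv.2
    constructor <;> linarith
  have hf : ⌊v - ρ + 3 / 2⌋ = ⌈u - ρ + 3 / 2⌉ - 1 := by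
    rw [Int.floor_eq_iff]
    have := hv.1
    have := hv.2
    push_cast
    constructor <;> linarith
  unfold mL mR
  rw [hc, hf]
  exact ⟨rfl, rfl⟩

/-- near an angle on the right -/
theorem m_right (ρ u : ℝ) : ∀ᶠ v in 𝓝[>] u, mL ρ v = mR ρ u ∧ mR ρ v = mR ρ u := by
  have f1 : (⌊u - ρ + 3 / 2⌋ : ℝ) ≤ u - ρ + 3 / 2 := Int.floor_le _
  have f2 : u - ρ + 3 / 2 < (⌊u - ρ + 3 / 2⌋ : ℝ) + 1 := Int.lt_floor_add_one _
  have h1 : u < (⌊u - ρ + 3 / 2⌋ : ℝ) + 1 + ρ - 3 / 2 := by linarith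
  filter_upwards [Ioo_mem_nhdsGT h1] with v hv
  have hc : ⌈v - ρ + 3 / 2⌉ = ⌊u - ρ + 3 / 2⌋ + 1 := by
    rw [Int.ceil_eq_iff]
    have := hv.1
    have := hv.2
    push_cast
    constructor <;> linarith
  have hf : ⌊v - ρ + 3 / 2⌋ = ⌊u - ρ + 3 / 2⌋ := by
    rw [Int.floor_eq_iff]
    have := hv.1
    have := hv.2
    constructor <;> linarith
  unfold mL mR
  rw [hc, hf]
  exact ⟨by ring, rfl⟩

/-- the positions of the five rays before the time `u` -/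
def ML (ρ : Fin 5 → ℝ) (φ u : ℝ) : Fin 5 → ℤ := fun i => mL (ρ i) (φ + u)

/-- the positions of the five rays after the time `u` -/
def MR (ρ : Fin 5 → ℝ) (φ u : ℝ) : Fin 5 → ℤ := fun i => mR (ρ i) (φ + u)

theorem tend_left (φ u : ℝ) : Tendsto (fun v : ℝ => φ + v) (𝓝[<] u) (𝓝[<] (φ + u)) := by
  refine tendsto_nhdsWithin_iff.2 ⟨?_, ?_⟩
  · exact ((continuous_const.add continuous_id).tendsto u).mono_left nhdsWithin_le_nhds
  · filter_upwards [self_mem_nhdsWithin] with v hv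
    have hv : v < u := hv
    show φ + v < φ + u
    linarith

theorem tend_right (φ u : ℝ) : Tendsto (fun v : ℝ => φ + v) (𝓝[>] u) (𝓝[>] (φ + u)) := by
  refine tendsto_nhdsWithin_iff.2 ⟨?_, ?_⟩
  · exact ((continuous_const.add continuous_id).tendsto u).mono_left nhdsWithin_le_nhds
  · filter_upwards [self_mem_nhdsWithin] with v hv
    have hv : u < v := hv
    show φ + u < φ + v
    linarith

theorem M_left (ρ : Fin 5 → ℝ) (φ u : ℝ) :
    ∀ᶠ v in 𝓝[<] u, ML ρ φ v = ML ρ φ u ∧ MR ρ φ v = ML ρ φ u := by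
  have h1 : ∀ i, ∀ᶠ v in 𝓝[<] u, mL (ρ i) (φ + v) = mL (ρ i) (φ + u) ∧
      mR (ρ i) (φ + v) = mL (ρ i) (φ + u) := fun i => (tend_left φ u).eventually (m_left (ρ i) _)
  filter_upwards [eventually_all.2 h1] with v hv
  exact ⟨funext fun i => (hv i).1, funext fun i => (hv i).2⟩

theorem M_right (ρ : Fin 5 → ℝ) (φ u : ℝ) :
    ∀ᶠ v in 𝓝[>] u, ML ρ φ v = MR ρ φ u ∧ MR ρ φ v = MR ρ φ u := by
  have h1 : ∀ i, ∀ᶠ v in 𝓝[>] u, mL (ρ i) (φ + v) = mR (ρ i) (φ + u) ∧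
      mR (ρ i) (φ + v) = mR (ρ i) (φ + u) := fun i => (tend_right φ u).eventually (m_right (ρ i) _)
  filter_upwards [eventually_all.2 h1] with v hv
  exact ⟨funext fun i => (hv i).1, funext fun i => (hv i).2⟩

/-- **the rays which cross at a time**: before and after -/
def Crs (M M' : Fin 5 → ℤ) : Prop := ∀ i, M i ≤ M' i ∧ M' i ≤ M i + 1

instance (M M' : Fin 5 → ℤ) : Decidable (Crs M M') := by unfold Crs; infer_instance

theorem crs_LR (ρ : Fin 5 → ℝ) (φ u : ℝ) : Crs (ML ρ φ u) (MR ρ φ u) := fun i => mL_le (ρ i) _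

theorem ML_add_one (ρ : Fin 5 → ℝ) (φ u : ℝ) : ML ρ φ (u + 1) = fun i => ML ρ φ u i + 1 := by
  funext i
  show mL (ρ i) (φ + (u + 1)) = mL (ρ i) (φ + u) + 1
  have := mL_add (ρ i) (φ + u) 1
  push_cast at this
  rw [← this]
  congr 1; ring

/-! ### The window rule -/

/-- the window rule for an exact palette with the names `P`; `m i` the position of the ray `i` at
the slot -/
def WL (m : Fin 5 → ℤ) (P : Finset (Fin 6)) : Prop :=
  ∀ i : Fin 5, P = {i.castSucc, (i + 2).castSucc} →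
    sg (m (i + 4)) = sg (m i) ∧ sg (m (i + 1)) = !sg (m i) ∧ sg (m (i + 2)) = !sg (m i)

instance (m : Fin 5 → ℤ) (P : Finset (Fin 6)) : Decidable (WL m P) := by unfold WL; infer_instance

variable {U : Fin 6 → Set ℂ} {T : ℂ → Set (Fin 6)} {N : Fin 6 → Fin 6}

/-- the window rule at limits of exact palettes -/
theorem wl_of {z : ℂ} {ρ : Fin 5 → ℝ}
    (W : Win T z (fun i : Fin 5 => N i.castSucc) fun i => cis (ρ i * (Real.pi / 3)))
    {P : Finset (Fin 6)} {w : ℝ} {m : Fin 5 → ℤ} (hm : ∀ᶠ w' in 𝓝 w, ∀ i, mR (ρ i) w' = m i)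
    (hw : ∀ i : Fin 5, P = {i.castSucc, (i + 2).castSucc} →
      ∃ᶠ w' in 𝓝 w, T (pt z w') = N '' (P : Set (Fin 6))) : WL m P := by
  intro i hP
  obtain ⟨w', h1, h2⟩ := ((hw i hP).and_eventually hm).exists
  have h3 : T (pt z w') = {N i.castSucc, N (i + 2).castSucc} := by
    rw [h1, hP]
    simp [Set.image_insert_eq]
  obtain ⟨s, hs, k1, k2, k3, k4⟩ := W.sep i (pt z w') (dist_pt z w') h3
  have hne : ∀ {x : ℝ}, (0 < s * x ∨ s * x < 0) → x ≠ 0 := by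
    rintro x hx rfl
    simp at hx
  have key : ∀ i' : Fin 5,
      ip (cis (ρ i' * (Real.pi / 3))) (pt z w' - z) ≠ 0 →
      sg (m i') = decide (0 < ip (cis (ρ i' * (Real.pi / 3))) (pt z w' - z)) := by
    intro i' hi'
    rw [← h2 i']
    exact sg_mR hi'
  rw [key _ (hne (Or.inl k1)), key _ (hne (Or.inl k2)), key _ (hne (Or.inr k3)),
    key _ (hne (Or.inr k4))]
  rcases hs with rfl | rfl
  · rw [one_mul] at k1 k2 k3 k4
    rw [decide_eq_true k1, decide_eq_true k2, decide_eq_false (not_lt.2 k3.le),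
      decide_eq_false (not_lt.2 k4.le)]
    exact ⟨rfl, rfl, rfl⟩
  · have k1' : ip (cis (ρ (i + 4) * (Real.pi / 3))) (pt z w' - z) < 0 := by linarith
    have k2' : ip (cis (ρ i * (Real.pi / 3))) (pt z w' - z) < 0 := by linarith
    have k3' : 0 < ip (cis (ρ (i + 1) * (Real.pi / 3))) (pt z w' - z) := by linarith
    have k4' : 0 < ip (cis (ρ (i + 2) * (Real.pi / 3))) (pt z w' - z) := by linarith
    rw [decide_eq_false (not_lt.2 k1'.le), decide_eq_false (not_lt.2 k2'.le),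
      decide_eq_true k3', decide_eq_true k4']
    exact ⟨rfl, rfl, rfl⟩

theorem cos_zero326 {x : ℝ} (h : Real.cos ((x - 3 / 2) * (Real.pi / 3)) = 0) :
    ∃ n : ℤ, x = 3 * (n : ℝ) := by
  obtain ⟨k, hk⟩ := Real.cos_eq_zero_iff.1 h
  refine ⟨k + 1, ?_⟩
  have hpi := Real.pi_pos
  have h1 : ((x - 3 / 2) / 3) * Real.pi = ((2 * (k : ℝ) + 1) / 2) * Real.pi := by linarith
  have h2 := mul_right_cancel₀ hpi.ne' h1
  push_cast
  linarith

/-- no ray is orthogonal to the direction if the positions do not jump -/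
theorem ip_ne326 {z : ℂ} {ρ w : ℝ} (h : mL ρ w = mR ρ w) :
    ip (cis (ρ * (Real.pi / 3))) (pt z w - z) ≠ 0 := by
  rw [ip_pt326]
  intro h0
  obtain ⟨n, hn⟩ := cos_zero326 h0
  unfold mL mR at h
  rw [hn, show (3 * (n : ℝ)) = ((3 * n : ℤ) : ℝ) by push_cast; ring, Int.ceil_intCast,
    Int.floor_intCast] at h
  omega

/-! ### Frames with the circle of a 5-centre -/

section frame

variable {κ Λ : Type} {zz : κ → ℂ} {D : κ → κ → Prop} {K : κ → Λ → Finset (Fin 6)}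
  {C : κ → Finset (Fin 6)} {lt : κ → Set (Fin 6) → Λ} {φ u : ℝ} {k0 : κ} {ρ : Fin 5 → ℝ}

/-- the window rules of a column -/
def WLc (K : κ → Λ → Finset (Fin 6)) (k0 : κ) (M : Fin 5 → ℤ) (g : κ × Fin 6 → Λ) : Prop :=
  ∀ j : Fin 6, WL (fun i => M i + (j.val : ℤ)) (K k0 (g (k0, j)))

instance (K : κ → Λ → Finset (Fin 6)) (k0 : κ) (M : Fin 5 → ℤ) (g : κ × Fin 6 → Λ) :
    Decidable (WLc K k0 M g) := by unfold WLc; infer_instance

/-- the signs of the five rays at every slot are a cyclic interval of length 1 to 4 -/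
def WOK (M : Fin 5 → ℤ) : Prop := ∀ j : Fin 6, cycInt (fun i => sg (M i + (j.val : ℤ))) = true

instance (M : Fin 5 → ℤ) : Decidable (WOK M) := by unfold WOK; infer_instance

/-- the rules for the states before and after a time: positions `M`, `M'`, columns `h`, `h'`,
names `P s` of the palettes of the slot points -/
structure WEv (D : κ → κ → Prop) (K : κ → Λ → Finset (Fin 6)) (C : κ → Finset (Fin 6)) (k0 : κ)
    (P : κ × Fin 6 → Finset (Fin 6)) (M M' : Fin 5 → ℤ) (h h' : κ × Fin 6 → Λ) : Prop where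
  ev : EvN D K C P h h'
  crs : Crs M M'
  wl : WLc K k0 M h
  wl' : WLc K k0 M' h'
  ok : WOK M
  ok' : WOK M'

/-- the circle `k0` of a family with letters `K`, `lt` is the circle of a 5-centre; its rays `ρ` -/
structure RayC (T : ℂ → Set (Fin 6)) (zz : κ → ℂ) (N : Fin 6 → Fin 6) (K : κ → Λ → Finset (Fin 6))
    (lt : κ → Set (Fin 6) → Λ) (k0 : κ) (ρ : Fin 5 → ℝ) : Prop where
  ex : ∀ s, s ∈ Lc T (zz k0) →
    N '' (K k0 (lt k0 (T (pt (zz k0) s))) : Set (Fin 6)) ⊆ T (zz k0) →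
    T (pt (zz k0) s) = N '' (K k0 (lt k0 (T (pt (zz k0) s))) : Set (Fin 6))
  p5 : P5 T (zz k0) fun i : Fin 5 => N i.castSucc
  win : Win T (zz k0) (fun i : Fin 5 => N i.castSucc) fun i => cis (ρ i * (Real.pi / 3))

/-- a frame with the circle `k0` of a 5-centre and its rays -/
structure Trk (U : Fin 6 → Set ℂ) (T : ℂ → Set (Fin 6)) (zz : κ → ℂ) (N : Fin 6 → Fin 6)
    (D : κ → κ → Prop) (K : κ → Λ → Finset (Fin 6)) (C : κ → Finset (Fin 6))
    (lt : κ → Set (Fin 6) → Λ) (k0 : κ) (ρ : Fin 5 → ℝ) : Prop where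
  fr : FrN U T zz N D K C lt
  p5 : P5 T (zz k0) fun i : Fin 5 => N i.castSucc
  win : Win T (zz k0) (fun i : Fin 5 => N i.castSucc) fun i => cis (ρ i * (Real.pi / 3))

namespace RayC

/-- the window rule at a slot -/
theorem wl_slot (F : RayC T zz N K lt k0 ρ) {M : Fin 5 → ℤ}
    (hM : ∀ᶠ v in 𝓝 u, MR ρ φ v = M) {j : Fin 6} {l : Λ} (hl : u ∈ Xl T zz φ lt (k0, j) l) :
    WL (fun i => M i + (j.val : ℤ)) (K k0 l) := by
  have hcl : φ + u + (j.val : ℝ) ∈ closure (Oc T (zz k0) (lt k0) l) := hl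
  have hfr := mem_closure_iff_frequently.1 hcl
  refine wl_of F.win (w := φ + u + (j.val : ℝ)) ?_ fun i hP => hfr.mono fun w' hw' => ?_
  · have ht : Tendsto (fun w' : ℝ => w' - φ - (j.val : ℝ)) (𝓝 (φ + u + (j.val : ℝ))) (𝓝 u) := by
      have hc : Continuous fun w' : ℝ => w' - φ - (j.val : ℝ) := by fun_prop
      have h1 := hc.tendsto (φ + u + (j.val : ℝ))
      rwa [show φ + u + (j.val : ℝ) - φ - (j.val : ℝ) = u by ring] at h1
    filter_upwards [ht.eventually hM] with w' hw' i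
    have h1 : mR (ρ i) (φ + (w' - φ - (j.val : ℝ))) = M i := congrFun hw' i
    rw [← h1, ← mR_add]
    congr 1; ring
  · have h1 := F.ex w' hw'.1
    have h2 : lt k0 (T (pt (zz k0) w')) = l := hw'.2
    rw [h2] at h1
    refine h1 ?_
    show N '' (K k0 l : Set (Fin 6)) ⊆ T (zz k0)
    rw [hP]
    rintro _ ⟨x, hx, rfl⟩
    rcases Finset.mem_insert.1 (Finset.mem_coe.1 hx) with rfl | hx
    · exact F.p5.mem i
    · rw [Finset.mem_singleton.1 hx]; exact F.p5.mem _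

/-- the signs at a slot are a cyclic interval -/
theorem cyc_slot (F : RayC T zz N K lt k0 ρ) (hu : ML ρ φ u = MR ρ φ u) :
    WOK (MR ρ φ u) := by
  intro j
  have h1 : ∀ i, mL (ρ i) (φ + u + (j.val : ℝ)) = mR (ρ i) (φ + u + (j.val : ℝ)) := by
    intro i
    rw [mL_add, mR_add]
    have : mL (ρ i) (φ + u) = mR (ρ i) (φ + u) := congrFun hu i
    rw [this]
  have h2 := F.win.cyc F.p5 (e := pt (zz k0) (φ + u + (j.val : ℝ)) - zz k0)
    fun i => ip_ne326 (h1 i)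
  have h3 : sgv (fun i => cis (ρ i * (Real.pi / 3))) (pt (zz k0) (φ + u + (j.val : ℝ)) - zz k0) =
      fun i => sg (MR ρ φ u i + (j.val : ℤ)) := by
    funext i
    unfold sgv
    rw [← sg_mR (ip_ne326 (h1 i)), mR_add]
    rfl
  rwa [h3] at h2

theorem wl_LC (F : RayC T zz N K lt k0 ρ) {g : κ × Fin 6 → Λ}
    (hg : g ∈ LC (Xl T zz φ lt) u) : WLc K k0 (ML ρ φ u) g ∧ WOK (ML ρ φ u) := by
  obtain ⟨c, hc, hsub⟩ := (mem_nhdsLT_iff_exists_Ioo_subset).1 (M_left ρ φ u)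
  obtain ⟨v, hv, hvI⟩ := (Frequently.and_eventually hg (Ioo_mem_nhdsLT hc)).exists
  have h1 : ∀ᶠ v' in 𝓝 v, MR ρ φ v' = ML ρ φ u := by
    filter_upwards [Ioo_mem_nhds hvI.1 hvI.2] with v' hv'
    exact (hsub hv').2
  refine ⟨fun j => F.wl_slot h1 (hv.2 (k0, j)), ?_⟩
  have h2 := F.cyc_slot (φ := φ) (u := v) ((hsub hvI).1.trans (hsub hvI).2.symm)
  rwa [(hsub hvI).2] at h2

theorem wl_RC (F : RayC T zz N K lt k0 ρ) {g : κ × Fin 6 → Λ}
    (hg : g ∈ RC (Xl T zz φ lt) u) : WLc K k0 (MR ρ φ u) g ∧ WOK (MR ρ φ u) := by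
  obtain ⟨c, hc, hsub⟩ := (mem_nhdsGT_iff_exists_Ioo_subset).1 (M_right ρ φ u)
  obtain ⟨v, hv, hvI⟩ := (Frequently.and_eventually hg (Ioo_mem_nhdsGT hc)).exists
  have h1 : ∀ᶠ v' in 𝓝 v, MR ρ φ v' = MR ρ φ u := by
    filter_upwards [Ioo_mem_nhds hvI.1 hvI.2] with v' hv'
    exact (hsub hv').2
  refine ⟨fun j => F.wl_slot h1 (hv.2 (k0, j)), ?_⟩
  have h2 := F.cyc_slot (φ := φ) (u := v) ((hsub hvI).1.trans (hsub hvI).2.symm)
  rwa [(hsub hvI).2] at h2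

/-- **one turn** for any rules of the columns of all circles -/
theorem turn_sw [Finite κ] [Finite Λ] {Leg : (κ × Fin 6 → Λ) → Prop} {φ : ℝ}
    (w : Sw (Xl T zz φ lt) Leg) (ρ : Fin 5 → ℝ)
    {Q : (Fin 5 → ℤ) × (κ × Fin 6 → Λ) → (Fin 5 → ℤ) × (κ × Fin 6 → Λ) → Prop}
    (tr : ∀ x y z, Q x y → Q y z → Q x z) (a : ℝ)
    (loc : ∀ u ∈ Ioo a (a + 1), ML ρ φ u = MR ρ φ u →
      ∀ h ∈ LC (Xl T zz φ lt) u ∪ RC (Xl T zz φ lt) u,
      ∀ h' ∈ LC (Xl T zz φ lt) u ∪ RC (Xl T zz φ lt) u, Q (ML ρ φ u, h) (ML ρ φ u, h'))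
    (crs : ∀ u ∈ Ioo a (a + 1), ML ρ φ u ≠ MR ρ φ u → ∀ h ∈ LC (Xl T zz φ lt) u,
      ∀ h' ∈ RC (Xl T zz φ lt) u, Q (ML ρ φ u, h) (MR ρ φ u, h')) :
    ∀ h ∈ LC (Xl T zz φ lt) a, ∀ h' ∈ RC (Xl T zz φ lt) a,
      Q (MR ρ φ a, h') (fun i => ML ρ φ a i + 1, h ∘ rt κ) := by
  intro h hh h' hh'
  have h1 := w.dturn (σ := rt κ) (fun s l u => Xl_per s l u) (Q := Q) tr
    (mL := ML ρ φ) (mR := MR ρ φ) a (fun u _ => M_left ρ φ u) (fun u _ => M_right ρ φ u) loc crs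
    h hh h' hh'
  rwa [ML_add_one] at h1

end RayC

namespace Trk

theorem ray (F : Trk U T zz N D K C lt k0 ρ) : RayC T zz N K lt k0 ρ :=
  ⟨fun s hs => F.fr.fr.ex k0 s hs, F.p5, F.win⟩

variable [Finite κ] [Finite Λ]

/-- **the rules from the left to the right** -/
theorem wev (F : Trk U T zz N D K C lt k0 ρ) {h h' : κ × Fin 6 → Λ}
    (hh : h ∈ LC (Xl T zz φ lt) u) (hh' : h' ∈ RC (Xl T zz φ lt) u) :
    WEv D K C k0 (PN T zz N φ u) (ML ρ φ u) (MR ρ φ u) h h' :=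
  ⟨F.fr.ev (Or.inl hh) (Or.inr hh'), crs_LR ρ φ u, (F.ray.wl_LC hh).1, (F.ray.wl_RC hh').1,
    (F.ray.wl_LC hh).2, (F.ray.wl_RC hh').2⟩

/-- **the rules for any two limit columns** at a time without crossing -/
theorem wev' (F : Trk U T zz N D K C lt k0 ρ) (hu : ML ρ φ u = MR ρ φ u)
    {h h' : κ × Fin 6 → Λ} (hh : h ∈ LC (Xl T zz φ lt) u ∪ RC (Xl T zz φ lt) u)
    (hh' : h' ∈ LC (Xl T zz φ lt) u ∪ RC (Xl T zz φ lt) u) :
    WEv D K C k0 (PN T zz N φ u) (ML ρ φ u) (ML ρ φ u) h h' := by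
  have key : ∀ g ∈ LC (Xl T zz φ lt) u ∪ RC (Xl T zz φ lt) u,
      WLc K k0 (ML ρ φ u) g ∧ WOK (ML ρ φ u) := by
    rintro g (hg | hg)
    · exact F.ray.wl_LC hg
    · rw [hu]; exact F.ray.wl_RC hg
  exact ⟨F.fr.ev hh hh', fun i => ⟨le_rfl, by omega⟩, (key h hh).1, (key h' hh').1,
    (key h hh).2, (key h' hh').2⟩

/-- **one turn**, raw form -/
theorem turn_raw (F : Trk U T zz N D K C lt k0 ρ)
    {Q : (Fin 5 → ℤ) × (κ × Fin 6 → Λ) → (Fin 5 → ℤ) × (κ × Fin 6 → Λ) → Prop}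
    (tr : ∀ x y z, Q x y → Q y z → Q x z) (φ a : ℝ)
    (loc : ∀ u ∈ Ioo a (a + 1), ML ρ φ u = MR ρ φ u →
      ∀ h ∈ LC (Xl T zz φ lt) u ∪ RC (Xl T zz φ lt) u,
      ∀ h' ∈ LC (Xl T zz φ lt) u ∪ RC (Xl T zz φ lt) u, Q (ML ρ φ u, h) (ML ρ φ u, h'))
    (crs : ∀ u ∈ Ioo a (a + 1), ML ρ φ u ≠ MR ρ φ u → ∀ h ∈ LC (Xl T zz φ lt) u,
      ∀ h' ∈ RC (Xl T zz φ lt) u, Q (ML ρ φ u, h) (MR ρ φ u, h')) :
    ∀ h ∈ LC (Xl T zz φ lt) a, ∀ h' ∈ RC (Xl T zz φ lt) a,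
      Q (MR ρ φ a, h') (fun i => ML ρ φ a i + 1, h ∘ rt κ) :=
  RayC.turn_sw (F.fr.sw φ) ρ tr a loc crs

/-- **One turn of a 5-centre with its rays and the letters of all circles.** -/
theorem turn (F : Trk U T zz N D K C lt k0 ρ)
    {Q : (Fin 5 → ℤ) × (κ × Fin 6 → Λ) → (Fin 5 → ℤ) × (κ × Fin 6 → Λ) → Prop}
    (tr : ∀ x y z, Q x y → Q y z → Q x z) (φ a : ℝ)
    (loc : ∀ u ∈ Ioo a (a + 1), ∀ M h h', WEv D K C k0 (PN T zz N φ u) M M h h' →
      Q (M, h) (M, h'))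
    (crs : ∀ u ∈ Ioo a (a + 1), ∀ M M' h h', M ≠ M' →
      WEv D K C k0 (PN T zz N φ u) M M' h h' → Q (M, h) (M', h')) :
    ∃ M M' h h', WEv D K C k0 (PN T zz N φ a) M M' h h' ∧
      Q (M', h') (fun i => M i + 1, h ∘ rt κ) := by
  have w := F.fr.sw φ
  obtain ⟨h, hh⟩ := w.LC_ne a
  obtain ⟨h', hh'⟩ := w.RC_ne a
  exact ⟨_, _, h, h', F.wev hh hh', F.turn_raw tr φ a
    (fun u hu e g hg g' hg' => loc u hu _ _ _ (F.wev' e hg hg'))
    (fun u hu e g hg g' hg' => crs u hu _ _ _ _ e (F.wev hg hg')) h hh h' hh'⟩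

end Trk

end frame

end Vale.Agent.P032.H326
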