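import Vale.Agent.P032.H326.Consec
import Vale.Agent.P032.H326.Track
import Vale.Agent.P032.H437.Fr

/-!
# P032: letters of a 5-centre, three consecutive colours excluded

`P5.no_consec_lc` : constant palettes of `S(z)`; `P5.lt_consec`, `P5.lt_adj` : limit palettes of
ultrafilters (H437); `lt5_lt`, `LC_lt`, `RC_lt` : the letters `11 .. 15` of `K5` do not occur.
-/

open Set Filter Topology Metric

noncomputable section

namespace Vale.Agent.P032.Six

open Vale.Agent.P032.Sweep Vale.Agent.P032.S5.H767 Vale.Agent.P032.S5.H122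
  Vale.Agent.P032.H187 Vale.Agent.P032.H93 Vale.Agent.P032.H437

variable {U : Fin 6 → Set ℂ} {T : ℂ → Set (Fin 6)} {z : ℂ} {c : Fin 5 → Fin 6}

/-- a constant palette of `S(z)` is not made of three consecutive colours -/
theorem P5.no_consec_lc (P : P5 T z c) (h : Irr U T)
    (hmin : ∀ z, 4 ≤ (T z).ncard → ∀ s, s ⊆ T z → s ≠ T z →
      ¬ ∀ᶠ w in 𝓝 z, ∃ i ∈ s, w ∈ U i ∨ (w ∈ XX U ∧ i ∈ Pal U w)) {s : ℝ} (hs : s ∈ Lc T z)
    (j : Fin 5) : T (pt z s) ≠ {c j, c (j + 1), c (j + 2)} := fun hT =>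
  P.no_consec h hmin j (g := pt z s) ⟨dist_pt z s, by rw [← hT]; exact Lc_circle hs⟩

/-- **a limit palette of `S(z)` has no three consecutive colours** -/
theorem P5.lt_consec (P : P5 T z c) (h : Irr U T)
    (hmin : ∀ z, 4 ≤ (T z).ncard → ∀ s, s ⊆ T z → s ≠ T z →
      ¬ ∀ᶠ w in 𝓝 z, ∃ i ∈ s, w ∈ U i ∨ (w ∈ XX U ∧ i ∈ Pal U w)) {F : Ultrafilter ℝ} {k : ℝ}
    (hs : LcF F T z k) (j : Fin 5) (h0 : c j ∈ lt F T z k) (h1 : c (j + 1) ∈ lt F T z k)
    (h2 : c (j + 2) ∈ lt F T z k) : False := by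
  have h3 := lt_card h hs
  have h4 : ({c j, c (j + 1), c (j + 2)} : Set (Fin 6)) ⊆ lt F T z k := by
    rintro i (rfl | rfl | h5)
    · exact h0
    · exact h1
    · rw [mem_singleton_iff] at h5
      rw [h5]; exact h2
  have h5 : ({c j, c (j + 1), c (j + 2)} : Set (Fin 6)).ncard = 3 := by
    rw [Set.ncard_eq_three]
    exact ⟨_, _, _, fun h6 => ne1_326 j (P.inj h6).symm, fun h6 => ne2_326 j (P.inj h6).symm,
      fun h6 => ne12_326 j (P.inj h6), rfl⟩
  have h6 : ({c j, c (j + 1), c (j + 2)} : Set (Fin 6)) = lt F T z k :=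
    Set.eq_of_subset_of_ncard_le h4 (by rw [h5]; exact h3) (Set.toFinite _)
  obtain ⟨v, h7, h8⟩ := (Filter.Eventually.and hs (lt_spec F T z k)).exists
  exact P.no_consec_lc h hmin h7 j (by rw [h8, h6])

/-- a limit palette of `S(z)` is not made of two neighbouring colours -/
theorem P5.lt_adj (P : P5 T z c) (h : Irr U T)
    (hmin : ∀ z, 4 ≤ (T z).ncard → ∀ s, s ⊆ T z → s ≠ T z →
      ¬ ∀ᶠ w in 𝓝 z, ∃ i ∈ s, w ∈ U i ∨ (w ∈ XX U ∧ i ∈ Pal U w)) (F : Ultrafilter ℝ) (k : ℝ)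
    (j : Fin 5) : lt F T z k ≠ {c j, c (j + 1)} := by
  intro h1
  obtain ⟨v, h2⟩ := (lt_spec F T z k).exists
  exact P.no_adj h hmin (dist_pt z _) j (h2.trans h1)

end Vale.Agent.P032.Six

namespace Vale.Agent.P032.H326

open Vale.Agent.P032.Six Vale.Agent.P032.Sweep Vale.Agent.P032.S5.H767 Vale.Agent.P032.S5.H122
  Vale.Agent.P032.H187 Vale.Agent.P032.H93

variable {U : Fin 6 → Set ℂ} {T : ℂ → Set (Fin 6)} {z : ℂ} {N : Fin 6 → Fin 6}

theorem K5_cons : ∀ l : Fin 16, 11 ≤ l.val → ∃ j : Fin 5,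
    K5 l = {j.castSucc, (j + 1).castSucc, (j + 2).castSucc} := by decide

/-- **the letters of three consecutive colours do not occur** -/
theorem lt5_lt (h : Irr U T)
    (hmin : ∀ z, 4 ≤ (T z).ncard → ∀ s, s ⊆ T z → s ≠ T z →
      ¬ ∀ᶠ w in 𝓝 z, ∃ i ∈ s, w ∈ U i ∨ (w ∈ XX U ∧ i ∈ Pal U w))
    (hN : Function.Injective N) (P : P5 T z fun i : Fin 5 => N i.castSucc) {s : ℝ}
    (hs : s ∈ Lc T z) : (lt5 N (T (pt z s))).val < 11 := by
  by_contra hcon
  push Not at hcon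
  obtain ⟨j, hj⟩ := K5_cons _ hcon
  have h5 : N 5 ∉ T (pt z s) := by
    intro h5
    have : lt5 N (T (pt z s)) = 5 := by unfold lt5; rw [if_pos h5]
    rw [this] at hcon
    revert hcon; decide
  have h6 : T (pt z s) = N '' (K5 (lt5 N (T (pt z s))) : Set (Fin 6)) := by
    have h7 := pal5 h hmin hN P hs h5
    unfold lt5
    rw [if_neg h5, dif_pos h7]
    exact h7.choose_spec
  rw [hj] at h6
  refine P.no_consec_lc h hmin hs j ?_
  rw [h6]
  simp [Set.image_insert_eq]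

end Vale.Agent.P032.H326
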