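import Vale.Agent.P032.H383.Sweep

/-!
# P032: the sweep theorem with a directed step function

`mL u`, `mR u` : the value of a parameter (positions of rays) before and after the time `u`.
`Sw.dsweep` : a transitive relation on pairs (parameter, column) which holds at every time of
`(a, b)` between limit columns (both directions if the parameter does not jump at this time, from the
left to the right if it jumps) holds between the limit columns at `a` from the right and at `b` from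
the left.  `Sw.dturn` : one turn.
-/

open Set Filter Topology

namespace Vale.Agent.P032.Sweep

variable {ι Λ A : Type*} {X : ι → Λ → Set ℝ} {Leg : (ι → Λ) → Prop}

/-- **The directed sweep theorem.** -/
theorem Sw.dsweep [Finite ι] [Finite Λ] (w : Sw X Leg) {Q : A × (ι → Λ) → A × (ι → Λ) → Prop}
    (tr : ∀ x y z, Q x y → Q y z → Q x z) {mL mR : ℝ → A} {a b : ℝ} (hab : a < b)
    (hl : ∀ u ∈ Ioc a b, ∀ᶠ v in 𝓝[<] u, mL v = mL u ∧ mR v = mL u)
    (hr : ∀ u ∈ Ico a b, ∀ᶠ v in 𝓝[>] u, mL v = mR u ∧ mR v = mR u)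
    (loc : ∀ u ∈ Ioo a b, mL u = mR u → ∀ h ∈ LC X u ∪ RC X u, ∀ h' ∈ LC X u ∪ RC X u,
      Q (mL u, h) (mL u, h'))
    (crs : ∀ u ∈ Ioo a b, mL u ≠ mR u → ∀ h ∈ LC X u, ∀ h' ∈ RC X u, Q (mL u, h) (mR u, h')) :
    ∀ h ∈ RC X a, ∀ h' ∈ LC X b, Q (mR a, h) (mL b, h') := by
  intro h0 hh0 h' hh'
  have ev : ∀ u ∈ Ioo a b, ∀ h ∈ LC X u, ∀ h' ∈ RC X u, Q (mL u, h) (mR u, h') := by
    intro u hu h hh g hg
    by_cases e : mL u = mR u
    · have := loc u hu e h (Or.inl hh) g (Or.inr hg)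
      rwa [← e]
    · exact crs u hu e h hh g hg
  obtain ⟨p, ⟨hp, hpm⟩, hpI⟩ := ((Frequently.and_eventually hh0
    (hr a ⟨le_rfl, hab⟩)).and_eventually (Ioo_mem_nhdsGT hab)).exists
  obtain ⟨q, ⟨hq, hqm⟩, hqI⟩ := ((Frequently.and_eventually hh'
    (hl b ⟨hab, le_rfl⟩)).and_eventually (Ioo_mem_nhdsLT hpI.2)).exists
  let G : ℝ → Prop := fun t => ∀ h ∈ LC X t, Q (mR a, h0) (mL t, h)
  have hIp : ∀ t ∈ Icc p q, t ∈ Ioo a b := fun t ht =>
    ⟨hpI.1.trans_le ht.1, ht.2.trans_lt hqI.2⟩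
  have base : G p := by
    intro h hh
    have h1 := loc p hpI (by rw [hpm.1, hpm.2]) h0 (Or.inl (w.self_LC hp.1 hp.2)) h (Or.inl hh)
    rwa [hpm.1] at h1 ⊢
  have stepR : ∀ t ∈ Icc p q, G t → ∀ᶠ v in 𝓝[>] t, G v := by
    intro t ht hG
    have htI := hIp t ht
    filter_upwards [hr t ⟨htI.1.le, htI.2⟩, sub_right (X := X) t] with v h1 h2 h hh
    obtain ⟨g, hg⟩ := w.LC_ne t
    have h3 := tr _ _ _ (hG g hg) (ev t htI g hg h (h2 (Or.inl hh)))
    rwa [h1.1]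
  have stepL : ∀ t ∈ Icc p q, (∀ᶠ v in 𝓝[<] t, G v) → G t := by
    intro t ht hG h hh
    have htI := hIp t ht
    obtain ⟨v, ⟨hv, h1⟩, h2⟩ := ((Frequently.and_eventually hh
      (hl t ⟨htI.1, htI.2.le⟩)).and_eventually hG).exists
    have h3 := h2 h (w.self_LC hv.1 hv.2)
    rwa [h1.1] at h3
  let S : Set ℝ := {t | t ∈ Icc p q ∧ ∀ v ∈ Icc p t, G v}
  have hpq : p ≤ q := hqI.1.le
  have hpS : p ∈ S := ⟨⟨le_rfl, hpq⟩, fun v hv => by
    have : v = p := le_antisymm hv.2 hv.1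
    rw [this]; exact base⟩
  have hbd : BddAbove S := ⟨q, fun t ht => ht.1.2⟩
  set s := sSup S with hs
  have hps : p ≤ s := le_csSup hbd hpS
  have hsq : s ≤ q := csSup_le ⟨p, hpS⟩ fun t ht => ht.1.2
  have hlt : ∀ v ∈ Ico p s, G v := by
    intro v hv
    obtain ⟨t, ht, hvt⟩ := exists_lt_of_lt_csSup ⟨p, hpS⟩ hv.2
    exact ht.2 v ⟨hv.1, hvt.le⟩
  have hsG : G s := by
    rcases hps.lt_or_eq with h1 | h1
    · refine stepL s ⟨hps, hsq⟩ ?_
      filter_upwards [Ico_mem_nhdsLT h1] with v hv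
      exact hlt v hv
    · rw [← h1]; exact base
  have hsqe : s = q := by
    by_contra hne
    have hsq' : s < q := lt_of_le_of_ne hsq hne
    obtain ⟨c, hc, hsub⟩ := (mem_nhdsGT_iff_exists_Ioo_subset).1 (stepR s ⟨hps, hsq⟩ hsG)
    have hc : s < c := hc
    have hm : s < min c q := lt_min hc hsq'
    obtain ⟨t, ht1, ht2⟩ := exists_between hm
    have htS : t ∈ S := by
      refine ⟨⟨hps.trans ht1.le, (ht2.trans_le (min_le_right _ _)).le⟩, fun v hv => ?_⟩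
      rcases lt_trichotomy v s with h1 | h1 | h1
      · exact hlt v ⟨hv.1, h1⟩
      · rw [h1]; exact hsG
      · exact hsub ⟨h1, hv.2.trans_lt (ht2.trans_le (min_le_left _ _))⟩
    exact absurd (le_csSup hbd htS) (not_le.2 ht1)
  have hqG : G q := hsqe ▸ hsG
  have h1 := hqG h' (w.self_LC hq.1 hq.2)
  rwa [hqm.1] at h1

/-- **one turn** with a directed step function -/
theorem Sw.dturn [Finite ι] [Finite Λ] (w : Sw X Leg) {σ : Equiv.Perm ι}
    (per : ∀ i l u, u + 1 ∈ X i l ↔ u ∈ X (σ i) l) {Q : A × (ι → Λ) → A × (ι → Λ) → Prop}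
    (tr : ∀ x y z, Q x y → Q y z → Q x z) {mL mR : ℝ → A} (a : ℝ)
    (hl : ∀ u ∈ Ioc a (a + 1), ∀ᶠ v in 𝓝[<] u, mL v = mL u ∧ mR v = mL u)
    (hr : ∀ u ∈ Ico a (a + 1), ∀ᶠ v in 𝓝[>] u, mL v = mR u ∧ mR v = mR u)
    (loc : ∀ u ∈ Ioo a (a + 1), mL u = mR u → ∀ h ∈ LC X u ∪ RC X u, ∀ h' ∈ LC X u ∪ RC X u,
      Q (mL u, h) (mL u, h'))
    (crs : ∀ u ∈ Ioo a (a + 1), mL u ≠ mR u → ∀ h ∈ LC X u, ∀ h' ∈ RC X u,
      Q (mL u, h) (mR u, h')) :
    ∀ h ∈ LC X a, ∀ h' ∈ RC X a, Q (mR a, h') (mL (a + 1), h ∘ σ) := fun h hh h' hh' =>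
  w.dsweep tr (by linarith) hl hr loc crs h' hh' (h ∘ σ) (LC_shift per hh)

end Vale.Agent.P032.Sweep
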