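import Vale.Agent.P032.H326.Track

/-!
# P032: the order of the border rays and oriented letters

`Fan.exists_ord` : positively oriented rays have angles `ρ 0 < ρ 1 < ... < ρ 4 < ρ 0 + 6` (units 60
degrees).
`WO M` : the positions are in this order; `wo_ML`, `wo_MR`.
`P5.rev`, `Win.rev` : the reversed numbering of the colours.
-/

open Set Filter Topology Metric

noncomputable section

namespace Vale.Agent.P032.H326

open Vale.Agent.P032.Six Vale.Agent.P032.Sweep Vale.Agent.P032.S5.H767 Vale.Agent.P032.S5.H122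
  Vale.Agent.P032.H187 Vale.Agent.P032.H93

theorem cr_cis326 (x y : ℝ) : cr (cis x) (cis y) = Real.sin (y - x) := by
  unfold cr
  rw [cis_re, cis_im, cis_re, cis_im, Real.sin_sub]
  ring

/-- a representative of a direction -/
theorem exists_rep326 {r : ℂ} (hr : ‖r‖ = 1) (A : ℝ) :
    ∃ p : ℝ, A ≤ p ∧ p < A + 6 ∧ r = cis (p * (Real.pi / 3)) := by
  obtain ⟨θ, hθ⟩ := exists_cis hr
  have hpi := Real.pi_pos
  set x : ℝ := θ / (Real.pi / 3) with hx
  have hxθ : x * (Real.pi / 3) = θ := by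
    rw [hx]; field_simp
  set n : ℤ := ⌊(x - A) / 6⌋ with hn
  have h1 : (n : ℝ) ≤ (x - A) / 6 := Int.floor_le _
  have h2 : (x - A) / 6 < (n : ℝ) + 1 := Int.lt_floor_add_one _
  refine ⟨x - 6 * (n : ℝ), by linarith, by linarith, ?_⟩
  have e : (x - 6 * (n : ℝ)) * (Real.pi / 3) = θ + (-(n : ℝ)) * (2 * Real.pi) := by
    rw [← hxθ]; ring
  rw [e, hθ]
  apply Complex.ext
  · rw [cis_re, cis_re]
    have := Real.cos_add_int_mul_two_pi θ (-n)
    push_cast at this
    exact this.symm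
  · rw [cis_im, cis_im]
    have := Real.sin_add_int_mul_two_pi θ (-n)
    push_cast at this
    exact this.symm

theorem sin_pos326 {d : ℝ} (h : 0 < Real.sin (d * (Real.pi / 3))) (h3 : -3 ≤ d) : 0 < d := by
  by_contra hcon
  push Not at hcon
  have hpi := Real.pi_pos
  have := Real.sin_nonpos_of_nonpos_of_neg_pi_le (x := d * (Real.pi / 3)) (by nlinarith)
    (by nlinarith)
  linarith

theorem cos_pos326 {d : ℝ} (h : 0 < Real.cos (d * (Real.pi / 3))) (h1 : -(3 / 2) ≤ d)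
    (h2 : d < 9 / 2) : d < 3 / 2 ∧ -(3 / 2) < d := by
  have hpi := Real.pi_pos
  constructor
  · by_contra hcon
    push Not at hcon
    have := Real.cos_nonpos_of_pi_div_two_le_of_le (x := d * (Real.pi / 3)) (by nlinarith)
      (by nlinarith)
    linarith
  · refine lt_of_le_of_ne h1 fun h3 => ?_
    rw [← h3, show (-(3 / 2) : ℝ) * (Real.pi / 3) = -(Real.pi / 2) by ring, Real.cos_neg,
      Real.cos_pi_div_two] at h
    exact lt_irrefl _ h

theorem cos_neg326 {d : ℝ} (h : Real.cos (d * (Real.pi / 3)) < 0) (h1 : -(3 / 2) ≤ d) :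
    3 / 2 < d := by
  have hpi := Real.pi_pos
  by_contra hcon
  push Not at hcon
  have := Real.cos_nonneg_of_mem_Icc (x := d * (Real.pi / 3)) ⟨by nlinarith, by nlinarith⟩
  linarith

/-- **positively oriented rays in order** -/
theorem _root_.Vale.Agent.P032.Six.Fan.exists_ord {r : Fin 5 → ℂ} (F : Fan r)
    (hn : ∀ j, ‖r j‖ = 1) (hp : ∀ j, 0 < cr (r j) (r (j + 1))) :
    ∃ ρ : Fin 5 → ℝ, (∀ i, r i = cis (ρ i * (Real.pi / 3))) ∧
      ρ 0 < ρ 1 ∧ ρ 1 < ρ 2 ∧ ρ 2 < ρ 3 ∧ ρ 3 < ρ 4 ∧ ρ 4 < ρ 0 + 6 := by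
  obtain ⟨e, h1, h2, h3, h4⟩ := F 0
  have e04 : (0 : Fin 5) + 4 = 4 := by decide
  have e01 : (0 : Fin 5) + 1 = 1 := by decide
  have e02 : (0 : Fin 5) + 2 = 2 := by decide
  rw [e04] at h1
  rw [e01] at h3
  rw [e02] at h4
  have he : e ≠ 0 := by
    rintro rfl
    unfold ip at h1
    simp at h1
  have hne : 0 < ‖e‖ := norm_pos_iff.2 he
  -- the direction of `e`
  obtain ⟨ε, -, -, hε⟩ := exists_rep326 (r := ((‖e‖⁻¹ : ℝ) : ℂ) * e) (by
    rw [norm_mul, Complex.norm_real, Real.norm_eq_abs, abs_of_pos (inv_pos.2 hne),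
      inv_mul_cancel₀ hne.ne']) 0
  have hip : ∀ a : ℂ, ip a e = ‖e‖ * ip a (cis (ε * (Real.pi / 3))) := by
    intro a
    rw [← hε, ip_smul_sign326, ← mul_assoc, mul_inv_cancel₀ hne.ne', one_mul]
  choose p hp1 hp2 hp3 using fun j => exists_rep326 (hn j) (ε - 3 / 2)
  have hipj : ∀ j, ip (r j) e = ‖e‖ * Real.cos ((p j - ε) * (Real.pi / 3)) := by
    intro j
    rw [hip, hp3 j, ip_cis326]
    congr 2; ring
  have hcr : ∀ i j, cr (r i) (r j) = Real.sin ((p j - p i) * (Real.pi / 3)) := by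
    intro i j
    conv_lhs => rw [hp3 i, hp3 j]
    rw [cr_cis326]
    congr 1; ring
  have g4 : 0 < Real.cos ((p 4 - ε) * (Real.pi / 3)) := by
    rw [hipj] at h1
    exact (mul_pos_iff_of_pos_left hne).1 h1
  have g0 : 0 < Real.cos ((p 0 - ε) * (Real.pi / 3)) := by
    rw [hipj] at h2
    exact (mul_pos_iff_of_pos_left hne).1 h2
  have g1 : Real.cos ((p 1 - ε) * (Real.pi / 3)) < 0 := by
    rw [hipj] at h3
    by_contra hcon
    push Not at hcon
    have := mul_nonneg hne.le hcon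
    linarith
  have g2 : Real.cos ((p 2 - ε) * (Real.pi / 3)) < 0 := by
    rw [hipj] at h4
    by_contra hcon
    push Not at hcon
    have := mul_nonneg hne.le hcon
    linarith
  have b4 := cos_pos326 g4 (by linarith [hp1 4]) (by linarith [hp2 4])
  have b0 := cos_pos326 g0 (by linarith [hp1 0]) (by linarith [hp2 0])
  have b1 := cos_neg326 g1 (by linarith [hp1 1])
  have b2 := cos_neg326 g2 (by linarith [hp1 2])
  have e12 : (1 : Fin 5) + 1 = 2 := by decide
  have e23 : (2 : Fin 5) + 1 = 3 := by decide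
  have e34 : (3 : Fin 5) + 1 = 4 := by decide
  have e40 : (4 : Fin 5) + 1 = 0 := by decide
  have c12 := hp 1
  have c23 := hp 2
  have c34 := hp 3
  have c40 := hp 4
  rw [e12, hcr] at c12
  rw [e23, hcr] at c23
  rw [e34, hcr] at c34
  rw [e40, hcr] at c40
  have d40 : p 4 < p 0 := by linarith [sin_pos326 c40 (by linarith)]
  have d12 : p 1 < p 2 := by linarith [sin_pos326 c12 (by linarith [hp2 2, hp2 1])]
  have hle3 := hp1 3
  have hlt3 := hp2 3
  have hlt2 := hp2 2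
  by_cases hc : p 3 < p 2
  · -- the ray `3` is on the side of `4`
    have h5 : p 3 < p 2 - 3 := by
      by_contra hcon
      push Not at hcon
      have := sin_pos326 c23 (by linarith)
      linarith
    have d34 : p 3 < p 4 := by linarith [sin_pos326 c34 (by linarith)]
    refine ⟨![p 0, p 1, p 2, p 3 + 6, p 4 + 6], ?_, ?_, ?_, ?_, ?_, ?_⟩
    · intro i
      have hsix : ∀ x : ℝ, cis ((x + 6) * (Real.pi / 3)) = cis (x * (Real.pi / 3)) := by
        intro x
        rw [show (x + 6) * (Real.pi / 3) = x * (Real.pi / 3) + 2 * Real.pi by ring,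
          S5.H767.cis_add, S5.H767.cis_two_pi, mul_one]
      fin_cases i
      · exact hp3 0
      · exact hp3 1
      · exact hp3 2
      · show r 3 = cis ((p 3 + 6) * (Real.pi / 3))
        rw [hsix]; exact hp3 3
      · show r 4 = cis ((p 4 + 6) * (Real.pi / 3))
        rw [hsix]; exact hp3 4
    · show p 0 < p 1
      linarith
    · show p 1 < p 2
      exact d12
    · show p 2 < p 3 + 6
      linarith
    · show p 3 + 6 < p 4 + 6
      linarith
    · show p 4 + 6 < p 0 + 6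
      linarith
  · push Not at hc
    have h5 : p 2 < p 3 := by
      have := sin_pos326 c23 (by linarith)
      linarith
    refine ⟨![p 0, p 1, p 2, p 3, p 4 + 6], ?_, ?_, ?_, ?_, ?_, ?_⟩
    · intro i
      have hsix : ∀ x : ℝ, cis ((x + 6) * (Real.pi / 3)) = cis (x * (Real.pi / 3)) := by
        intro x
        rw [show (x + 6) * (Real.pi / 3) = x * (Real.pi / 3) + 2 * Real.pi by ring,
          S5.H767.cis_add, S5.H767.cis_two_pi, mul_one]
      fin_cases i
      · exact hp3 0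
      · exact hp3 1
      · exact hp3 2
      · exact hp3 3
      · show r 4 = cis ((p 4 + 6) * (Real.pi / 3))
        rw [hsix]; exact hp3 4
    · show p 0 < p 1
      linarith
    · show p 1 < p 2
      exact d12
    · show p 2 < p 3
      exact h5
    · show p 3 < p 4 + 6
      linarith
    · show p 4 + 6 < p 0 + 6
      linarith

/-- the positions are in cyclic order (positive orientation) -/
def WO (M : Fin 5 → ℤ) : Prop := M 1 ≤ M 0 ∧ M 2 ≤ M 1 ∧ M 3 ≤ M 2 ∧ M 4 ≤ M 3 ∧ M 0 ≤ M 4 + 6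

instance (M : Fin 5 → ℤ) : Decidable (WO M) := by unfold WO; infer_instance

/-- the order of the angles -/
def Ord5 (ρ : Fin 5 → ℝ) : Prop :=
  ρ 0 < ρ 1 ∧ ρ 1 < ρ 2 ∧ ρ 2 < ρ 3 ∧ ρ 3 < ρ 4 ∧ ρ 4 < ρ 0 + 6

theorem mR_anti {ρ ρ' : ℝ} (h : ρ ≤ ρ') (v : ℝ) : mR ρ' v ≤ mR ρ v := Int.floor_mono (by linarith)

theorem mL_anti {ρ ρ' : ℝ} (h : ρ ≤ ρ') (v : ℝ) : mL ρ' v ≤ mL ρ v :=
  sub_le_sub_right (Int.ceil_mono (by linarith)) 1

theorem mR_six {ρ ρ' : ℝ} (h : ρ' ≤ ρ + 6) (v : ℝ) : mR ρ v ≤ mR ρ' v + 6 := by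
  have h1 := mR_anti h v
  have h2 : mR (ρ + 6) v = mR ρ v - 6 := by
    unfold mR
    rw [show v - (ρ + 6) + 3 / 2 = v - ρ + 3 / 2 - ((6 : ℤ) : ℝ) by push_cast; ring,
      Int.floor_sub_intCast]
  omega

theorem mL_six {ρ ρ' : ℝ} (h : ρ' ≤ ρ + 6) (v : ℝ) : mL ρ v ≤ mL ρ' v + 6 := by
  have h1 := mL_anti h v
  have h2 : mL (ρ + 6) v = mL ρ v - 6 := by
    unfold mL
    rw [show v - (ρ + 6) + 3 / 2 = v - ρ + 3 / 2 - ((6 : ℤ) : ℝ) by push_cast; ring,
      Int.ceil_sub_intCast]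
    ring
  omega

theorem wo_ML {ρ : Fin 5 → ℝ} (h : Ord5 ρ) (φ u : ℝ) : WO (ML ρ φ u) :=
  ⟨mL_anti h.1.le _, mL_anti h.2.1.le _, mL_anti h.2.2.1.le _, mL_anti h.2.2.2.1.le _,
    mL_six h.2.2.2.2.le _⟩

theorem wo_MR {ρ : Fin 5 → ℝ} (h : Ord5 ρ) (φ u : ℝ) : WO (MR ρ φ u) :=
  ⟨mR_anti h.1.le _, mR_anti h.2.1.le _, mR_anti h.2.2.1.le _, mR_anti h.2.2.2.1.le _,
    mR_six h.2.2.2.2.le _⟩

end Vale.Agent.P032.H326

namespace Vale.Agent.P032.Six

variable {k : ℕ} {T : ℂ → Set (Fin k)} {z : ℂ} {c : Fin 5 → Fin k} {r : Fin 5 → ℂ}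

/-- the reversed numbering of the colours -/
theorem P5.rev (P : P5 T z c) : P5 T z fun j => c (-j) where
  inj := fun i j hij => neg_injective (P.inj hij)
  rng := by
    rw [P.rng]
    ext x
    constructor
    · rintro ⟨i, rfl⟩
      exact ⟨-i, by show c (- -i) = c i; rw [neg_neg]⟩
    · rintro ⟨i, rfl⟩
      exact ⟨-i, rfl⟩
  ex := fun j => by
    obtain ⟨q, hq, hT⟩ := P.ex (-(j + 2))
    refine ⟨q, hq, ?_⟩
    have e : -(j + 2) + 2 = -j := (by decide : ∀ j : Fin 5, -(j + 2) + 2 = -j) j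
    rw [hT, e, Set.pair_comm]

theorem rev1_326 : ∀ j : Fin 5, -(j + 1) = -j - 1 := by decide

/-- the reversed numbering of the rays -/
theorem Win.rev (W : Win T z c r) : Win T z (fun j => c (-j)) fun j => r (-j - 1) where
  nrm := fun j => W.nrm _
  acc := fun j q s ε h => by
    refine W.acc (-j - 1) q s ε ?_
    filter_upwards [h] with w hw h1
    have e : -j - 1 + 1 = -j := (by decide : ∀ j : Fin 5, -j - 1 + 1 = -j) j
    rw [e] at h1
    refine hw ⟨h1.2, ?_⟩
    show c (-(j + 1)) ∈ T w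
    rw [rev1_326]; exact h1.1
  sep := fun j q hq hT => by
    have hT' : T q = {c (-j - 2), c (-j - 2 + 2)} := by
      rw [hT, Set.pair_comm]
      have e1 : -(j + 2) = -j - 2 := (by decide : ∀ j : Fin 5, -(j + 2) = -j - 2) j
      have e2 : -j - 2 + 2 = -j := (by decide : ∀ j : Fin 5, -j - 2 + 2 = -j) j
      rw [e2, ← e1]
    obtain ⟨s, hs, h1, h2, h3, h4⟩ := W.sep (-j - 2) q hq hT'
    refine ⟨-s, ?_, ?_, ?_, ?_, ?_⟩
    · rcases hs with rfl | rfl
      · right; rfl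
      · left; norm_num
    · -- `r (-(j+4) - 1) = r (-j)`
      have key : ∀ j : Fin 5, -(j + 4) - 1 = -j - 2 + 2 := by decide
      show 0 < -s * ip (r (-(j + 4) - 1)) (q - z)
      rw [key]; linarith
    · have key : ∀ j : Fin 5, -j - 1 = -j - 2 + 1 := by decide
      show 0 < -s * ip (r (-j - 1)) (q - z)
      rw [key]; linarith
    · have key : ∀ j : Fin 5, -(j + 1) - 1 = -j - 2 := by decide
      show -s * ip (r (-(j + 1) - 1)) (q - z) < 0
      rw [key]; linarith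
    · have key : ∀ j : Fin 5, -(j + 2) - 1 = -j - 2 + 4 := by decide
      show -s * ip (r (-(j + 2) - 1)) (q - z) < 0
      rw [key]; linarith

end Vale.Agent.P032.Six
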