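import Vale.Agent.P032.H326.Orient
import Vale.Agent.P032.H429.Cusp

/-!
# P032: exact triple arcs `{j, j+1, j+3}` at a 5-centre

`P5.trip_side` : for an exact arc with the palette `{c j, c (j+1), c (j+3)}` the colour `c (j+3)` is
near `z` strictly on one side of the direction of the arc.
`Win.trip` : the rays `j+2` and `j+3` are strictly on one side, the ray `j` on the other side.
`WT m P`, `RayC.wt_LC`, `RayC.wt_RC` : the rule for the states.
-/

open Set Filter Topology Metric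

noncomputable section

namespace Vale.Agent.P032.Six

variable {k : ℕ} {U : Fin k → Set ℂ} {T : ℂ → Set (Fin k)}

/-- two parts of the colours which meet -/
theorem Irr.conn_meet326 (h : Irr U T) {W : Set ℂ} {A B : Set (Fin k)} (hW : IsPreconnected W)
    (hcov : ∀ w ∈ W, (∃ i ∈ A, i ∈ T w) ∨ ∃ i ∈ B, i ∈ T w) (hA : ∃ w ∈ W, ∃ i ∈ A, i ∈ T w)
    (hB : ∃ w ∈ W, ∃ i ∈ B, i ∈ T w) : ∃ w ∈ W, (∃ i ∈ A, i ∈ T w) ∧ ∃ i ∈ B, i ∈ T w := by
  have hcl : ∀ C : Set (Fin k), IsClosed {x : ℂ | ∃ i ∈ C, i ∈ T x} := by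
    intro C
    have : {x : ℂ | ∃ i ∈ C, i ∈ T x} = ⋃ i ∈ C, {x | i ∈ T x} := by
      ext x; simp
    rw [this]
    exact (Set.toFinite C).isClosed_biUnion fun i _ => h.closed i
  obtain ⟨x, hx, hxA⟩ := hA
  obtain ⟨y, hy, hyB⟩ := hB
  obtain ⟨w, hw, hwA, hwB⟩ := isPreconnected_closed_iff.1 hW _ _ (hcl A) (hcl B)
    (fun w hw => hcov w hw) ⟨x, hx, hxA⟩ ⟨y, hy, hyB⟩
  exact ⟨w, hw, hwA, hwB⟩

theorem norm_cis_sub326 (x y : ℝ) : ‖cis x - cis y‖ ≤ |x - y| := by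
  have h1 : ‖cis x - cis y‖ ^ 2 = 2 - 2 * Real.cos (x - y) := by
    rw [Complex.sq_norm, Complex.normSq_apply, Complex.sub_re, Complex.sub_im, cis_re, cis_im,
      cis_re, cis_im, Real.cos_sub]
    have e1 := Real.sin_sq_add_cos_sq x
    have e2 := Real.sin_sq_add_cos_sq y
    nlinarith
  have h2 := Real.one_sub_sq_div_two_le_cos (x := x - y)
  have h3 : ‖cis x - cis y‖ ^ 2 ≤ |x - y| ^ 2 := by rw [h1, sq_abs]; linarith
  exact abs_le_of_sq_le_sq' h3 (abs_nonneg _) |>.2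

/-- `1 - cis τ` -/
theorem one_sub_cis326 (θ τ : ℝ) : cis θ - cis (θ + τ) =
    ((2 * Real.sin (τ / 2) : ℝ) : ℂ) * (-(Complex.I * cis θ) * cis (τ / 2)) := by
  have e1 : cis (θ + τ) = cis θ * (cis (τ / 2) * cis (τ / 2)) := by
    rw [show θ + τ = θ + (τ / 2 + τ / 2) by ring, cis_add429, cis_add429]
  have e2 : (1 : ℂ) - cis (τ / 2) * cis (τ / 2) =
      ((2 * Real.sin (τ / 2) : ℝ) : ℂ) * (-Complex.I * cis (τ / 2)) := by
    obtain ⟨C, hC⟩ : ∃ C : ℝ, C = Real.cos (τ / 2) := ⟨_, rfl⟩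
    obtain ⟨S, hS⟩ : ∃ S : ℝ, S = Real.sin (τ / 2) := ⟨_, rfl⟩
    have ec : cis (τ / 2) = ⟨C, S⟩ := Complex.ext (by rw [cis_re, hC]) (by rw [cis_im, hS])
    have sq : S ^ 2 + C ^ 2 = 1 := by rw [hC, hS]; exact Real.sin_sq_add_cos_sq _
    rw [← hS, ec]
    apply Complex.ext
    · simp
      nlinarith
    · simp
      ring
  rw [e1]
  linear_combination cis θ * e2

namespace P5

variable {z : ℂ} {c : Fin 5 → Fin k}

/-- points off `S(z)` near an exact triple arc -/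
theorem trip_off (P : P5 T z c) (h : Irr U T)
    (hmin : ∀ z, 4 ≤ (T z).ncard → ∀ s, s ⊆ T z → s ≠ T z →
      ¬ ∀ᶠ w in 𝓝 z, ∃ i ∈ s, w ∈ U i ∨ (w ∈ XX U ∧ i ∈ Pal U w)) (j : Fin 5) {θ : ℝ}
    (hg : Arc T z (z + cis θ) {c j, c (j + 1), c (j + 3)}) :
    ∀ᶠ x in 𝓝 (z + cis θ), dist x z ≠ 1 → c (j + 3) ∈ T x →
      c j ∉ T x ∧ c (j + 1) ∉ T x := by
  have hinj := P.inj
  -- the two perpendicular sectors are solid
  have hz4 : 4 ≤ (T z).ncard := by rw [P.card]; norm_num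
  have hsec : ∀ m, (m = Complex.I * (z + cis θ - z) ∨ m = -(Complex.I * (z + cis θ - z))) →
      tau T z m ⊆ {c (j + 2)} ∨ tau T z m ⊆ {c (j + 4)} := by
    intro m hm
    refine h.tau_conn hmin ?_ ?_ (by rw [Set.ncard_singleton]; norm_num) ?_
    · rw [Set.disjoint_singleton]
      exact fun h1 => ne24_326 j (hinj h1)
    · intro i hi
      have h1 := h.tau_sub z m hi
      rw [P.rng] at h1
      obtain ⟨i', rfl⟩ := h1
      have av : ∀ i'', c i'' ∈ ({c j, c (j + 1), c (j + 3)} : Set (Fin k)) → c i'' ∉ tau T z m :=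
        fun i'' h2 => h.tau_avoid (hg.car h h2) hm
      rcases five326 j i' with rfl | rfl | rfl | rfl | rfl
      · exact Or.inr rfl
      · exact absurd hi (av _ (by simp))
      · exact absurd hi (av _ (by simp))
      · exact Or.inl rfl
      · exact absurd hi (av _ (by simp))
    · rintro a ha b hb
      rw [mem_singleton_iff] at ha hb
      obtain ⟨q, hq, hT⟩ := P.ex (j + 2)
      rw [ha, hb]
      refine ⟨q, hq, ?_⟩
      rw [hT, f22_326]
  -- the names of the two ends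
  have hI : ‖Complex.I * (z + cis θ - z)‖ = 1 := by
    rw [norm_mul, Complex.norm_I, add_sub_cancel_left, one_mul]; exact norm_cis θ
  have hnb : ∀ i, tau T z (Complex.I * (z + cis θ - z)) ⊆ {c i} →
      tau T z (-(Complex.I * (z + cis θ - z))) ⊆ {c i} → False := by
    intro i h1 h2
    obtain ⟨q, hq, hT⟩ := P.ex i
    have ha : c i ∈ T z := P.mem i
    have hb : c (i + 2) ∈ T z := P.mem _
    exact h.tau_not_both_arc hI h1 h2 (h.arc_of_pair429 ha hb hq hT) (by simp)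
  obtain ⟨i1, i2, hi1, hi2, hc⟩ : ∃ i1 i2, tau T z (Complex.I * (z + cis θ - z)) ⊆ {c i1} ∧
      tau T z (-(Complex.I * (z + cis θ - z))) ⊆ {c i2} ∧
        ((i1 = j + 2 ∧ i2 = j + 4) ∨ (i1 = j + 4 ∧ i2 = j + 2)) := by
    rcases hsec _ (Or.inl rfl) with h1 | h1 <;> rcases hsec _ (Or.inr rfl) with h2 | h2
    · exact (hnb _ h1 h2).elim
    · exact ⟨_, _, h1, h2, Or.inl ⟨rfl, rfl⟩⟩
    · exact ⟨_, _, h1, h2, Or.inr ⟨rfl, rfl⟩⟩
    · exact (hnb _ h1 h2).elim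
  rw [add_sub_cancel_left] at hi1 hi2
  obtain ⟨δ1, hδ1, s1⟩ := nap_iff.1 (tau_le_iff.1 hi1)
  obtain ⟨δ2, hδ2, s2⟩ := nap_iff.1 (tau_le_iff.1 hi2)
  obtain ⟨ε, hε, hball⟩ := Metric.eventually_nhds_iff.1 (P.near h hmin)
  -- the size of the arcs
  set τ : ℝ := min (min (δ1 / 2) (δ2 / 2)) (min (ε / 2) 1) with hτ
  have hτ0 : 0 < τ := by positivity
  have hτ1 : τ ≤ δ1 / 2 := (min_le_left _ _).trans (min_le_left _ _)
  have hτ2 : τ ≤ δ2 / 2 := (min_le_left _ _).trans (min_le_right _ _)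
  have hτ3 : τ ≤ ε / 2 := (min_le_right _ _).trans (min_le_left _ _)
  have hτ4 : τ ≤ 1 := (min_le_right _ _).trans (min_le_right _ _)
  have hs0 : 0 < 2 * Real.sin (τ / 2) := by
    have := Real.sin_pos_of_pos_of_lt_pi (x := τ / 2) (by linarith)
      (by linarith [Real.pi_gt_three])
    linarith
  have hs1 : 2 * Real.sin (τ / 2) ≤ τ := by
    have := Real.sin_le (x := τ / 2) (by linarith)
    linarith
  have w2 : T (z + cis θ - cis (θ + τ)) ⊆ {c i2} := by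
    rw [show z + cis θ - cis (θ + τ) = z + (cis θ - cis (θ + τ)) by ring, one_sub_cis326]
    exact s2 (τ / 2) _ (by rw [abs_of_pos (by linarith)]; linarith) hs0 (by linarith)
  have w1 : T (z + cis θ - cis (θ + -τ)) ⊆ {c i1} := by
    rw [show z + cis θ - cis (θ + -τ) = z + (cis θ - cis (θ + -τ)) by ring, one_sub_cis326,
      show -τ / 2 = -(τ / 2) by ring, Real.sin_neg]
    have e : ((2 * -Real.sin (τ / 2) : ℝ) : ℂ) * (-(Complex.I * cis θ) * cis (-(τ / 2))) =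
        ((2 * Real.sin (τ / 2) : ℝ) : ℂ) * (Complex.I * cis θ * cis (-(τ / 2))) := by
      push_cast; ring
    rw [e]
    exact s1 (-(τ / 2)) _ (by rw [abs_neg, abs_of_pos (by linarith)]; linarith) hs0 (by linarith)
  -- the same for the points near `q`
  have n2 : ∀ᶠ x in 𝓝 (z + cis θ), T (x - cis (θ + τ)) ⊆ {c i2} := by
    have hc2 : Tendsto (fun x : ℂ => x - cis (θ + τ)) (𝓝 (z + cis θ))
        (𝓝 (z + cis θ - cis (θ + τ))) := (continuous_id.sub continuous_const).tendsto _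
    filter_upwards [hc2.eventually (h.nhd _)] with x hx
    exact hx.trans w2
  have n1 : ∀ᶠ x in 𝓝 (z + cis θ), T (x - cis (θ + -τ)) ⊆ {c i1} := by
    have hc2 : Tendsto (fun x : ℂ => x - cis (θ + -τ)) (𝓝 (z + cis θ))
        (𝓝 (z + cis θ - cis (θ + -τ))) := (continuous_id.sub continuous_const).tendsto _
    filter_upwards [hc2.eventually (h.nhd _)] with x hx
    exact hx.trans w1
  filter_upwards [n1, n2, ball_mem_nhds (z + cis θ) (show 0 < ε / 2 by positivity)]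
    with x h1 h2 h3 hxz hax
  rw [mem_ball] at h3
  -- the arc of `S(x)`
  set W : Set ℂ := (fun s : ℝ => x - cis (θ + s)) '' Icc (-τ) τ with hW
  have hWc : IsPreconnected W := by
    refine isPreconnected_Icc.image _ (Continuous.continuousOn ?_)
    have := continuous_cis
    fun_prop
  have hWz : ∀ w ∈ W, dist w x = 1 ∧ ∃ m, T w ⊆ {c m, c (m + 1)} := by
    rintro _ ⟨s, hs, rfl⟩
    have hd : dist (x - cis (θ + s)) x = 1 := by
      rw [dist_eq_norm, show x - cis (θ + s) - x = -cis (θ + s) by ring, norm_neg]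
      exact norm_cis _
    refine ⟨hd, ?_⟩
    have hne : x - cis (θ + s) ≠ z := by
      intro h4
      rw [h4] at hd
      exact hxz (by rw [dist_comm]; exact hd)
    refine hball (y := x - cis (θ + s)) ?_ hne
    rw [dist_eq_norm]
    have e : x - cis (θ + s) - z = (x - (z + cis θ)) + (cis θ - cis (θ + s)) := by ring
    rw [e]
    have h5 := norm_add_le (x - (z + cis θ)) (cis θ - cis (θ + s))
    have h6 := norm_cis_sub326 θ (θ + s)
    rw [show θ - (θ + s) = -s by ring, abs_neg] at h6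
    have h7 : |s| ≤ τ := abs_le.2 hs
    rw [← dist_eq_norm x] at h5
    linarith
  have hpure : ∀ w ∈ W, ∀ i ∈ T x, T w ≠ {i} := by
    intro w hw i hi h4
    exact h.mx.notMem' (h.mem_of_single (by rw [h4])) (hWz w hw).1 (h.sub x hi)
  have m1 : x - cis (θ + -τ) ∈ W := ⟨-τ, ⟨le_rfl, by linarith⟩, rfl⟩
  have m2 : x - cis (θ + τ) ∈ W := ⟨τ, ⟨by linarith, le_rfl⟩, rfl⟩
  have t1 : c i1 ∈ T (x - cis (θ + -τ)) := by
    obtain ⟨i, hi⟩ := h.ne (x - cis (θ + -τ))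
    have := h1 hi
    rw [mem_singleton_iff] at this
    rwa [this] at hi
  have t2 : c i2 ∈ T (x - cis (θ + τ)) := by
    obtain ⟨i, hi⟩ := h.ne (x - cis (θ + τ))
    have := h2 hi
    rw [mem_singleton_iff] at this
    rwa [this] at hi
  have e2 : ∃ w ∈ W, c (j + 2) ∈ T w := by
    rcases hc with ⟨hc1, hc2⟩ | ⟨hc1, hc2⟩
    · exact ⟨_, m1, hc1 ▸ t1⟩
    · exact ⟨_, m2, hc2 ▸ t2⟩
  have e4 : ∃ w ∈ W, c (j + 4) ∈ T w := by
    rcases hc with ⟨hc1, hc2⟩ | ⟨hc1, hc2⟩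
    · exact ⟨_, m2, hc2 ▸ t2⟩
    · exact ⟨_, m1, hc1 ▸ t1⟩
  -- a palette of two neighbouring colours, not `{a}`: it has the other one
  have other : ∀ w ∈ W, ∀ i i' : Fin 5, c i ∈ T x → T w ⊆ {c i, c i'} → c i' ∈ T w := by
    intro w hw i i' hi hsub
    by_contra hcon
    refine hpure w hw _ hi (Subset.antisymm (fun y hy => ?_) ?_)
    · rcases hsub hy with h4 | h4
      · exact h4
      · rw [mem_singleton_iff] at h4
        rw [h4] at hy
        exact absurd hy hcon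
    · rintro y hy
      rw [mem_singleton_iff] at hy
      obtain ⟨y', hy'⟩ := h.ne w
      rcases hsub hy' with h4 | h4
      · rw [hy, ← h4]; exact hy'
      · rw [mem_singleton_iff] at h4
        rw [h4] at hy'
        exact absurd hy' hcon
  have cases5 : ∀ w ∈ W, (T w ⊆ {c (j + 4), c j}) ∨ (T w ⊆ {c (j + 1), c (j + 2)}) ∨
      (T w ⊆ {c j, c (j + 1)}) ∨ (T w ⊆ {c (j + 2), c (j + 3)}) ∨
        (T w ⊆ {c (j + 3), c (j + 4)}) := by
    intro w hw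
    obtain ⟨m, hm⟩ := (hWz w hw).2
    rcases five326 j m with rfl | rfl | rfl | rfl | rfl
    · rw [f41_326] at hm; exact Or.inl hm
    · rw [f11_326] at hm; exact Or.inr (Or.inl hm)
    · exact Or.inr (Or.inr (Or.inl hm))
    · rw [f21_326] at hm; exact Or.inr (Or.inr (Or.inr (Or.inl hm)))
    · rw [f31_326] at hm; exact Or.inr (Or.inr (Or.inr (Or.inr hm)))
  have no2 : ∀ (w : ℂ) (i i' l l' : Fin 5), T w ⊆ {c i, c i'} → c l ∈ T w → l ≠ i → l ≠ i' →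
      False := by
    intro w i i' l l' hsub hl h4 h5
    rcases hsub hl with h6 | h6
    · exact h4 (hinj h6)
    · exact h5 (hinj h6)
  constructor
  · intro hb
    obtain ⟨w, hw, hA, hB⟩ := h.conn_meet326 (A := {c (j + 4)}) (B := {c (j + 1), c (j + 2)}) hWc
      (fun w hw => by
        rcases cases5 w hw with h4 | h4 | h4 | h4 | h4
        · exact Or.inl ⟨_, rfl, other w hw j (j + 4) hb (by rwa [Set.pair_comm])⟩
        · right
          obtain ⟨y, hy⟩ := h.ne w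
          exact ⟨y, h4 hy, hy⟩
        · exact Or.inr ⟨_, Or.inl rfl, other w hw j (j + 1) hb h4⟩
        · exact Or.inr ⟨_, Or.inr rfl, other w hw (j + 3) (j + 2) hax (by rwa [Set.pair_comm])⟩
        · exact Or.inl ⟨_, rfl, other w hw (j + 3) (j + 4) hax h4⟩)
      (by obtain ⟨w, hw, h4⟩ := e4; exact ⟨w, hw, _, rfl, h4⟩)
      (by obtain ⟨w, hw, h4⟩ := e2; exact ⟨w, hw, _, Or.inr rfl, h4⟩)
    obtain ⟨y, hy, hyw⟩ := hA
    rw [mem_singleton_iff] at hy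
    rw [hy] at hyw
    have hB' : c (j + 1) ∈ T w ∨ c (j + 2) ∈ T w := by
      obtain ⟨y', hy', hyw'⟩ := hB
      rcases hy' with h4 | h4
      · left; rw [← h4]; exact hyw'
      · right
        rw [mem_singleton_iff] at h4
        rw [← h4]; exact hyw'
    rcases cases5 w hw with h4 | h4 | h4 | h4 | h4
    · rcases hB' with h5 | h5
      · exact no2 w _ _ _ 0 h4 h5 (ne14_326 j) (ne1_326 j)
      · exact no2 w _ _ _ 0 h4 h5 (ne24_326 j) (ne2_326 j)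
    · exact no2 w _ _ _ 0 h4 hyw (ne14_326 j).symm (ne24_326 j).symm
    · exact no2 w _ _ _ 0 h4 hyw (ne4_326 j) (ne14_326 j).symm
    · exact no2 w _ _ _ 0 h4 hyw (ne24_326 j).symm (ne34_326 j).symm
    · rcases hB' with h5 | h5
      · exact no2 w _ _ _ 0 h4 h5 (ne13_326 j) (ne14_326 j)
      · exact no2 w _ _ _ 0 h4 h5 (ne23_326 j) (ne24_326 j)
  · intro hb
    obtain ⟨w, hw, hA, hB⟩ := h.conn_meet326 (A := {c j, c (j + 4)}) (B := {c (j + 2)}) hWc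
      (fun w hw => by
        rcases cases5 w hw with h4 | h4 | h4 | h4 | h4
        · left
          obtain ⟨y, hy⟩ := h.ne w
          exact ⟨y, by rw [Set.pair_comm]; exact h4 hy, hy⟩
        · exact Or.inr ⟨_, rfl, other w hw (j + 1) (j + 2) hb h4⟩
        · exact Or.inl ⟨_, Or.inl rfl, other w hw (j + 1) j hb (by rwa [Set.pair_comm])⟩
        · exact Or.inr ⟨_, rfl, other w hw (j + 3) (j + 2) hax (by rwa [Set.pair_comm])⟩
        · exact Or.inl ⟨_, Or.inr rfl, other w hw (j + 3) (j + 4) hax h4⟩)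
      (by obtain ⟨w, hw, h4⟩ := e4; exact ⟨w, hw, _, Or.inr rfl, h4⟩)
      (by obtain ⟨w, hw, h4⟩ := e2; exact ⟨w, hw, _, rfl, h4⟩)
    obtain ⟨y, hy, hyw⟩ := hB
    rw [mem_singleton_iff] at hy
    rw [hy] at hyw
    have hA' : c j ∈ T w ∨ c (j + 4) ∈ T w := by
      obtain ⟨y', hy', hyw'⟩ := hA
      rcases hy' with h4 | h4
      · left; rw [← h4]; exact hyw'
      · right
        rw [mem_singleton_iff] at h4
        rw [← h4]; exact hyw'
    rcases cases5 w hw with h4 | h4 | h4 | h4 | h4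
    · exact no2 w _ _ _ 0 h4 hyw (ne24_326 j) (ne2_326 j)
    · rcases hA' with h5 | h5
      · exact no2 w _ _ _ 0 h4 h5 (ne1_326 j).symm (ne2_326 j).symm
      · exact no2 w _ _ _ 0 h4 h5 (ne14_326 j).symm (ne24_326 j).symm
    · exact no2 w _ _ _ 0 h4 hyw (ne2_326 j) (ne12_326 j).symm
    · rcases hA' with h5 | h5
      · exact no2 w _ _ _ 0 h4 h5 (ne2_326 j).symm (ne3_326 j).symm
      · exact no2 w _ _ _ 0 h4 h5 (ne24_326 j).symm (ne34_326 j).symm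
    · exact no2 w _ _ _ 0 h4 hyw (ne23_326 j) (ne24_326 j)

/-- **the two sides of an exact triple arc**: one side is solid `j + 3`, the other one has only
the colours `j`, `j + 1` -/
theorem trip_sides (P : P5 T z c) (h : Irr U T)
    (hmin : ∀ z, 4 ≤ (T z).ncard → ∀ s, s ⊆ T z → s ≠ T z →
      ¬ ∀ᶠ w in 𝓝 z, ∃ i ∈ s, w ∈ U i ∨ (w ∈ XX U ∧ i ∈ Pal U w)) (j : Fin 5) {θ : ℝ}
    (hg : Arc T z (z + cis θ) {c j, c (j + 1), c (j + 3)}) :
    (InnC T z θ (c (j + 3)) ∧ ∃ δ > 0, δ ≤ 1 ∧ ∀ ρ t : ℝ, 1 < ρ → ρ < 1 + δ → |t - θ| < δ →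
      T (z + ρ * cis t) ⊆ {c j, c (j + 1)}) ∨
    (OutC T z θ (c (j + 3)) ∧ ∃ δ > 0, δ ≤ 1 ∧ ∀ ρ t : ℝ, 1 - δ < ρ → ρ < 1 → |t - θ| < δ →
      T (z + ρ * cis t) ⊆ {c j, c (j + 1)}) := by
  have hinj := P.inj
  have hq := hg.mem
  have hn := h.nhd (z + cis θ)
  rw [hq] at hn
  obtain ⟨δ, hδ, hδ1, hd⟩ := polar_of_nhds429 (hn.and (P.trip_off h hmin j hg))
  have hdj : Disjoint ({c (j + 3)} : Set (Fin k)) {c j, c (j + 1)} := by
    rw [Set.disjoint_singleton_left]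
    rintro (h1 | h1)
    · exact ne3_326 j (hinj h1)
    · rw [mem_singleton_iff] at h1
      exact ne13_326 j (hinj h1).symm
  -- the two sides
  have side : ∀ I : Set ℝ, IsPreconnected I → (∀ ρ ∈ I, |ρ - 1| < δ ∧ ρ ≠ 1) →
      (∀ ρ ∈ I, ∀ t : ℝ, |t - θ| < δ → T (z + ρ * cis t) ⊆ {c (j + 3)}) ∨
        ∀ ρ ∈ I, ∀ t : ℝ, |t - θ| < δ → T (z + ρ * cis t) ⊆ {c j, c (j + 1)} := by
    intro I hI hI1
    set W : Set ℂ := (fun p : ℝ × ℝ => z + (p.1 : ℂ) * cis p.2) '' (I ×ˢ Ioo (θ - δ) (θ + δ))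
      with hW
    have hWc : IsPreconnected W := by
      refine (hI.prod isPreconnected_Ioo).image _ (Continuous.continuousOn ?_)
      exact continuous_const.add ((Complex.continuous_ofReal.comp continuous_fst).mul
        (continuous_cis.comp continuous_snd))
    have hmem : ∀ ρ ∈ I, ∀ t : ℝ, |t - θ| < δ → z + ρ * cis t ∈ W := fun ρ hρ t ht =>
      ⟨(ρ, t), ⟨hρ, by linarith [(abs_lt.1 ht).1], by linarith [(abs_lt.1 ht).2]⟩, rfl⟩
    have hsp : ∀ w ∈ W, T w ⊆ {c (j + 3)} ∨ T w ⊆ {c j, c (j + 1)} := by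
      rintro _ ⟨⟨ρ, t⟩, ⟨hρ, ht⟩, rfl⟩
      have ht' : |t - θ| < δ := abs_lt.2 ⟨by linarith [ht.1], by linarith [ht.2]⟩
      obtain ⟨h1, h2⟩ := hd ρ t (hI1 ρ hρ).1 ht'
      have hρ0 : 0 < ρ := by linarith [(abs_lt.1 (hI1 ρ hρ).1).1]
      have h3 : dist (z + (ρ : ℂ) * cis t) z ≠ 1 := by
        rw [dist_polar201 z hρ0]; exact (hI1 ρ hρ).2
      by_cases h4 : c (j + 3) ∈ T (z + (ρ : ℂ) * cis t)
      · left
        obtain ⟨h5, h6⟩ := h2 h3 h4
        intro y hy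
        have hy : y ∈ T (z + (ρ : ℂ) * cis t) := hy
        rcases h1 hy with h7 | h7 | h7
        · rw [h7] at hy; exact absurd hy h5
        · rw [h7] at hy; exact absurd hy h6
        · exact h7
      · right
        intro y hy
        have hy : y ∈ T (z + (ρ : ℂ) * cis t) := hy
        rcases h1 hy with h7 | h7 | h7
        · exact Or.inl h7
        · exact Or.inr h7
        · rw [mem_singleton_iff] at h7
          rw [h7] at hy; exact absurd hy h4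
    rcases h.conn_split429 hWc hdj hsp with h1 | h1
    · exact Or.inl fun ρ hρ t ht => h1 _ (hmem ρ hρ t ht)
    · exact Or.inr fun ρ hρ t ht => h1 _ (hmem ρ hρ t ht)
  have single : ∀ w : ℂ, T w ⊆ {c (j + 3)} → T w = {c (j + 3)} := by
    intro w hw
    refine Subset.antisymm hw ?_
    obtain ⟨y, hy⟩ := h.ne w
    have := hw hy
    rw [mem_singleton_iff] at this
    rintro y' hy'
    rw [mem_singleton_iff] at hy'
    rw [hy', ← this]; exact hy
  -- pure points near `q`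
  have hsph : ∀ᶠ x in 𝓝 (z + cis θ), x ∈ sphere z 1 → T x = {c j, c (j + 1), c (j + 3)} :=
    eventually_nhdsWithin_iff.1 hg.2
  have pure_pt : ∀ i, c i ∈ ({c j, c (j + 1), c (j + 3)} : Set (Fin k)) → (∃ i', i' ≠ i ∧
      c i' ∈ ({c j, c (j + 1), c (j + 3)} : Set (Fin k))) → ∃ ρ t : ℝ, |ρ - 1| < δ ∧ |t - θ| < δ ∧
        ρ ≠ 1 ∧ T (z + (ρ : ℂ) * cis t) = {c i} := by
    intro i hi hi'
    obtain ⟨x, hx, ⟨ρ, t, hρ, ht, rfl⟩, hxs⟩ := ((h.pure (z + cis θ) (c i)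
      (by rw [hq]; exact hi)).and_eventually ((polar_near (z := z) (θ := θ) hδ).and hsph)).exists
    have hρ0 : 0 < ρ := by linarith [(abs_lt.1 hρ).1]
    have hdρ : dist (z + (ρ : ℂ) * cis t) z = ρ := dist_polar201 z hρ0 t
    refine ⟨ρ, t, hρ, ht, fun h1 => ?_, hx⟩
    have h2 := hxs (by rw [mem_sphere, hdρ, h1])
    rw [hx] at h2
    obtain ⟨i', h3, h4⟩ := hi'
    rw [← h2] at h4
    exact h3 (hinj h4)
  obtain ⟨ρ, t, hρ, ht, hne, hx⟩ := pure_pt (j + 3) (by simp) ⟨j, (ne3_326 j).symm, by simp⟩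
  obtain ⟨ρ1, t1, hρ1, ht1, hne1, hx1⟩ := pure_pt j (by simp) ⟨j + 3, ne3_326 j, by simp⟩
  have hno : ¬ T (z + (ρ : ℂ) * cis t) ⊆ {c j, c (j + 1)} := by
    rw [hx]
    intro h1
    exact Set.disjoint_left.1 hdj (mem_singleton _) (h1 (mem_singleton _))
  have hno1 : ¬ T (z + (ρ1 : ℂ) * cis t1) ⊆ {c (j + 3)} := by
    rw [hx1]
    intro h1
    have h2 := h1 (mem_singleton _)
    rw [mem_singleton_iff] at h2
    exact ne3_326 j (hinj h2).symm
  have iI : ∀ ρ'' ∈ Ioo (1 - δ) (1 : ℝ), |ρ'' - 1| < δ ∧ ρ'' ≠ 1 := fun ρ'' hρ'' =>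
    ⟨abs_lt.2 ⟨by linarith [hρ''.1], by linarith [hρ''.2]⟩, hρ''.2.ne⟩
  have iO : ∀ ρ'' ∈ Ioo (1 : ℝ) (1 + δ), |ρ'' - 1| < δ ∧ ρ'' ≠ 1 := fun ρ'' hρ'' =>
    ⟨abs_lt.2 ⟨by linarith [hρ''.1], by linarith [hρ''.2]⟩, hρ''.1.ne'⟩
  have sI := side (Ioo (1 - δ) 1) isPreconnected_Ioo iI
  have sO := side (Ioo 1 (1 + δ)) isPreconnected_Ioo iO
  rcases lt_or_gt_of_ne hne with h1 | h1
  · -- inside solid
    have hI := sI.resolve_right fun h5 => hno (h5 ρ ⟨by linarith [(abs_lt.1 hρ).1], h1⟩ t ht)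
    left
    refine ⟨⟨δ, hδ, hδ1, fun ρ' t' h2 h3 h4 => single _ (hI ρ' ⟨h2, h3⟩ t' h4)⟩,
      δ, hδ, hδ1, fun ρ' t' h2 h3 h4 => ?_⟩
    rcases lt_or_gt_of_ne hne1 with h6 | h6
    · exact absurd (hI ρ1 ⟨by linarith [(abs_lt.1 hρ1).1], h6⟩ t1 ht1) hno1
    · exact (sO.resolve_left fun h5 => hno1 (h5 ρ1 ⟨h6, by linarith [(abs_lt.1 hρ1).2]⟩ t1 ht1))
        ρ' ⟨h2, h3⟩ t' h4
  · have hO := sO.resolve_right fun h5 => hno (h5 ρ ⟨h1, by linarith [(abs_lt.1 hρ).2]⟩ t ht)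
    right
    refine ⟨⟨δ, hδ, hδ1, fun ρ' t' h2 h3 h4 => single _ (hO ρ' ⟨h2, h3⟩ t' h4)⟩,
      δ, hδ, hδ1, fun ρ' t' h2 h3 h4 => ?_⟩
    rcases lt_or_gt_of_ne hne1 with h6 | h6
    · exact (sI.resolve_left fun h5 => hno1 (h5 ρ1 ⟨by linarith [(abs_lt.1 hρ1).1], h6⟩ t1 ht1))
        ρ' ⟨h2, h3⟩ t' h4
    · exact absurd (hO ρ1 ⟨h6, by linarith [(abs_lt.1 hρ1).2]⟩ t1 ht1) hno1

/-- **the colour `j + 3` of an exact triple arc is strictly on one side** -/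
theorem trip_side (P : P5 T z c) (h : Irr U T)
    (hmin : ∀ z, 4 ≤ (T z).ncard → ∀ s, s ⊆ T z → s ≠ T z →
      ¬ ∀ᶠ w in 𝓝 z, ∃ i ∈ s, w ∈ U i ∨ (w ∈ XX U ∧ i ∈ Pal U w)) (j : Fin 5) {θ : ℝ}
    (hg : Arc T z (z + cis θ) {c j, c (j + 1), c (j + 3)}) :
    Side429 U z (cis θ) (c (j + 3)) ∨ Side429 U z (-cis θ) (c (j + 3)) :=
  (P.trip_sides h hmin j hg).imp (fun h1 => h.innC_side h1.1) fun h1 => h.outC_side h1.1

/-- no contact of `j`, `j + 1` at `w` if a point of `S(w)` has only these colours -/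
theorem no_contact (P : P5 T z c) (h : Irr U T) (j : Fin 5) {w : ℂ} {t : ℝ}
    (hw : ∃ m, T w ⊆ {c m, c (m + 1)}) (hp : T (w + cis t) ⊆ {c j, c (j + 1)})
    (h1 : c j ∈ T w) (h2 : c (j + 1) ∈ T w) : False := by
  have hinj := P.inj
  have hsub : T w ⊆ {c j, c (j + 1)} := by
    obtain ⟨m, hm⟩ := hw
    have h3 := hm h1
    have h4 := hm h2
    simp only [mem_insert_iff, mem_singleton_iff] at h3 h4
    rcases h3 with h3 | h3
    · rw [hinj h3]; exact hm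
    · have e3 := hinj h3
      rcases h4 with h4 | h4
      · -- `j = m + 1`, `j + 1 = m`
        have e4 := hinj h4
        rw [← e4] at e3
        exact absurd e3.symm ((by decide : ∀ j : Fin 5, j + 1 + 1 ≠ j) j)
      · have e4 := hinj h4
        rw [← e4] at e3
        exact absurd e3.symm (ne1_326 j)
  have hq : dist (w + cis t) w = 1 := dist_add_cis w t
  obtain ⟨ε, hε, hε0⟩ := ((h.cross hq hp).and eventually_mem_nhdsWithin).exists
  have hε0 : 0 < ε := hε0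
  have hn := h.nhd w
  obtain ⟨η, hη, hball⟩ := Metric.eventually_nhds_iff.1 hn
  obtain ⟨x, hx0, hx⟩ : ∃ x : ℝ, 0 < x ∧ x < min ε η :=
    ⟨min ε η / 2, by positivity, by have : 0 < min ε η := by positivity
                                    linarith⟩
  have hxε : x < ε := lt_of_lt_of_le hx (min_le_left _ _)
  have hxη : x < η := lt_of_lt_of_le hx (min_le_right _ _)
  set w1 : ℂ := w + (x : ℂ) * (Complex.I * cis t) with hw1
  have hd : dist w1 w = x := by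
    rw [hw1, dist_eq_norm, add_sub_cancel_left, norm_mul, norm_mul, Complex.norm_I, norm_cis,
      Complex.norm_real, Real.norm_eq_abs, abs_of_pos hx0]
    ring
  have hne : w1 ≠ w := dist_pos.1 (by rw [hd]; exact hx0)
  have hT1 := (hball (y := w1) (by rw [hd]; exact hxη)).trans hsub
  have hip : ip (w1 - w) (w + cis t - w) = 0 := by
    rw [hw1]
    unfold ip
    simp
    ring
  have hip' : ip (w - w1) (w + cis t - w) = 0 := by
    have : ip (w - w1) (w + cis t - w) = -ip (w1 - w) (w + cis t - w) := by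
      unfold ip; simp; ring
    rw [this, hip, neg_zero]
  have hww : dist w w < ε := by rw [dist_self]; exact hε0
  have hpos : 0 < ε * x := mul_pos hε0 hx0
  obtain ⟨i, hi⟩ := h.ne w1
  rcases hT1 hi with h3 | h3
  · rw [h3] at hi
    have h4 := hε w1 w (by rw [hd]; exact hxε) hww hi h2 hne
    rw [hip', abs_zero, hd] at h4
    linarith
  · rw [mem_singleton_iff] at h3
    rw [h3] at hi
    have h4 := hε w w1 hww (by rw [hd]; exact hxε) h1 hi hne.symm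
    rw [hip, abs_zero, dist_comm, hd] at h4
    linarith

/-- contacts of `j`, `j + 1` are in front if the inside near `z + cis θ` has only these colours -/
theorem contact_inn (P : P5 T z c) (h : Irr U T)
    (hmin : ∀ z, 4 ≤ (T z).ncard → ∀ s, s ⊆ T z → s ≠ T z →
      ¬ ∀ᶠ w in 𝓝 z, ∃ i ∈ s, w ∈ U i ∨ (w ∈ XX U ∧ i ∈ Pal U w)) (j : Fin 5) {θ : ℝ}
    (hD : ∃ δ > 0, δ ≤ 1 ∧ ∀ ρ t : ℝ, 1 - δ < ρ → ρ < 1 → |t - θ| < δ →
      T (z + ρ * cis t) ⊆ {c j, c (j + 1)}) :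
    ∃ ε > 0, ∀ᶠ w in 𝓝 z, c j ∈ T w ∧ c (j + 1) ∈ T w → ε * ‖w - z‖ ≤ 1 * ip (w - z) (cis θ) := by
  obtain ⟨δ, hδ, hδ1, hin⟩ := hD
  set η := δ / 2 with hη
  have hη0 : 0 < η := by positivity
  have hη1 : η ≤ 1 / 2 := by rw [hη]; linarith
  have hat : ∀ t : ℝ, |t - θ| ≤ η → ∀ᶠ w in 𝓝 z,
      c j ∈ T w ∧ c (j + 1) ∈ T w → -(‖w - z‖ ^ 2 / 2) ≤ 1 * ip (w - z) (cis t) := by
    intro t ht
    filter_upwards [exists_move429 z hη0 t, P.near h hmin] with w hw hnear ha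
    obtain ⟨ρ, s, hρ, hs, he⟩ := hw
    have hρ' := abs_lt.1 hρ
    have hsθ : |s - θ| < δ := by
      have := abs_sub_le s t θ
      linarith
    have hρ0 : 0 < ρ := by linarith
    have hd := dist_sq_cis201 z w t
    rw [he, dist_polar201 z hρ0] at hd
    by_contra hcon
    push Not at hcon
    have hρ1 : ρ < 1 := by
      by_contra h2
      push Not at h2
      nlinarith
    have h3 := hin ρ s (by linarith) hρ1 hsθ
    rw [← he] at h3
    have hwz : w ≠ z := by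
      rintro rfl
      rw [sub_self, norm_zero] at hcon
      unfold ip at hcon
      simp at hcon
    exact P.no_contact h j (hnear hwz) h3 ha.1 ha.2
  exact cone429 hη0 hη1 (hat (θ + η) (by rw [add_sub_cancel_left, abs_of_pos hη0]))
    (hat (θ + -η) (by rw [add_sub_cancel_left, abs_neg, abs_of_pos hη0])) (Or.inl rfl)

/-- contacts of `j`, `j + 1` are behind if the outside near `z + cis θ` has only these colours -/
theorem contact_out (P : P5 T z c) (h : Irr U T)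
    (hmin : ∀ z, 4 ≤ (T z).ncard → ∀ s, s ⊆ T z → s ≠ T z →
      ¬ ∀ᶠ w in 𝓝 z, ∃ i ∈ s, w ∈ U i ∨ (w ∈ XX U ∧ i ∈ Pal U w)) (j : Fin 5) {θ : ℝ}
    (hD : ∃ δ > 0, δ ≤ 1 ∧ ∀ ρ t : ℝ, 1 < ρ → ρ < 1 + δ → |t - θ| < δ →
      T (z + ρ * cis t) ⊆ {c j, c (j + 1)}) :
    ∃ ε > 0, ∀ᶠ w in 𝓝 z, c j ∈ T w ∧ c (j + 1) ∈ T w →
      ε * ‖w - z‖ ≤ -1 * ip (w - z) (cis θ) := by
  obtain ⟨δ, hδ, hδ1, hout⟩ := hD
  set η := δ / 2 with hη
  have hη0 : 0 < η := by positivity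
  have hη1 : η ≤ 1 / 2 := by rw [hη]; linarith
  have hat : ∀ t : ℝ, |t - θ| ≤ η → ∀ᶠ w in 𝓝 z,
      c j ∈ T w ∧ c (j + 1) ∈ T w → -(‖w - z‖ ^ 2 / 2) ≤ -1 * ip (w - z) (cis t) := by
    intro t ht
    filter_upwards [exists_move429 z hη0 t, P.near h hmin] with w hw hnear ha
    obtain ⟨ρ, s, hρ, hs, he⟩ := hw
    have hρ' := abs_lt.1 hρ
    have hsθ : |s - θ| < δ := by
      have := abs_sub_le s t θ
      linarith
    have hρ0 : 0 < ρ := by linarith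
    have hd := dist_sq_cis201 z w t
    rw [he, dist_polar201 z hρ0] at hd
    by_contra hcon
    push Not at hcon
    have hρ1 : 1 < ρ := by
      by_contra h2
      push Not at h2
      nlinarith [sq_nonneg ‖w - z‖]
    have h3 := hout ρ s hρ1 (by linarith) hsθ
    rw [← he] at h3
    have hwz : w ≠ z := by
      rintro rfl
      rw [sub_self, norm_zero] at hcon
      unfold ip at hcon
      simp at hcon
    exact P.no_contact h j (hnear hwz) h3 ha.1 ha.2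
  exact cone429 hη0 hη1 (hat (θ + η) (by rw [add_sub_cancel_left, abs_of_pos hη0]))
    (hat (θ + -η) (by rw [add_sub_cancel_left, abs_neg, abs_of_pos hη0])) (Or.inr rfl)

end P5

/-- **the rays `j + 2`, `j + 3` are strictly on one side of an exact triple arc, the ray `j` is
strictly on the other side** -/
theorem Win.trip {z : ℂ} {c : Fin 5 → Fin k} {r : Fin 5 → ℂ} (W : Win T z c r) (P : P5 T z c)
    (h : Irr U T)
    (hmin : ∀ z, 4 ≤ (T z).ncard → ∀ s, s ⊆ T z → s ≠ T z →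
      ¬ ∀ᶠ w in 𝓝 z, ∃ i ∈ s, w ∈ U i ∨ (w ∈ XX U ∧ i ∈ Pal U w)) (j : Fin 5) {q : ℂ}
    (hg : Arc T z q {c j, c (j + 1), c (j + 3)}) : ∃ s : ℝ, (s = 1 ∨ s = -1) ∧
      s * ip (r j) (q - z) < 0 ∧ 0 < s * ip (r (j + 2)) (q - z) ∧
        0 < s * ip (r (j + 3)) (q - z) := by
  obtain ⟨θ, hθ⟩ := exists_cis (u := q - z) (by rw [← dist_eq_norm]; exact hg.1)
  have e : q = z + cis θ := by rw [← hθ]; ring
  rw [e] at hg
  rw [hθ]
  have key : ∀ s : ℝ, (∃ ε > 0, ∀ᶠ w in 𝓝 z, c (j + 3) ∈ Pal U w →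
      ε * ‖w - z‖ ≤ s * ip (w - z) (cis θ)) →
      (∃ ε > 0, ∀ᶠ w in 𝓝 z, c j ∈ T w ∧ c (j + 1) ∈ T w →
        ε * ‖w - z‖ ≤ -s * ip (w - z) (cis θ)) →
      s * ip (r j) (cis θ) < 0 ∧ 0 < s * ip (r (j + 2)) (cis θ) ∧
        0 < s * ip (r (j + 3)) (cis θ) := by
    rintro s ⟨ε, hε, hw⟩ ⟨ε', hε', hw'⟩
    refine ⟨?_, ?_, ?_⟩
    · have h1 := W.acc j (cis θ) (-s) ε' (by
        filter_upwards [hw'] with w h1 h2
        rw [dist_eq_norm]; exact h1 h2)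
      linarith
    · refine lt_of_lt_of_le hε (W.acc (j + 2) (cis θ) s ε ?_)
      filter_upwards [hw] with w h1 h2
      rw [dist_eq_norm]
      refine h1 (h.sub w ?_)
      have := h2.2
      rwa [f21_326] at this
    · refine lt_of_lt_of_le hε (W.acc (j + 3) (cis θ) s ε ?_)
      filter_upwards [hw] with w h1 h2
      rw [dist_eq_norm]
      exact h1 (h.sub w h2.1)
  rcases P.trip_sides h hmin j hg with ⟨h1, h2⟩ | ⟨h1, h2⟩
  · obtain ⟨ε, hε, hw⟩ := h.innC_side h1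
    obtain ⟨ε', hε', hw'⟩ := P.contact_out h hmin j h2
    refine ⟨1, Or.inl rfl, key 1 ⟨ε, hε, ?_⟩ ⟨ε', hε', hw'⟩⟩
    filter_upwards [hw] with w h3 h4
    rw [one_mul]; exact h3 h4
  · obtain ⟨ε, hε, hw⟩ := h.outC_side h1
    obtain ⟨ε', hε', hw'⟩ := P.contact_inn h hmin j h2
    refine ⟨-1, Or.inr rfl, key (-1) ⟨ε, hε, ?_⟩ ⟨ε', hε', ?_⟩⟩
    · filter_upwards [hw] with w h3 h4
      have := h3 h4
      rw [ip_neg_right326] at this
      linarith
    · filter_upwards [hw'] with w h3 h4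
      have := h3 h4
      linarith

end Vale.Agent.P032.Six

namespace Vale.Agent.P032.H326

open Vale.Agent.P032.Six Vale.Agent.P032.Sweep Vale.Agent.P032.S5.H767 Vale.Agent.P032.S5.H122
  Vale.Agent.P032.H187 Vale.Agent.P032.H93

variable {U : Fin 6 → Set ℂ} {T : ℂ → Set (Fin 6)} {N : Fin 6 → Fin 6}

/-- the rule for an exact triple palette with the names `P` -/
def WT (m : Fin 5 → ℤ) (P : Finset (Fin 6)) : Prop :=
  ∀ i : Fin 5, P = {i.castSucc, (i + 1).castSucc, (i + 3).castSucc} →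
    sg (m (i + 2)) = !sg (m i) ∧ sg (m (i + 3)) = !sg (m i)

instance (m : Fin 5 → ℤ) (P : Finset (Fin 6)) : Decidable (WT m P) := by unfold WT; infer_instance

section frame

variable {κ Λ : Type} {zz : κ → ℂ} {K : κ → Λ → Finset (Fin 6)}
  {lt : κ → Set (Fin 6) → Λ} {φ u : ℝ} {k0 : κ} {ρ : Fin 5 → ℝ}

/-- the triple rules of a column -/
def WTc (K : κ → Λ → Finset (Fin 6)) (k0 : κ) (M : Fin 5 → ℤ) (g : κ × Fin 6 → Λ) : Prop :=
  ∀ j : Fin 6, WT (fun i => M i + (j.val : ℤ)) (K k0 (g (k0, j)))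

instance (K : κ → Λ → Finset (Fin 6)) (k0 : κ) (M : Fin 5 → ℤ) (g : κ × Fin 6 → Λ) :
    Decidable (WTc K k0 M g) := by unfold WTc; infer_instance

namespace RayC

/-- the triple rule at a slot -/
theorem wt_slot (F : RayC T zz N K lt k0 ρ) (h : Irr U T)
    (hmin : ∀ z, 4 ≤ (T z).ncard → ∀ s, s ⊆ T z → s ≠ T z →
      ¬ ∀ᶠ w in 𝓝 z, ∃ i ∈ s, w ∈ U i ∨ (w ∈ XX U ∧ i ∈ Pal U w)) {M : Fin 5 → ℤ}
    (hM : ∀ᶠ v in 𝓝 u, MR ρ φ v = M) {j : Fin 6} {l : Λ} (hl : u ∈ Xl T zz φ lt (k0, j) l) :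
    WT (fun i => M i + (j.val : ℤ)) (K k0 l) := by
  intro i hP
  have hcl : φ + u + (j.val : ℝ) ∈ closure (Oc T (zz k0) (lt k0) l) := hl
  have hfr := mem_closure_iff_frequently.1 hcl
  have hM' : ∀ᶠ w' in 𝓝 (φ + u + (j.val : ℝ)), ∀ i, mR (ρ i) w' = M i + (j.val : ℤ) := by
    have ht : Tendsto (fun w' : ℝ => w' - φ - (j.val : ℝ)) (𝓝 (φ + u + (j.val : ℝ))) (𝓝 u) := by
      have hc : Continuous fun w' : ℝ => w' - φ - (j.val : ℝ) := by fun_prop
      have h1 := hc.tendsto (φ + u + (j.val : ℝ))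
      rwa [show φ + u + (j.val : ℝ) - φ - (j.val : ℝ) = u by ring] at h1
    filter_upwards [ht.eventually hM] with w' hw' i
    have h1 : mR (ρ i) (φ + (w' - φ - (j.val : ℝ))) = M i := congrFun hw' i
    rw [← h1, ← mR_add]
    congr 1; ring
  obtain ⟨w', hw', h2⟩ := (hfr.and_eventually hM').exists
  have h1 := F.ex w' hw'.1
  have h3 : lt k0 (T (pt (zz k0) w')) = l := hw'.2
  rw [h3] at h1
  have h4 : T (pt (zz k0) w') = {N i.castSucc, N (i + 1).castSucc, N (i + 3).castSucc} := by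
    rw [h1 ?_, hP]
    · simp [Set.image_insert_eq]
    · rw [hP]
      rintro _ ⟨x, hx, rfl⟩
      have hx : x = i.castSucc ∨ x = (i + 1).castSucc ∨ x = (i + 3).castSucc := by
        simpa using hx
      rcases hx with rfl | rfl | rfl <;> exact F.p5.mem _
  have harc : Arc T (zz k0) (pt (zz k0) w')
      {N i.castSucc, N (i + 1).castSucc, N (i + 3).castSucc} := by
    refine ⟨dist_pt _ _, ?_⟩
    rw [← h4]
    exact Lc_circle hw'.1
  obtain ⟨s, hs, q0, k1, k2⟩ := F.win.trip F.p5 h hmin i harc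
  have hne : ∀ {x : ℝ}, (0 < s * x ∨ s * x < 0) → x ≠ 0 := by
    rintro x hx rfl
    simp at hx
  show sg (M (i + 2) + (j.val : ℤ)) = !sg (M i + (j.val : ℤ)) ∧
    sg (M (i + 3) + (j.val : ℤ)) = !sg (M i + (j.val : ℤ))
  rw [← h2 i, ← h2 (i + 2), ← h2 (i + 3), sg_mR (hne (Or.inr q0)), sg_mR (hne (Or.inl k1)),
    sg_mR (hne (Or.inl k2))]
  rcases hs with rfl | rfl
  · rw [one_mul] at q0 k1 k2
    rw [decide_eq_true k1, decide_eq_true k2, decide_eq_false (not_lt.2 q0.le)]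
    exact ⟨rfl, rfl⟩
  · have q0' : 0 < ip (cis (ρ i * (Real.pi / 3))) (pt (zz k0) w' - zz k0) := by linarith
    have k1' : ip (cis (ρ (i + 2) * (Real.pi / 3))) (pt (zz k0) w' - zz k0) < 0 := by linarith
    have k2' : ip (cis (ρ (i + 3) * (Real.pi / 3))) (pt (zz k0) w' - zz k0) < 0 := by linarith
    rw [decide_eq_false (not_lt.2 k1'.le), decide_eq_false (not_lt.2 k2'.le), decide_eq_true q0']
    exact ⟨rfl, rfl⟩

theorem wt_LC (F : RayC T zz N K lt k0 ρ) (h : Irr U T)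
    (hmin : ∀ z, 4 ≤ (T z).ncard → ∀ s, s ⊆ T z → s ≠ T z →
      ¬ ∀ᶠ w in 𝓝 z, ∃ i ∈ s, w ∈ U i ∨ (w ∈ XX U ∧ i ∈ Pal U w)) {g : κ × Fin 6 → Λ}
    (hg : g ∈ LC (Xl T zz φ lt) u) : WTc K k0 (ML ρ φ u) g := by
  obtain ⟨c, hc, hsub⟩ := (mem_nhdsLT_iff_exists_Ioo_subset).1 (M_left ρ φ u)
  obtain ⟨v, hv, hvI⟩ := (Frequently.and_eventually hg (Ioo_mem_nhdsLT hc)).exists
  have h1 : ∀ᶠ v' in 𝓝 v, MR ρ φ v' = ML ρ φ u := by
    filter_upwards [Ioo_mem_nhds hvI.1 hvI.2] with v' hv'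
    exact (hsub hv').2
  exact fun j => F.wt_slot h hmin h1 (hv.2 (k0, j))

theorem wt_RC (F : RayC T zz N K lt k0 ρ) (h : Irr U T)
    (hmin : ∀ z, 4 ≤ (T z).ncard → ∀ s, s ⊆ T z → s ≠ T z →
      ¬ ∀ᶠ w in 𝓝 z, ∃ i ∈ s, w ∈ U i ∨ (w ∈ XX U ∧ i ∈ Pal U w)) {g : κ × Fin 6 → Λ}
    (hg : g ∈ RC (Xl T zz φ lt) u) : WTc K k0 (MR ρ φ u) g := by
  obtain ⟨c, hc, hsub⟩ := (mem_nhdsGT_iff_exists_Ioo_subset).1 (M_right ρ φ u)
  obtain ⟨v, hv, hvI⟩ := (Frequently.and_eventually hg (Ioo_mem_nhdsGT hc)).exists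
  have h1 : ∀ᶠ v' in 𝓝 v, MR ρ φ v' = MR ρ φ u := by
    filter_upwards [Ioo_mem_nhds hvI.1 hvI.2] with v' hv'
    exact (hsub hv').2
  exact fun j => F.wt_slot h hmin h1 (hv.2 (k0, j))

end RayC

end frame

end Vale.Agent.P032.H326
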